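import Mathlib

/-! Statements for S0104 (near inclusion without a unitary near `1`); proofs in `NPlan.lean`. -/

set_option autoImplicit false

namespace Crest.Agent.H8.KK

open scoped InnerProductSpace

universe u

/-- Hyperreflexivity constant: `dist (Y, P') ≤ C ‖ad Y|_P‖` (S0165 + Arveson). -/
def HR (C : ℝ) : Prop :=
  ∀ (K : Type u) [NormedAddCommGroup K] [InnerProductSpace ℂ K] [CompleteSpace K]
    (P : VonNeumannAlgebra K) (Y : K →L[ℂ] K) (g : ℝ), 0 ≤ g →
    (∀ a ∈ P, ‖Y * a - a * Y‖ ≤ g * ‖a‖) → ∃ z ∈ P.commutant, ‖Y - z‖ ≤ C * g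

variable {H : Type} [NormedAddCommGroup H] [InnerProductSpace ℂ H] [CompleteSpace H]

/-- all elements of `S` and their adjoints commute with all elements of `T` and their adjoints -/
def SC (S T : Set (H →L[ℂ] H)) : Prop :=
  ∀ x ∈ S, ∀ y ∈ T, Commute x y ∧ Commute (star x) y

/-- The abstract Fock model `F_A ⊗ F_B ⊗ ℂ^{p+1}`: `a, b` right and `l, l'` left creation
operators, `e` matrix units, `η none` the vacuum. -/
structure Fk (H : Type) [NormedAddCommGroup H] [InnerProductSpace ℂ H] [CompleteSpace H]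
    (p : ℕ) where
  a : ZMod p → H →L[ℂ] H
  b : ZMod p → H →L[ℂ] H
  l : ZMod p → H →L[ℂ] H
  l' : ZMod p → H →L[ℂ] H
  e : Option (ZMod p) → Option (ZMod p) → H →L[ℂ] H
  η : Option (ZMod p) → H
  aa : ∀ i k, star (a i) * a k = if i = k then 1 else 0
  bb : ∀ i k, star (b i) * b k = if i = k then 1 else 0
  ll : ∀ i k, star (l i) * l k = if i = k then 1 else 0
  ll' : ∀ i k, star (l' i) * l' k = if i = k then 1 else 0
  ee : ∀ x y z w, e x y * e z w = if y = z then e x w else 0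
  e_star : ∀ x y, star (e x y) = e y x
  AB : SC (Set.range a ∪ Set.range l) (Set.range b ∪ Set.range l')
  Ae : SC (Set.range a ∪ Set.range l) {t | ∃ x y, t = e x y}
  Be : SC (Set.range b ∪ Set.range l') {t | ∃ x y, t = e x y}
  cd : ∀ i k, Commute (l i + star (l i)) (a k + star (a k))
  cd' : ∀ i k, Commute (l' i + star (l' i)) (b k + star (b k))
  η_norm : ‖η none‖ = 1
  e_η : ∀ x, e x none (η none) = η x
  a_η : ∀ i, star (a i) (η none) = 0
  b_η : ∀ i, star (b i) (η none) = 0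
  l_η : ∀ i, star (l i) (η none) = 0
  l'_η : ∀ i, star (l' i) (η none) = 0
  la_η : ∀ i, l i (η none) = a i (η none)
  lb_η : ∀ i, l' i (η none) = b i (η none)

namespace Fk

variable {p : ℕ} [Fact p.Prime] (F : Fk H p)

/-- the phases `ε i j = ψ (i² j)` -/
noncomputable def ph (i j : ZMod p) : ℂ := ZMod.stdAddChar (i ^ 2 * j)

noncomputable def V (i : ZMod p) : H →L[ℂ] H :=
  ((√(p : ℝ))⁻¹ : ℂ) • ∑ j, ph i j • (F.b j * F.e (some (i + j)) none)

noncomputable def W : H →L[ℂ] H := ∑ i, star (F.a i) * F.V i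

noncomputable def P : H →L[ℂ] H := ∑ i, F.a i * star (F.a i) * F.e none none

noncomputable def Q : H →L[ℂ] H := ∑ i, F.V i * star (F.V i)

noncomputable def U : H →L[ℂ] H := 1 - F.P - F.Q + F.W - star F.W

/-- `m` is of type `M₀` -/
structure Mz (m : H →L[ℂ] H) : Prop where
  d : ∀ i, Commute m (F.a i + star (F.a i))
  b : ∀ i, Commute m (F.b i)
  b' : ∀ i, Commute m (star (F.b i))
  e : ∀ x y, Commute m (F.e x y)

/-- `y` is of type `R₀` -/
structure Rz (y : H →L[ℂ] H) : Prop where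
  d : ∀ i, Commute y (F.b i + star (F.b i))
  a : ∀ i, Commute y (F.a i)
  a' : ∀ i, Commute y (star (F.a i))
  e : ∀ x y', Commute y (F.e x y')

/-- `S = ∑ [m, aᵢ] [y, Vᵢ]` -/
noncomputable def S (m y : H →L[ℂ] H) : H →L[ℂ] H :=
  ∑ i, (m * F.a i - F.a i * m) * (y * F.V i - F.V i * y)

end Fk

/-- N1: the model exists. -/
def N1 : Prop := ∀ (p : ℕ) [Fact p.Prime], ∃ (H : Type) (_ : NormedAddCommGroup H)
  (_ : InnerProductSpace ℂ H) (_ : CompleteSpace H) (_ : TopologicalSpace.SeparableSpace H),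
  Nonempty (Fk H p)

/-- N2: the bound on `S`. -/
def N2 : Prop := ∀ (H : Type) [NormedAddCommGroup H] [InnerProductSpace ℂ H] [CompleteSpace H]
  (p : ℕ) [Fact p.Prime], p ≠ 2 → ∀ (F : Fk H p) (m y : H →L[ℂ] H), F.Mz m → F.Rz y →
    Commute m y → Commute m (star y) →
    ‖F.S m y‖ ^ 2 ≤ (16 + 16 * √(p : ℝ)) / p * (‖m‖ * ‖y‖) ^ 2

/-- N3: `U` is unitary and the commutator estimate. -/
def N3 : Prop := ∀ (H : Type) [NormedAddCommGroup H] [InnerProductSpace ℂ H] [CompleteSpace H]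
  (p : ℕ) [Fact p.Prime] (F : Fk H p), F.U ∈ unitary (H →L[ℂ] H) ∧
    ∀ (m y : H →L[ℂ] H), F.Mz m → F.Rz y → Commute m y →
      ‖y * (F.U * m * star F.U) - (F.U * m * star F.U) * y‖ ≤
        ‖F.S m y‖ + 6 * ‖F.S (star m) (star y)‖

/-- N4: the lower bound. -/
def N4 : Prop := ∀ (H : Type) [NormedAddCommGroup H] [InnerProductSpace ℂ H] [CompleteSpace H]
  (p : ℕ) [Fact p.Prime] (F : Fk H p), F.U ∈ unitary (H →L[ℂ] H) →
    ∀ v ∈ unitary (H →L[ℂ] H), (∀ i j, Commute (v * (F.U * (F.l i + star (F.l i)) * star F.U) * star v)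
      (F.l' j + star (F.l' j))) → 1 / 8 ≤ ‖v - 1‖

end Crest.Agent.H8.KK
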