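import Crest.Agent.S0165
import Crest.Agent.H1KK.LiftA
import Crest.Agent.H8.KK.NDefs

/-! Hyperreflexivity of von Neumann algebras: S0165 and Arveson's distance formula. -/

set_option autoImplicit false

namespace Crest.Agent.H8.KK

open scoped InnerProductSpace
open Crest.Agent.H9.KD

universe u

variable {K : Type u} [NormedAddCommGroup K] [InnerProductSpace ℂ K] [CompleteSpace K]

theorem exists_amp_proj (P : VonNeumannAlgebra K) (h : ℕ) (ξ : PiLp 2 (fun _ : Fin h => K)) :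
    ∃ p : PiLp 2 (fun _ : Fin h => K) →L[ℂ] PiLp 2 (fun _ : Fin h => K), ‖p‖ ≤ 1 ∧ p ξ = ξ ∧
      (∀ z ∈ P.commutant, ∀ v, p (amp (K := K) (Fin h) z v) = amp (K := K) (Fin h) z (p v)) ∧
      ∀ η, (∀ z ∈ P.commutant, ⟪η, amp (K := K) (Fin h) z ξ⟫_ℂ = 0) → ∀ v, ⟪η, p v⟫_ℂ = 0 := by
  let W : Submodule ℂ (PiLp 2 (fun _ : Fin h => K)) :=
    { carrier := {v | ∃ z ∈ P.commutant, v = amp (K := K) (Fin h) z ξ}
      zero_mem' := ⟨0, zero_mem _, by simp⟩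
      add_mem' := by
        rintro _ _ ⟨y, hy, rfl⟩ ⟨z, hz, rfl⟩
        exact ⟨y + z, add_mem hy hz, by simp⟩
      smul_mem' := by
        rintro c _ ⟨y, hy, rfl⟩
        exact ⟨c • y, P.commutant.toStarSubalgebra.smul_mem hy c, by simp⟩ }
  let V := W.topologicalClosure
  have : CompleteSpace V := W.isClosed_topologicalClosure.completeSpace_coe
  have hinv : ∀ z ∈ P.commutant, ∀ v ∈ V, amp (K := K) (Fin h) z v ∈ V := by
    intro z hz v hv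
    refine map_mem_closure (amp (K := K) (Fin h) z).continuous hv ?_
    rintro _ ⟨y, hy, rfl⟩
    exact ⟨z * y, mul_mem hz hy, by simp⟩
  refine ⟨V.starProjection, V.starProjection_norm_le, V.starProjection_eq_self_iff.2
    (W.le_topologicalClosure ⟨1, one_mem _, by simp⟩), fun z hz v => ?_, fun η hη v => ?_⟩
  · refine Submodule.eq_starProjection_of_mem_of_inner_eq_zero
      (hinv z hz _ (V.starProjection_apply_mem v)) fun w hw => ?_
    rw [← map_sub, ← ContinuousLinearMap.adjoint_inner_right, ← ContinuousLinearMap.star_eq_adjoint,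
      ← map_star]
    exact V.starProjection_inner_eq_zero v _ (hinv _ (star_mem hz) w hw)
  · have hcl : closure (W : Set (PiLp 2 (fun _ : Fin h => K))) ⊆ {w | ⟪η, w⟫_ℂ = 0} := by
      refine closure_minimal ?_ (isClosed_eq (by fun_prop) continuous_const)
      rintro _ ⟨z, hz, rfl⟩
      exact hη z hz
    exact hcl (V.starProjection_apply_mem v)

omit [CompleteSpace K] in
theorem rebalance (ξ η : K) : ∃ ξ' η' : K, (∀ T : K →L[ℂ] K, ⟪η', T ξ'⟫_ℂ = ⟪η, T ξ⟫_ℂ) ∧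
    ‖ξ'‖ ^ 2 = ‖ξ‖ * ‖η‖ ∧ ‖η'‖ ^ 2 = ‖ξ‖ * ‖η‖ := by
  rcases eq_or_ne ξ 0 with rfl | h1
  · exact ⟨0, 0, by simp, by simp, by simp⟩
  rcases eq_or_ne η 0 with rfl | h2
  · exact ⟨0, 0, by simp, by simp, by simp⟩
  have a1 := norm_pos_iff.2 h1
  have a2 := norm_pos_iff.2 h2
  have a3 : 0 < √(‖η‖ / ‖ξ‖) := by positivity
  have a4 : √(‖η‖ / ‖ξ‖) ^ 2 = ‖η‖ / ‖ξ‖ := Real.sq_sqrt (by positivity)
  refine ⟨((√(‖η‖ / ‖ξ‖) : ℝ) : ℂ) • ξ, (((√(‖η‖ / ‖ξ‖))⁻¹ : ℝ) : ℂ) • η, fun T => ?_, ?_, ?_⟩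
  · rw [map_smul, inner_smul_left, inner_smul_right, Complex.conj_ofReal, ← mul_assoc,
      ← Complex.ofReal_mul, inv_mul_cancel₀ a3.ne']
    simp
  · rw [norm_smul, Complex.norm_real, Real.norm_of_nonneg a3.le, mul_pow, a4]; field_simp
  · rw [norm_smul, Complex.norm_real, Real.norm_of_nonneg (by positivity), mul_pow, inv_pow, a4]
    field_simp

theorem hr_dual : ∃ C : ℝ, 1 ≤ C ∧ ∀ (K : Type u) [NormedAddCommGroup K] [InnerProductSpace ℂ K]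
    [CompleteSpace K] (P : VonNeumannAlgebra K) (Y : K →L[ℂ] K) (g : ℝ), 0 ≤ g →
    (∀ a ∈ P, ‖Y * a - a * Y‖ ≤ g * ‖a‖) → ∀ (κ : Type) [Fintype κ] (ξ η : κ → K),
    (∀ z ∈ P.commutant, ∑ k, ⟪η k, z (ξ k)⟫_ℂ = 0) →
    ‖∑ k, ⟪η k, Y (ξ k)⟫_ℂ‖ ≤ C * g * ∑ k, ‖ξ k‖ * ‖η k‖ := by
  obtain ⟨C, hC⟩ := Crest.Agent.S0165.result.{u}
  refine ⟨max C 1, le_max_right _ _, fun K _ _ _ P Y g hg hY κ _ ξ₀ η₀ h₀ => ?_⟩
  choose ξ₁ η₁ h1 h2 h3 using fun k => rebalance (ξ₀ k) (η₀ k)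
  obtain ⟨h, ⟨e⟩⟩ : ∃ h, Nonempty (Fin h ≃ κ) := ⟨_, ⟨(Fintype.equivFin κ).symm⟩⟩
  rcases Nat.eq_zero_or_pos h with rfl | hh
  · have : IsEmpty κ := e.symm.isEmpty
    simp
  let ξ : PiLp 2 (fun _ : Fin h => K) := WithLp.toLp 2 fun i => ξ₁ (e i)
  let η : PiLp 2 (fun _ : Fin h => K) := WithLp.toLp 2 fun i => η₁ (e i)
  have hin : ∀ z : K →L[ℂ] K, ⟪η, amp (K := K) (Fin h) z ξ⟫_ℂ = ∑ k, ⟪η₀ k, z (ξ₀ k)⟫_ℂ := by
    intro z
    rw [PiLp.inner_apply, ← e.sum_comp]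
    exact Finset.sum_congr rfl fun i _ => h1 _ _
  have hs : 0 ≤ ∑ k, ‖ξ₀ k‖ * ‖η₀ k‖ := by positivity
  have n1 : ‖ξ‖ ^ 2 = ∑ k, ‖ξ₀ k‖ * ‖η₀ k‖ := by
    rw [PiLp.norm_sq_eq_of_L2, ← e.sum_comp]; exact Finset.sum_congr rfl fun i _ => h2 _
  have n2 : ‖η‖ ^ 2 = ∑ k, ‖ξ₀ k‖ * ‖η₀ k‖ := by
    rw [PiLp.norm_sq_eq_of_L2, ← e.sum_comp]; exact Finset.sum_congr rfl fun i _ => h3 _
  have n3 : ‖η‖ * ‖ξ‖ = ∑ k, ‖ξ₀ k‖ * ‖η₀ k‖ := by
    have : ‖η‖ = ‖ξ‖ := (sq_eq_sq₀ (norm_nonneg _) (norm_nonneg _)).1 (n2.trans n1.symm)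
    rw [this, ← sq, n1]
  obtain ⟨p, p1, p2, p3, p4⟩ := exists_amp_proj P h ξ
  let x : Fin h → Fin h → (K →L[ℂ] K) := fun i j => PiLp.proj 2 (fun _ : Fin h => K) i ∘L p ∘L
    (PiLp.continuousLinearEquiv 2 ℂ (fun _ : Fin h => K)).symm.toContinuousLinearMap ∘L
      ContinuousLinearMap.single ℂ (fun _ : Fin h => K) j
  have hx : ∀ i j v, x i j v = p (PiLp.single 2 j v) i := fun _ _ _ => rfl
  have key := hC K P Y g hY h hh (amp (K := K) (Fin h) Y) p x (fun _ _ => rfl) (fun i j => by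
    rw [← P.commutant_commutant, VonNeumannAlgebra.mem_commutant_iff]
    intro z hz
    ext v
    have := congrArg (fun w => w i) (p3 z hz (PiLp.single 2 j v))
    simp only [amp_apply] at this
    have e2 : amp (K := K) (Fin h) z (PiLp.single 2 j v) = PiLp.single 2 j (z v) := by
      ext k
      simp only [amp_apply, PiLp.single_apply]
      split_ifs <;> simp
    rw [mul_apply_eq_comp, mul_apply_eq_comp, hx, hx, ← this, e2]) (fun v i => by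
    have : v = ∑ j, PiLp.single 2 j (v j) := by
      ext k; simp
    conv_lhs => rw [this, map_sum]
    simp [hx])
  have e1 : ⟪η, (amp (K := K) (Fin h) Y * p - p * amp (K := K) (Fin h) Y) ξ⟫_ℂ =
      ∑ k, ⟪η₀ k, Y (ξ₀ k)⟫_ℂ := by
    rw [sub_apply, inner_sub_right, mul_apply_eq_comp, mul_apply_eq_comp, p2, hin,
      p4 η (fun z hz => (hin z).trans (h₀ z hz)), sub_zero]
  rw [← e1, ← n3]
  refine (norm_inner_le_norm _ _).trans ?_
  have k2 : ‖amp (K := K) (Fin h) Y * p - p * amp (K := K) (Fin h) Y‖ ≤ max C 1 * g := by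
    refine key.trans ?_
    calc C * g * ‖p‖ ≤ max C 1 * g * ‖p‖ := by gcongr; exact le_max_left _ _
      _ ≤ max C 1 * g := mul_le_of_le_one_right (by positivity) p1
  have := ((amp (K := K) (Fin h) Y * p - p * amp (K := K) (Fin h) Y).le_of_opNorm_le k2 ξ)
  calc _ ≤ ‖η‖ * (max C 1 * g * ‖ξ‖) := by gcongr
    _ = _ := by ring

theorem hr : ∃ C : ℝ, 1 ≤ C ∧ HR.{u} C := by
  obtain ⟨C, hC1, hC⟩ := hr_dual.{u}
  refine ⟨C, hC1, fun K _ _ _ P Y g hg hY => ?_⟩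
  let ev : K → K → (P.commutant → ℂ) := fun ξ η z => ⟪η, (z : K →L[ℂ] K) ξ⟫_ℂ
  let T : Set ((P.commutant → ℂ) × ℝ) := {p | ∃ (κ : Type) (_ : Fintype κ)
    (ξ η : κ → K), p.1 = ∑ k, ev (ξ k) (η k) ∧
      p.2 ≤ ∑ k, ((⟪η k, Y (ξ k)⟫_ℂ).re - C * g * (‖ξ k‖ * ‖η k‖))}
  obtain ⟨f, hf⟩ := hb_cone T
    ⟨Empty, inferInstance, Empty.elim, Empty.elim, by simp, by simp⟩ (by
      rintro p ⟨κ, _, ξ, η, h1, h2⟩ q ⟨κ', _, ξ', η', h1', h2'⟩
      refine ⟨κ ⊕ κ', inferInstance, Sum.elim ξ ξ', Sum.elim η η', ?_, ?_⟩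
      · simp [h1, h1']
      · simp only [Prod.snd_add, Fintype.sum_sum_type, Sum.elim_inl, Sum.elim_inr]
        linarith) (by
      rintro r hr p ⟨κ, _, ξ, η, h1, h2⟩
      refine ⟨κ, inferInstance, fun k => (r : ℂ) • ξ k, η, ?_, ?_⟩
      · simp only [Prod.smul_fst, h1, Finset.smul_sum]
        refine Finset.sum_congr rfl fun k _ => ?_
        funext y
        simp [ev]
      · simp only [Prod.smul_snd, smul_eq_mul]
        refine (mul_le_mul_of_nonneg_left h2 hr.le).trans (le_of_eq ?_)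
        rw [Finset.mul_sum]
        refine Finset.sum_congr rfl fun k _ => ?_
        simp [norm_smul, abs_of_pos hr]
        ring) (by
      rintro r ⟨κ, _, ξ, η, h1, h2⟩
      have h3 := hC K P Y g hg hY κ ξ η (fun y hy => by
        have := congrFun h1 ⟨y, hy⟩
        simpa [ev, Finset.sum_apply] using this.symm)
      have h4 := (Complex.re_le_norm _).trans h3
      rw [Finset.sum_sub_distrib, ← Finset.mul_sum, ← Complex.re_sum] at h2
      simp only at h2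
      linarith) (by
      rintro e r ⟨κ, _, ξ, η, h1, h2⟩
      refine ⟨_, κ, inferInstance, fun k => -ξ k, η, ?_, le_rfl⟩
      simp only at h1
      simp only [h1, ← Finset.sum_neg_distrib]
      refine Finset.sum_congr rfl fun k _ => ?_
      funext y
      simp [ev])
  let G : (P.commutant → ℂ) →ₗ[ℂ] ℂ := Module.Dual.extendRCLike f
  have hre : ∀ e, (G e).re = f e := fun e => Module.Dual.re_extendRCLike_apply (𝕜 := ℂ) f e
  have ev3 : ∀ ξ ξ' η, ev (ξ + ξ') η = ev ξ η + ev ξ' η := by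
    intro ξ ξ' η; funext y; simp [ev]
  have ev4 : ∀ (a : ℂ) ξ η, ev (a • ξ) η = a • ev ξ η := by
    intro a ξ η; funext y; simp [ev]
  have ev1 : ∀ ξ η η', ev ξ (η + η') = ev ξ η + ev ξ η' := by
    intro ξ η η'; funext y; simp [ev]
  have ev2 : ∀ (a : ℂ) ξ η, ev ξ (a • η) = (starRingEnd ℂ) a • ev ξ η := by
    intro a ξ η; funext y; simp [ev, mul_comm]
  have hb : ∀ η ξ, ‖⟪η, Y ξ⟫_ℂ - G (ev ξ η)‖ ≤ C * g * ‖η‖ * ‖ξ‖ := by
    intro η ξ
    obtain ⟨a, ha, hz⟩ := Complex.exists_norm_eq_mul_self (⟪η, Y ξ⟫_ℂ - G (ev ξ η))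
    have h := hf (ev (a • ξ) η)
      ((⟪η, Y (a • ξ)⟫_ℂ).re - C * g * (‖a • ξ‖ * ‖η‖)) ⟨Unit, inferInstance,
      fun _ => a • ξ, fun _ => η, by simp, by simp⟩
    rw [← hre, ev4, map_smul] at h
    have h2 := congrArg Complex.re hz
    simp only [map_smul, inner_smul_right, norm_smul, ha, smul_eq_mul] at h
    rw [mul_sub, Complex.sub_re, Complex.ofReal_re] at h2
    nlinarith
  obtain ⟨D, hD1, hD2⟩ := H1KK.exists_op_of_form (fun η ξ => ⟪η, Y ξ⟫_ℂ - G (ev ξ η)) (C * g)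
    (by positivity)
    (by intro η η' ξ; rw [ev1, map_add, inner_add_left]; ring)
    (by intro a η ξ; rw [ev2, map_smul, inner_smul_left, smul_eq_mul]; ring)
    (by intro η ξ ξ'; rw [ev3, map_add, map_add, inner_add_right]; ring)
    (by intro a η ξ; rw [ev4, map_smul, map_smul, inner_smul_right, smul_eq_mul]; ring) hb
  have hφ : ∀ η ξ, ⟪η, (Y - D) ξ⟫_ℂ = G (ev ξ η) := by
    intro η ξ
    rw [sub_apply, inner_sub_right, hD2]; ring
  refine ⟨Y - D, ?_, by rwa [sub_sub_cancel]⟩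
  rw [VonNeumannAlgebra.mem_commutant_iff]
  intro a ha
  ext ξ
  refine ext_inner_left ℂ fun η => ?_
  rw [mul_apply_eq_comp, mul_apply_eq_comp, hφ η (a ξ),
    ← ContinuousLinearMap.adjoint_inner_left, ← ContinuousLinearMap.star_eq_adjoint, hφ]
  congr 1
  funext w
  have hw := (VonNeumannAlgebra.mem_commutant_iff.mp w.2) a ha
  have : a ((w : K →L[ℂ] K) ξ) = (w : K →L[ℂ] K) (a ξ) := congrArg (fun T => T ξ) hw
  simp only [ev]
  rw [← this, ContinuousLinearMap.star_eq_adjoint, ContinuousLinearMap.adjoint_inner_left]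

end Crest.Agent.H8.KK
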