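import Mathlib

/-! Operators on `ℓ²(X; K)`: partial injections, diagonal operators, currying. -/

set_option autoImplicit false

noncomputable section

namespace Crest.Agent.H8.KK

open scoped InnerProductSpace

abbrev L2 (X : Type*) (K : Type*) [NormedAddCommGroup K] := lp (fun _ : X => K) 2

variable {A B C : Type*} {K K' K'' : Type*} [NormedAddCommGroup K] [InnerProductSpace ℂ K]
  [NormedAddCommGroup K'] [InnerProductSpace ℂ K'] [NormedAddCommGroup K''] [InnerProductSpace ℂ K'']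

omit [InnerProductSpace ℂ K] in
theorem hasSum_sq (ξ : L2 A K) : HasSum (fun a => ‖ξ a‖ ^ 2) (‖ξ‖ ^ 2) := by
  simpa using lp.hasSum_norm (p := 2) (by norm_num) ξ

omit [InnerProductSpace ℂ K] in
theorem sum_sq_le (ξ : L2 A K) (s : Finset A) : ∑ a ∈ s, ‖ξ a‖ ^ 2 ≤ ‖ξ‖ ^ 2 :=
  sum_le_hasSum s (fun _ _ => by positivity) (hasSum_sq ξ)

omit [InnerProductSpace ℂ K] in
theorem mem_of_sum_le {f : A → K} {c : ℝ} (h : ∀ s : Finset A, ∑ a ∈ s, ‖f a‖ ^ 2 ≤ c) :
    Memℓp f 2 := memℓp_gen' (C := c) (by simpa using h)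

omit [InnerProductSpace ℂ K] in
theorem norm_le_of_sum_le {ξ : L2 A K} {c : ℝ} (hc : 0 ≤ c)
    (h : ∀ s : Finset A, ∑ a ∈ s, ‖ξ a‖ ^ 2 ≤ c ^ 2) : ‖ξ‖ ≤ c :=
  lp.norm_le_of_forall_sum_le (by norm_num) hc (by simpa using h)

omit [InnerProductSpace ℂ K] in
theorem pull_aux (e : A ≃. B) (ξ : L2 B K) (s : Finset A) :
    ∑ a ∈ s, ‖(e a).elim 0 ξ‖ ^ 2 ≤ ‖ξ‖ ^ 2 := by
  classical
  refine le_trans ?_ (sum_sq_le ξ (s.biUnion fun a => (e a).toFinset))
  rw [Finset.sum_biUnion]
  · refine Finset.sum_le_sum fun a _ => ?_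
    cases e a <;> simp
  · intro a _ a' _ h
    refine Finset.disjoint_left.2 fun b hb hb' => h ?_
    rw [Option.mem_toFinset] at hb hb'
    exact e.inj hb hb'

variable (K) in
/-- `(pull e ξ) a = ξ b` if `e a = some b` and `0` if `e a = none`. -/
def pull (e : A ≃. B) : L2 B K →L[ℂ] L2 A K :=
  LinearMap.mkContinuous
    { toFun := fun ξ => ⟨fun a => (e a).elim 0 ξ, mem_of_sum_le (pull_aux e ξ)⟩
      map_add' := fun ξ ζ => by
        ext a
        change (e a).elim 0 _ = (e a).elim 0 ξ + (e a).elim 0 ζ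
        cases e a <;> simp
      map_smul' := fun c ξ => by
        ext a
        change (e a).elim 0 _ = c • (e a).elim 0 ξ
        cases e a <;> simp } 1
    fun ξ => by rw [one_mul]; exact norm_le_of_sum_le (norm_nonneg _) (pull_aux e ξ)

theorem pull_apply (e : A ≃. B) (ξ : L2 B K) (a : A) : pull K e ξ a = (e a).elim 0 ξ := rfl

theorem pull_some {e : A ≃. B} {a : A} {b : B} (h : e a = some b) (ξ : L2 B K) :
    pull K e ξ a = ξ b := by rw [pull_apply, h]; rfl

theorem pull_none {e : A ≃. B} {a : A} (h : e a = none) (ξ : L2 B K) :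
    pull K e ξ a = 0 := by rw [pull_apply, h]; rfl

@[simp] theorem pull_equiv (e : A ≃ B) (ξ : L2 B K) (a : A) : pull K e.toPEquiv ξ a = ξ (e a) := rfl

theorem norm_pull_le (e : A ≃. B) : ‖pull K e‖ ≤ 1 :=
  LinearMap.mkContinuous_norm_le _ zero_le_one _

theorem pull_trans (e : A ≃. B) (e' : B ≃. C) :
    pull K (e.trans e') = pull K e ∘L pull K e' := by
  ext1 ξ; ext a
  change ((e a).bind e').elim 0 ξ = (e a).elim 0 (pull K e' ξ)
  cases e a <;> rfl

theorem pull_mul (e e' : A ≃. A) : pull K e * pull K e' = pull K (e.trans e') :=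
  (pull_trans e e').symm

@[simp] theorem pull_refl : pull K (PEquiv.refl A) = 1 := by ext1 ξ; ext a; rfl

@[simp] theorem pull_bot : pull K (⊥ : A ≃. B) = 0 := by ext1 ξ; ext a; rfl

theorem pull_single [DecidableEq A] [DecidableEq B] (e : A ≃. B) (b : B) (k : K) :
    pull K e (lp.single 2 b k) = (e.symm b).elim 0 fun a => lp.single 2 a k := by
  ext a
  rw [pull_apply]
  rcases h : e.symm b with _ | a'
  · rcases h' : e a with _ | b'
    · rfl
    · have : b' ≠ b := by rintro rfl; rw [e.eq_some_iff.2 h'] at h; cases h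
      exact lp.single_apply_ne _ _ _ this
  · have h1 := e.eq_some_iff.1 h
    by_cases ha : a = a'
    · subst ha; rw [h1]; simp
    · rcases h' : e a with _ | b'
      · exact (lp.single_apply_ne (E := fun _ : A => K) _ _ _ ha).symm
      · have : b' ≠ b := by rintro rfl; exact ha (e.inj h' h1)
        exact (lp.single_apply_ne _ _ _ this).trans
          (lp.single_apply_ne (E := fun _ : A => K) _ _ _ ha).symm

theorem ext_single [DecidableEq A] {E : Type*} [NormedAddCommGroup E] [NormedSpace ℂ E]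
    {S T : L2 A K →L[ℂ] E} (h : ∀ a k, S (lp.single 2 a k) = T (lp.single 2 a k)) : S = T :=
  lp.ext_continuousLinearMap (by norm_num) fun a => ContinuousLinearMap.ext fun k => h a k

theorem inner_pull (e : A ≃. B) (ξ : L2 B K) (ζ : L2 A K) :
    ⟪pull K e.symm ζ, ξ⟫_ℂ = ⟪ζ, pull K e ξ⟫_ℂ := by
  classical
  have : innerSL ℂ (pull K e.symm ζ) = innerSL ℂ ζ ∘L pull K e := ext_single fun b k => by
    rw [ContinuousLinearMap.comp_apply, innerSL_apply_apply, innerSL_apply_apply,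
      lp.inner_single_right, pull_single, pull_apply]
    cases e.symm b
    · simp
    · simp [lp.inner_single_right]
  exact congrArg (fun f : L2 B K →L[ℂ] ℂ => f ξ) this

theorem adjoint_pull [CompleteSpace K] (e : A ≃. B) :
    ContinuousLinearMap.adjoint (pull K e) = pull K e.symm :=
  ((ContinuousLinearMap.eq_adjoint_iff _ _).2 fun ζ ξ => inner_pull e ξ ζ).symm

theorem star_pull [CompleteSpace K] (e : A ≃. A) : star (pull K e) = pull K e.symm :=
  adjoint_pull e

variable (A) in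
/-- the constant diagonal operator -/
def dgl (T : K →L[ℂ] K') : L2 A K →L[ℂ] L2 A K' :=
  lp.mapCLM 2 (fun _ => T) (norm_nonneg T) fun _ => le_rfl

@[simp] theorem dgl_apply (T : K →L[ℂ] K') (ξ : L2 A K) (a : A) : dgl A T ξ a = T (ξ a) := rfl

theorem norm_dgl_le (T : K →L[ℂ] K') : ‖dgl A T‖ ≤ ‖T‖ := lp.norm_mapCLM_le _ _ _ _

/-- a diagonal family of contractions -/
def dgf (T : A → K →L[ℂ] K') {c : ℝ} (hc : 0 ≤ c) (h : ∀ a, ‖T a‖ ≤ c) : L2 A K →L[ℂ] L2 A K' :=
  lp.mapCLM 2 T hc h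

@[simp] theorem dgf_apply (T : A → K →L[ℂ] K') {c : ℝ} (hc : 0 ≤ c) (h : ∀ a, ‖T a‖ ≤ c)
    (ξ : L2 A K) (a : A) : dgf T hc h ξ a = T a (ξ a) := rfl

theorem norm_dgf_le (T : A → K →L[ℂ] K') {c : ℝ} (hc : 0 ≤ c) (h : ∀ a, ‖T a‖ ≤ c) :
    ‖dgf T hc h‖ ≤ c := lp.norm_mapCLM_le _ _ _ _

theorem star_dgf [CompleteSpace K] (T T' : A → K →L[ℂ] K) {c c' : ℝ} (hc : 0 ≤ c)
    (h : ∀ a, ‖T a‖ ≤ c) (hc' : 0 ≤ c') (h' : ∀ a, ‖T' a‖ ≤ c') (hT : ∀ a, star (T a) = T' a) :
    star (dgf T hc h) = dgf T' hc' h' := by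
  symm
  rw [ContinuousLinearMap.star_eq_adjoint, ContinuousLinearMap.eq_adjoint_iff]
  intro ζ ξ
  simp only [lp.inner_eq_tsum, dgf_apply, ← hT, ContinuousLinearMap.star_eq_adjoint,
    ContinuousLinearMap.adjoint_inner_left]

variable (A K) in
/-- the constant diagonal operators as a star homomorphism -/
def dg [CompleteSpace K] : (K →L[ℂ] K) →⋆ₐ[ℂ] (L2 A K →L[ℂ] L2 A K) where
  toFun := dgl A
  map_one' := by ext1 ξ; ext a; rfl
  map_mul' _ _ := by ext1 ξ; ext a; rfl
  map_zero' := by ext1 ξ; ext a; rfl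
  map_add' _ _ := by ext1 ξ; ext a; rfl
  commutes' _ := by ext1 ξ; ext a; rfl
  map_star' T := (star_dgf (fun _ => T) (fun _ => star T) (norm_nonneg T) (fun _ => le_rfl)
    (norm_nonneg (star T)) (fun _ => le_rfl) fun _ => rfl).symm

@[simp] theorem dg_apply [CompleteSpace K] (T : K →L[ℂ] K) (ξ : L2 A K) (a : A) :
    dg A K T ξ a = T (ξ a) := rfl

theorem norm_dg_le [CompleteSpace K] (T : K →L[ℂ] K) : ‖dg A K T‖ ≤ ‖T‖ := norm_dgl_le T

theorem dgl_single [DecidableEq A] (T : K →L[ℂ] K') (a : A) (k : K) :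
    dgl A T (lp.single 2 a k) = lp.single 2 a (T k) := by
  ext b
  by_cases h : b = a
  · subst h; simp
  · rw [dgl_apply, lp.single_apply_ne _ _ _ h, lp.single_apply_ne _ _ _ h, map_zero]

theorem dg_single [CompleteSpace K] [DecidableEq A] (T : K →L[ℂ] K) (a : A) (k : K) :
    dg A K T (lp.single 2 a k) = lp.single 2 a (T k) := dgl_single T a k

theorem norm_dg [CompleteSpace K] [Nonempty A] (T : K →L[ℂ] K) : ‖dg A K T‖ = ‖T‖ := by
  classical
  refine (norm_dg_le T).antisymm (T.opNorm_le_bound (norm_nonneg _) fun k => ?_)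
  obtain ⟨a⟩ := ‹Nonempty A›
  have := (dg A K T).le_opNorm (lp.single 2 a k)
  rwa [dg_single, lp.norm_single (by norm_num), lp.norm_single (by norm_num)] at this

theorem pull_dgl (e : A ≃. B) (T : K →L[ℂ] K') (ξ : L2 B K) :
    pull K' e (dgl B T ξ) = dgl A T (pull K e ξ) := by
  ext a
  rw [pull_apply, dgl_apply, pull_apply]
  cases e a <;> simp

theorem commute_pull_dg [CompleteSpace K] (e : A ≃. A) (T : K →L[ℂ] K) :
    Commute (pull K e) (dg A K T) := ContinuousLinearMap.ext fun ξ => pull_dgl e T ξ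

omit [InnerProductSpace ℂ K] in
theorem curry_aux (ξ : L2 (A × B) K) (a : A) : Memℓp (fun b => ξ (a, b)) 2 :=
  memℓp_gen (by simpa using (hasSum_sq ξ).summable.prod_factor a)

omit [InnerProductSpace ℂ K] in
theorem curry_hasSum (ξ : L2 (A × B) K) :
    HasSum (fun a => ‖(⟨fun b => ξ (a, b), curry_aux ξ a⟩ : L2 B K)‖ ^ 2) (‖ξ‖ ^ 2) :=
  (hasSum_sq ξ).prod_fiberwise fun a => hasSum_sq (⟨fun b => ξ (a, b), curry_aux ξ a⟩ : L2 B K)

variable (A B K) in
/-- currying -/
def curry : L2 (A × B) K ≃ₗᵢ[ℂ] L2 A (L2 B K) where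
  toFun ξ := ⟨fun a => ⟨fun b => ξ (a, b), curry_aux ξ a⟩,
    memℓp_gen (by simpa using (curry_hasSum ξ).summable)⟩
  invFun ζ := ⟨fun p => ζ p.1 p.2, memℓp_gen (by
    have := (summable_prod_of_nonneg (f := fun p : A × B => ‖ζ p.1 p.2‖ ^ 2)
      (fun _ => by positivity)).2 ⟨fun a => (hasSum_sq (ζ a)).summable, by
        simpa only [fun a => (hasSum_sq (ζ a)).tsum_eq] using (hasSum_sq ζ).summable⟩
    simpa using this)⟩
  map_add' _ _ := rfl
  map_smul' _ _ := rfl
  left_inv _ := rfl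
  right_inv _ := rfl
  norm_map' ξ := by
    rw [← sq_eq_sq₀ (norm_nonneg _) (norm_nonneg _)]
    exact (hasSum_sq _).unique (curry_hasSum ξ)

@[simp] theorem curry_apply (ξ : L2 (A × B) K) (a : A) (b : B) : curry A B K ξ a b = ξ (a, b) := rfl

@[simp] theorem curry_symm_apply (ζ : L2 A (L2 B K)) (p : A × B) :
    (curry A B K).symm ζ p = ζ p.1 p.2 := rfl

/-- a permutation of `A × B` as a linear isometric equivalence of `ℓ²(A; ℓ²(B; K))` -/
theorem exists_perm₂ (e : A × B ≃ A × B) : ∃ W : L2 A (L2 B K) ≃ₗᵢ[ℂ] L2 A (L2 B K),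
    ∀ ζ a b, W ζ a b = ζ (e (a, b)).1 (e (a, b)).2 := by
  let W₀ : L2 (A × B) K ≃ₗᵢ[ℂ] L2 (A × B) K :=
    { toFun := pull K e.toPEquiv
      invFun := pull K e.symm.toPEquiv
      map_add' := map_add _
      map_smul' := map_smul _
      left_inv := fun ξ => by ext p; simp
      right_inv := fun ξ => by ext p; simp
      norm_map' := fun ξ => by
        rw [← sq_eq_sq₀ (norm_nonneg _) (norm_nonneg _)]
        exact (hasSum_sq _).unique (e.hasSum_iff.2 (hasSum_sq ξ)) }
  exact ⟨((curry A B K).symm.trans W₀).trans (curry A B K), fun ζ a b => rfl⟩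

omit [InnerProductSpace ℂ K] in
instance separable_L2 [Countable A] [TopologicalSpace.SeparableSpace K] :
    TopologicalSpace.SeparableSpace (L2 A K) := by
  classical
  let S : Set (L2 A K) := ⋃ a, Set.range fun k : K => (lp.single 2 a k : L2 A K)
  have hS : TopologicalSpace.IsSeparable S := TopologicalSpace.IsSeparable.iUnion fun a =>
    TopologicalSpace.isSeparable_range (lp.isometry_single (E := fun _ : A => K) a).continuous
  have h2 : TopologicalSpace.IsSeparable
      (⋃ n : ℕ, Set.range fun f : Fin n → S => ∑ i, (f i : L2 A K)) := by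
    have := hS.separableSpace
    exact TopologicalSpace.IsSeparable.iUnion fun n =>
      TopologicalSpace.isSeparable_range (by fun_prop)
  rw [← TopologicalSpace.isSeparable_univ_iff]
  refine h2.closure.mono fun ξ _ => ?_
  refine mem_closure_of_tendsto (lp.hasSum_single (by norm_num) ξ) (.of_forall fun s => ?_)
  refine Set.mem_iUnion.2 ⟨s.card, fun i => ⟨lp.single 2 (s.equivFin.symm i : A) (ξ (s.equivFin.symm i : A)),
    Set.mem_iUnion.2 ⟨_, _, rfl⟩⟩, ?_⟩
  rw [← Finset.sum_coe_sort s]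
  exact Equiv.sum_comp s.equivFin.symm fun a : s => (lp.single 2 (a : A) (ξ a) : L2 A K)

end Crest.Agent.H8.KK
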