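import Crest.Agent.H8.KK.L2
import Crest.Agent.H8.KK.NDefs

/-! N1: the Fock model. -/

set_option autoImplicit false

noncomputable section

namespace Crest.Agent.H8.KK

namespace N1x

variable {A B C α : Type}

/-- product of partial equivalences -/
def prodP (E : A ≃. A) (G : B ≃. B) : A × B ≃. A × B where
  toFun x := Option.map₂ Prod.mk (E x.1) (G x.2)
  invFun x := Option.map₂ Prod.mk (E.symm x.1) (G.symm x.2)
  inv x y := by
    obtain ⟨a, b⟩ := x
    obtain ⟨a', b'⟩ := y
    simp only [Option.mem_def, Option.map₂_eq_some_iff, Prod.mk.injEq]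
    constructor
    · rintro ⟨_, _, h1, h2, rfl, rfl⟩
      exact ⟨_, _, E.eq_some_iff.1 h1, G.eq_some_iff.1 h2, rfl, rfl⟩
    · rintro ⟨_, _, h1, h2, rfl, rfl⟩
      exact ⟨_, _, E.eq_some_iff.2 h1, G.eq_some_iff.2 h2, rfl, rfl⟩

theorem prodP_apply (E : A ≃. A) (G : B ≃. B) (x : A × B) :
    prodP E G x = Option.map₂ Prod.mk (E x.1) (G x.2) := rfl

theorem prodP_symm (E : A ≃. A) (G : B ≃. B) : (prodP E G).symm = prodP E.symm G.symm := rfl

theorem trans_apply (E E' : A ≃. A) (x : A) : E.trans E' x = (E x).bind E' := rfl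

theorem prodP_trans (E E' : A ≃. A) (G G' : B ≃. B) :
    (prodP E G).trans (prodP E' G') = prodP (E.trans E') (G.trans G') := by
  refine PEquiv.ext fun x => ?_
  simp only [trans_apply, prodP_apply]
  cases E x.1 <;> cases G x.2 <;> simp [prodP_apply]

theorem prodP_refl : prodP (PEquiv.refl A) (PEquiv.refl B) = PEquiv.refl _ :=
  PEquiv.ext fun _ => rfl

theorem prodP_bot_left (G : B ≃. B) : prodP (⊥ : A ≃. A) G = ⊥ := PEquiv.ext fun _ => rfl

theorem prodP_bot_right (E : A ≃. A) : prodP E (⊥ : B ≃. B) = ⊥ := PEquiv.ext fun x => by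
  simp [prodP_apply]

/-- a total injection -/
def inj (f : A → A) (hf : Function.Injective f) : A ≃. A where
  toFun x := some (f x)
  invFun := Function.partialInv f
  inv x y := by
    simp only [Option.mem_def, Option.some.injEq]
    exact Function.partialInv_of_injective hf x y

theorem inj_symm_apply (f : A → A) (hf : Function.Injective f) (x : A) :
    (inj f hf).symm (f x) = some x := (inj f hf).eq_some_iff.2 rfl

theorem inj_symm_none (f : A → A) (hf : Function.Injective f) {y : A} (h : ∀ x, f x ≠ y) :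
    (inj f hf).symm y = none := by
  rcases h' : (inj f hf).symm y with _ | x
  · rfl
  · exact absurd (Option.some.inj ((inj f hf).eq_some_iff.1 h')) (h x)

def Lp (i : α) : List α ≃. List α := inj (i :: ·) List.cons_injective
def Rp (i : α) : List α ≃. List α := inj (· ++ [i]) fun _ _ h => List.append_cancel_right h

@[simp] theorem Lp_apply (i : α) (v : List α) : Lp i v = some (i :: v) := rfl
@[simp] theorem Rp_apply (i : α) (v : List α) : Rp i v = some (v ++ [i]) := rfl
@[simp] theorem Lp_nil (i : α) : (Lp i).symm [] = none := inj_symm_none _ _ (by simp)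
@[simp] theorem Rp_nil (i : α) : (Rp i).symm [] = none := inj_symm_none _ _ (by simp)

variable [DecidableEq α]

@[simp] theorem Lp_cons (i j : α) (v : List α) :
    (Lp i).symm (j :: v) = if j = i then some v else none := by
  split_ifs with h
  · subst h; exact inj_symm_apply _ _ v
  · exact inj_symm_none _ _ fun x hx => h (List.cons.inj hx).1.symm

theorem Rp_concat (i j : α) (v : List α) :
    (Rp i).symm (v ++ [j]) = if j = i then some v else none := by
  split_ifs with h
  · subst h; exact inj_symm_apply _ _ v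
  · exact inj_symm_none _ _ fun x hx => h (by simpa using (List.append_inj' hx rfl).2.symm)

theorem LL (i k : α) : (Lp i).trans (Lp k).symm = if i = k then PEquiv.refl _ else ⊥ :=
  PEquiv.ext fun v => by split_ifs with h <;> simp [trans_apply, h]

theorem RR (i k : α) : (Rp i).trans (Rp k).symm = if i = k then PEquiv.refl _ else ⊥ :=
  PEquiv.ext fun v => by split_ifs with h <;> simp [trans_apply, Rp_concat, h]

omit [DecidableEq α] in
theorem LR (i k : α) : (Lp i).trans (Rp k) = (Rp k).trans (Lp i) := PEquiv.ext fun _ => rfl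

omit [DecidableEq α] in
theorem LR' (i k : α) : (Lp i).symm.trans (Rp k).symm = (Rp k).symm.trans (Lp i).symm := by
  rw [← PEquiv.symm_trans_rev, ← PEquiv.symm_trans_rev, LR]

/-- two pairs which agree up to order at every point -/
def Sw (E1 E2 G1 G2 : A ≃. A) : Prop :=
  ∀ x, (E1 x = G1 x ∧ E2 x = G2 x) ∨ (E1 x = G2 x ∧ E2 x = G1 x)

theorem sw_list (i k : α) : Sw ((Lp i).symm.trans (Rp k)) ((Lp i).trans (Rp k).symm)
    ((Rp k).trans (Lp i).symm) ((Rp k).symm.trans (Lp i)) := fun v => by
  by_cases hv : v = []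
  · subst hv
    right
    have := Rp_concat k i []
    simp only [List.nil_append] at this
    simp [trans_apply, this, eq_comm]
  · left
    constructor
    · obtain ⟨j, w, rfl⟩ := List.exists_cons_of_ne_nil hv
      by_cases h : j = i <;> simp [trans_apply, h]
    · obtain ⟨w, j, rfl⟩ := (List.eq_nil_or_concat' v).resolve_left hv
      have := Rp_concat k j (i :: w)
      simp only [List.cons_append] at this
      simp only [trans_apply, Lp_apply, Option.bind_some, this, Rp_concat]
      split_ifs <;> simp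

theorem Sw.left {E1 E2 G1 G2 : A ≃. A} (h : Sw E1 E2 G1 G2) (F : B ≃. B) :
    Sw (prodP E1 F) (prodP E2 F) (prodP G1 F) (prodP G2 F) := fun x =>
  (h x.1).imp (fun h => by simp [prodP_apply, h.1, h.2]) fun h => by simp [prodP_apply, h.1, h.2]

theorem Sw.right {E1 E2 G1 G2 : A ≃. A} (h : Sw E1 E2 G1 G2) (F : B ≃. B) :
    Sw (prodP F E1) (prodP F E2) (prodP F G1) (prodP F G2) := fun x =>
  (h x.2).imp (fun h => by simp [prodP_apply, h.1, h.2]) fun h => by simp [prodP_apply, h.1, h.2]

theorem Sw.pull_add {E1 E2 G1 G2 : A ≃. A} (h : Sw E1 E2 G1 G2) :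
    pull ℂ E1 + pull ℂ E2 = pull ℂ G1 + pull ℂ G2 := by
  ext1 ξ; ext x
  change pull ℂ E1 ξ x + pull ℂ E2 ξ x = pull ℂ G1 ξ x + pull ℂ G2 ξ x
  simp only [pull_apply]
  rcases h x with h | h <;> rw [h.1, h.2]
  exact add_comm _ _

def T (E : A ≃. A) (F : B ≃. B) (G : C ≃. C) : L2 (A × B × C) ℂ →L[ℂ] L2 (A × B × C) ℂ :=
  pull ℂ (prodP E (prodP F G))

theorem T_mul (E E' : A ≃. A) (F F' : B ≃. B) (G G' : C ≃. C) :
    T E F G * T E' F' G' = T (E.trans E') (F.trans F') (G.trans G') := by
  simp only [T, pull_mul, prodP_trans]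

theorem star_T (E : A ≃. A) (F : B ≃. B) (G : C ≃. C) :
    star (T E F G) = T E.symm F.symm G.symm := star_pull _

theorem T_one : T (PEquiv.refl A) (PEquiv.refl B) (PEquiv.refl C) = 1 := by
  simp [T, prodP_refl]

theorem T_bot1 (F : B ≃. B) (G : C ≃. C) : T (⊥ : A ≃. A) F G = 0 := by simp [T, prodP_bot_left]
theorem T_bot2 (E : A ≃. A) (G : C ≃. C) : T E (⊥ : B ≃. B) G = 0 := by
  simp [T, prodP_bot_left, prodP_bot_right]
theorem T_bot3 (E : A ≃. A) (F : B ≃. B) : T E F (⊥ : C ≃. C) = 0 := by simp [T, prodP_bot_right]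

theorem comm_of {R : Type} [Ring R] {l l' a a' : R} (h1 : l * a = a * l) (h2 : l' * a' = a' * l')
    (h3 : l * a' + l' * a = a' * l + a * l') : Commute (l + l') (a + a') := by
  show _ = _
  calc (l + l') * (a + a') = l * a + l' * a' + (l * a' + l' * a) := by noncomm_ring
    _ = (a + a') * (l + l') := by rw [h1, h2, h3]; noncomm_ring

end N1x

open N1x

theorem n1 : N1 := by
  intro p _
  refine ⟨L2 (List (ZMod p) × List (ZMod p) × Option (ZMod p)) ℂ, inferInstance, inferInstance,
    inferInstance, inferInstance, ⟨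
    { a := fun i => T (Rp i).symm (.refl _) (.refl _)
      b := fun i => T (.refl _) (Rp i).symm (.refl _)
      l := fun i => T (Lp i).symm (.refl _) (.refl _)
      l' := fun i => T (.refl _) (Lp i).symm (.refl _)
      e := fun x y => T (.refl _) (.refl _) (PEquiv.single x y)
      η := fun x => lp.single 2 ([], [], x) 1
      aa := fun i k => ?_
      bb := fun i k => ?_
      ll := fun i k => ?_
      ll' := fun i k => ?_
      ee := fun x y z w => ?_
      e_star := fun x y => ?_
      AB := ?_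
      Ae := ?_
      Be := ?_
      cd := fun i k => ?_
      cd' := fun i k => ?_
      η_norm := ?_
      e_η := fun x => ?_
      a_η := fun i => ?_
      b_η := fun i => ?_
      l_η := fun i => ?_
      l'_η := fun i => ?_
      la_η := fun i => ?_
      lb_η := fun i => ?_ }⟩⟩
  · rw [star_T, T_mul, PEquiv.symm_symm, RR]; split_ifs <;> simp [T_one, T_bot1]
  · rw [star_T, T_mul, PEquiv.symm_symm, RR]; split_ifs <;> simp [T_one, T_bot2]
  · rw [star_T, T_mul, PEquiv.symm_symm, LL]; split_ifs <;> simp [T_one, T_bot1]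
  · rw [star_T, T_mul, PEquiv.symm_symm, LL]; split_ifs <;> simp [T_one, T_bot2]
  · rw [T_mul]
    split_ifs with h
    · subst h; simp
    · rw [PEquiv.single_trans_single_of_ne h, T_bot3]
  · rw [star_T]; simp
  · rintro _ (⟨i, rfl⟩ | ⟨i, rfl⟩) _ (⟨j, rfl⟩ | ⟨j, rfl⟩) <;>
      simp [Commute, SemiconjBy, star_T, T_mul]
  · rintro _ (⟨i, rfl⟩ | ⟨i, rfl⟩) _ ⟨x, y, rfl⟩ <;> simp [Commute, SemiconjBy, star_T, T_mul]
  · rintro _ (⟨i, rfl⟩ | ⟨i, rfl⟩) _ ⟨x, y, rfl⟩ <;> simp [Commute, SemiconjBy, star_T, T_mul]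
  · simp only [star_T, PEquiv.symm_symm, PEquiv.symm_refl]
    refine comm_of ?_ ?_ ?_ <;> simp only [T_mul, PEquiv.refl_trans]
    · rw [LR']
    · rw [LR]
    · exact ((sw_list i k).left _).pull_add
  · simp only [star_T, PEquiv.symm_symm, PEquiv.symm_refl]
    refine comm_of ?_ ?_ ?_ <;> simp only [T_mul, PEquiv.refl_trans]
    · rw [LR']
    · rw [LR]
    · exact (((sw_list i k).left _).right _).pull_add
  · rw [lp.norm_single (by norm_num), norm_one]
  all_goals simp [star_T, T, star_pull, pull_single, prodP_symm, prodP_apply]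

end Crest.Agent.H8.KK
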