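import Crest.Agent.H8.KK.NDefs

/-! N2: the Fourier bound. -/

set_option autoImplicit false

namespace Crest.Agent.H8.KK

open scoped InnerProductSpace ComplexConjugate
open Finset

variable {H : Type} [NormedAddCommGroup H] [InnerProductSpace ℂ H] [CompleteSpace H]

namespace N2x

theorem inner_star_l (T : H →L[ℂ] H) (x y : H) : ⟪star T x, y⟫_ℂ = ⟪x, T y⟫_ℂ :=
  ContinuousLinearMap.adjoint_inner_left T y x

theorem inner_star_r (T : H →L[ℂ] H) (x y : H) : ⟪x, star T y⟫_ℂ = ⟪T x, y⟫_ℂ :=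
  ContinuousLinearMap.adjoint_inner_right T x y

omit [CompleteSpace H] in
theorem sq_eq_inner (x : H) : ((‖x‖ : ℝ) : ℂ) ^ 2 = ⟪x, x⟫_ℂ :=
  (inner_self_eq_norm_sq_to_K (𝕜 := ℂ) x).symm

variable {ι : Type} [Fintype ι] [DecidableEq ι]

theorem row_le {E : ι → H →L[ℂ] H} (h0 : ∀ i k, i ≠ k → star (E i) * E k = 0)
    (h1 : ∀ i, ‖E i‖ ≤ 1) (u : ι → H) : ‖∑ k, E k (u k)‖ ^ 2 ≤ ∑ k, ‖u k‖ ^ 2 := by
  have h2 : ((‖∑ k, E k (u k)‖ ^ 2 : ℝ) : ℂ) = ((∑ k, ‖E k (u k)‖ ^ 2 : ℝ) : ℂ) := by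
    push_cast
    rw [sq_eq_inner, sum_inner]
    refine sum_congr rfl fun i _ => ?_
    rw [inner_sum, sum_eq_single i, sq_eq_inner]
    · intro k _ hk
      rw [← inner_star_r, ← ContinuousLinearMap.mul_apply, h0 i k hk.symm]; simp
    · simp
  rw [Complex.ofReal_injective h2]
  refine sum_le_sum fun k _ => pow_le_pow_left₀ (norm_nonneg _) ?_ 2
  exact ((E k).le_opNorm _).trans (mul_le_of_le_one_left (norm_nonneg _) (h1 k))

theorem col_le {E : ι → H →L[ℂ] H} (h0 : ∀ i k, i ≠ k → star (E i) * E k = 0)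
    (h1 : ∀ i, ‖E i‖ ≤ 1) (ζ : H) : ∑ k, ‖star (E k) ζ‖ ^ 2 ≤ ‖ζ‖ ^ 2 := by
  set s := ∑ k, ‖star (E k) ζ‖ ^ 2 with hs
  have hs0 : 0 ≤ s := by positivity
  have h2 : (s : ℂ) = ⟪ζ, ∑ k, E k (star (E k) ζ)⟫_ℂ := by
    rw [hs, inner_sum]; push_cast
    exact sum_congr rfl fun k _ => by
      rw [← inner_star_l, sq_eq_inner]
  have h3 : s ≤ ‖ζ‖ * ‖∑ k, E k (star (E k) ζ)‖ := by
    have := norm_inner_le_norm (𝕜 := ℂ) ζ (∑ k, E k (star (E k) ζ))
    rwa [← h2, Complex.norm_real, Real.norm_of_nonneg hs0] at this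
  have h4 := row_le h0 h1 fun k => star (E k) ζ
  rw [← hs] at h4
  by_contra h
  push Not at h
  have h5 := mul_self_le_mul_self hs0 h3
  have h6 : 0 < s := lt_of_le_of_lt (by positivity) h
  nlinarith [mul_le_mul_of_nonneg_left h4 (sq_nonneg ‖ζ‖)]

omit [Fintype ι] in
theorem iso_facts {a : ι → H →L[ℂ] H} (h : ∀ i k, star (a i) * a k = if i = k then 1 else 0) :
    (∀ i k, i ≠ k → star (a i) * a k = 0) ∧ ∀ i, ‖a i‖ ≤ 1 := by
  refine ⟨fun i k hik => by rw [h, if_neg hik], fun i => ?_⟩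
  have h1 := CStarRing.norm_star_mul_self (x := a i)
  rw [h, if_pos rfl] at h1
  have h2 : ‖(1 : H →L[ℂ] H)‖ ≤ 1 := ContinuousLinearMap.norm_id_le
  nlinarith [norm_nonneg (a i)]

/-- column bound -/
def Col (T : ι → H →L[ℂ] H) (c : ℝ) : Prop := ∀ ζ, ∑ i, ‖T i ζ‖ ^ 2 ≤ c * ‖ζ‖ ^ 2

theorem col_comm {a : ι → H →L[ℂ] H} (h : ∀ i k, star (a i) * a k = if i = k then 1 else 0)
    (n : H →L[ℂ] H) : Col (fun i => star (a i) * n - n * star (a i)) (4 * ‖n‖ ^ 2) := fun ζ => by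
  obtain ⟨h0, h1⟩ := iso_facts h
  have a1 := col_le h0 h1 (n ζ)
  have a2 := mul_le_mul_of_nonneg_left (col_le h0 h1 ζ) (sq_nonneg ‖n‖)
  have a3 : ‖n ζ‖ ^ 2 ≤ (‖n‖ * ‖ζ‖) ^ 2 := pow_le_pow_left₀ (norm_nonneg _) (n.le_opNorm ζ) 2
  calc _ ≤ ∑ i, (2 * ‖star (a i) (n ζ)‖ ^ 2 + 2 * (‖n‖ ^ 2 * ‖star (a i) ζ‖ ^ 2)) := by
        refine sum_le_sum fun i _ => ?_
        have b1 : ‖(star (a i) * n - n * star (a i)) ζ‖
            ≤ ‖star (a i) (n ζ)‖ + ‖n‖ * ‖star (a i) ζ‖ :=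
          (norm_sub_le _ _).trans (add_le_add le_rfl (n.le_opNorm _))
        have b2 := pow_le_pow_left₀ (norm_nonneg _) b1 2
        nlinarith [sq_nonneg (‖star (a i) (n ζ)‖ - ‖n‖ * ‖star (a i) ζ‖)]
    _ ≤ _ := by
        rw [sum_add_distrib, ← mul_sum, ← mul_sum, ← mul_sum]; nlinarith

variable {p : ℕ} [Fact p.Prime]

omit [CompleteSpace H] in
theorem plancherel {c : ZMod p} (hc : c ≠ 0) (z : ZMod p → H) :
    ∑ j, ‖∑ i, ZMod.stdAddChar (c * i * j) • z i‖ ^ 2 = p * ∑ i, ‖z i‖ ^ 2 := by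
  apply Complex.ofReal_injective
  push_cast
  simp only [sq_eq_inner, sum_inner, inner_sum, mul_sum,
    inner_smul_left, inner_smul_right, ← AddChar.map_neg_eq_conj, ← mul_assoc, ← AddChar.map_add_eq_mul]
  rw [sum_comm]
  refine sum_congr rfl fun i _ => ?_
  rw [sum_comm, sum_eq_single i]
  · simp
  · intro k _ hk
    rw [← sum_mul]
    have := AddChar.sum_mulShift (c * (i - k)) (ZMod.isPrimitive_stdAddChar p)
    rw [if_neg (mul_ne_zero hc (sub_ne_zero.2 hk.symm))] at this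
    rw [sum_congr rfl fun j _ => show ZMod.stdAddChar (c * i * j + -(c * k * j))
      = ZMod.stdAddChar (j * (c * (i - k))) by congr 1; ring, this]
    simp
  · simp

theorem main_est (hp : p ≠ 2) {D B : ZMod p → H →L[ℂ] H} {c c' : ℝ} (hc : 0 ≤ c) (hc' : 0 ≤ c')
    (hD : Col D c) (hD' : Col (fun i => star (D i)) c) (hB : Col B c')
    (hB' : Col (fun i => star (B i)) c') (h1 : ∀ i j, Commute (D i) (B j))
    (h2 : ∀ i j, Commute (star (D i)) (B j)) (ζ : H) :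
    ∑ k, ‖∑ i, Fk.ph i (k - i) • D i (B (k - i) ζ)‖ ^ 2 ≤ (1 + √(p:ℝ)) * (c * c') * ‖ζ‖ ^ 2 := by
  set T : ZMod p → ℂ := fun d => ∑ j, ∑ i, conj (Fk.ph i j) * Fk.ph (i + d) (j - d) *
    ⟪D i (B j ζ), D (i + d) (B (j - d) ζ)⟫_ℂ with hT
  have e1 : ((∑ k, ‖∑ i, Fk.ph i (k - i) • D i (B (k - i) ζ)‖ ^ 2 : ℝ) : ℂ) = ∑ d, T d := by
    push_cast
    simp only [sq_eq_inner, sum_inner, hT]
    simp only [inner_sum, inner_smul_left, inner_smul_right]
    rw [sum_comm]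
    conv_rhs => rw [sum_comm]; enter [2, j]; rw [sum_comm]
    conv_rhs => rw [sum_comm]
    refine sum_congr rfl fun i _ => ?_
    rw [← Equiv.sum_comp (Equiv.addLeft i)]
    refine sum_congr rfl fun j _ => ?_
    rw [← Equiv.sum_comp (Equiv.addLeft i)]
    refine sum_congr rfl fun d _ => ?_
    simp only [Equiv.coe_addLeft, add_sub_cancel_left, add_sub_add_left_eq_sub]
    ring
  have hn : ∀ i j : ZMod p, ‖Fk.ph i j‖ = 1 := fun _ _ => AddChar.norm_apply _ _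
  have t0 : ‖T 0‖ ≤ c * c' * ‖ζ‖ ^ 2 := by
    calc ‖T 0‖ ≤ ∑ j, ∑ i, ‖D i (B j ζ)‖ ^ 2 := by
          refine (norm_sum_le _ _).trans (sum_le_sum fun j _ => (norm_sum_le _ _).trans
            (sum_le_sum fun i _ => ?_))
          simp [hn, inner_self_eq_norm_sq_to_K]
      _ ≤ ∑ j, c * ‖B j ζ‖ ^ 2 := sum_le_sum fun j _ => hD _
      _ ≤ _ := by rw [← mul_sum, mul_assoc]; exact mul_le_mul_of_nonneg_left (hB ζ) hc
  set u : ZMod p × ZMod p → H := fun x => star (B (x.2 - x.1)) (B x.2 ζ) with hu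
  set v : ZMod p × ZMod p → H := fun x => ∑ i, ZMod.stdAddChar (2 * x.1 * i * x.2) •
    (ZMod.stdAddChar (-(x.1 * (i + x.1) ^ 2)) • star (D i) (D (i + x.1) ζ)) with hv
  have t1 : ∀ d, ‖T d‖ ≤ ∑ j, ‖u (d, j)‖ * ‖v (d, j)‖ := fun d => by
    refine (norm_sum_le _ _).trans (sum_le_sum fun j _ => ?_)
    have : ∑ i, conj (Fk.ph i j) * Fk.ph (i + d) (j - d) * ⟪D i (B j ζ), D (i + d) (B (j - d) ζ)⟫_ℂ
        = ZMod.stdAddChar (d ^ 2 * j) * ⟪u (d, j), v (d, j)⟫_ℂ := by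
      simp only [hu, hv, inner_sum, inner_smul_right, mul_sum]
      refine sum_congr rfl fun i _ => ?_
      have a1 : ⟪D i (B j ζ), D (i + d) (B (j - d) ζ)⟫_ℂ
          = ⟪star (B (j - d)) (B j ζ), star (D i) (D (i + d) ζ)⟫_ℂ := by
        rw [inner_star_l, ← inner_star_r]
        congr 1
        have := ((h2 i (j - d)).mul_left (h1 (i + d) (j - d))).eq
        exact congrArg (fun t : H →L[ℂ] H => t ζ) this
      rw [a1, Fk.ph, Fk.ph, ← AddChar.map_neg_eq_conj, ← mul_assoc, ← mul_assoc,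
        ← AddChar.map_add_eq_mul, ← AddChar.map_add_eq_mul, ← AddChar.map_add_eq_mul]
      congr 2; ring
    rw [this, norm_mul, AddChar.norm_apply, one_mul]
    exact norm_inner_le_norm _ _
  set s : Finset (ZMod p × ZMod p) := (univ.erase 0) ×ˢ univ with hs
  have su : ∑ x ∈ s, ‖u x‖ ^ 2 ≤ c' ^ 2 * ‖ζ‖ ^ 2 := by
    calc _ ≤ ∑ x, ‖u x‖ ^ 2 := sum_le_sum_of_subset_of_nonneg (subset_univ _) fun _ _ _ => by positivity
      _ = ∑ j, ∑ d, ‖star (B d) (B j ζ)‖ ^ 2 := by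
          rw [Fintype.sum_prod_type_right]
          exact sum_congr rfl fun j _ => (Equiv.subLeft j).sum_comp fun d => ‖star (B d) (B j ζ)‖ ^ 2
      _ ≤ ∑ j, c' * ‖B j ζ‖ ^ 2 := sum_le_sum fun j _ => hB' _
      _ ≤ _ := by rw [← mul_sum, sq, mul_assoc]; exact mul_le_mul_of_nonneg_left (hB ζ) hc'
  have h2p : (2 : ZMod p) ≠ 0 := by
    intro h
    have : p ∣ 2 := (ZMod.natCast_eq_zero_iff 2 p).1 (by exact_mod_cast h)
    exact hp ((Nat.prime_dvd_prime_iff_eq Fact.out Nat.prime_two).1 this)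
  have sv : ∑ x ∈ s, ‖v x‖ ^ 2 ≤ p * (c ^ 2 * ‖ζ‖ ^ 2) := by
    calc _ = ∑ d ∈ univ.erase 0, (p:ℝ) * ∑ i, ‖star (D i) (D (i + d) ζ)‖ ^ 2 := by
          rw [hs, sum_product]
          refine sum_congr rfl fun d hd => ?_
          simp only [hv]
          rw [plancherel (mul_ne_zero h2p (ne_of_mem_erase hd))]
          simp [norm_smul]
      _ ≤ ∑ d, (p:ℝ) * ∑ i, ‖star (D i) (D (i + d) ζ)‖ ^ 2 :=
          sum_le_sum_of_subset_of_nonneg (subset_univ _) fun _ _ _ => by positivity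
      _ = p * ∑ k, ∑ i, ‖star (D i) (D k ζ)‖ ^ 2 := by
          rw [← mul_sum, sum_comm, sum_comm (f := fun k i => ‖star (D i) (D k ζ)‖ ^ 2)]
          congr 1
          exact sum_congr rfl fun i _ => Equiv.sum_comp (Equiv.addLeft i) fun k => ‖star (D i) (D k ζ)‖ ^ 2
      _ ≤ _ := by
          refine mul_le_mul_of_nonneg_left ?_ (Nat.cast_nonneg _)
          calc _ ≤ ∑ k, c * ‖D k ζ‖ ^ 2 := sum_le_sum fun k _ => hD' _
            _ ≤ _ := by rw [← mul_sum, sq, mul_assoc]; exact mul_le_mul_of_nonneg_left (hD ζ) hc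
  have t2 : ∑ x ∈ s, ‖u x‖ * ‖v x‖ ≤ √(p:ℝ) * (c * c') * ‖ζ‖ ^ 2 := by
    refine le_of_sq_le_sq ((sum_mul_sq_le_sq_mul_sq _ _ _).trans ?_) (by positivity)
    refine (mul_le_mul su sv (by positivity) (by positivity)).trans (le_of_eq ?_)
    rw [mul_pow, mul_pow, Real.sq_sqrt (Nat.cast_nonneg _)]; ring
  have e2 : ∑ k, ‖∑ i, Fk.ph i (k - i) • D i (B (k - i) ζ)‖ ^ 2 ≤ ∑ d, ‖T d‖ := by
    refine le_trans ?_ (norm_sum_le _ _)
    rw [← e1, Complex.norm_real]; exact le_abs_self _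
  rw [← add_sum_erase _ (fun d => ‖T d‖) (mem_univ 0)] at e2
  have e3 := sum_le_sum (s := univ.erase 0) fun d _ => t1 d
  rw [hs, sum_product] at t2
  linarith

end N2x

open N2x

theorem n2 : N2 := by
  intro H _ _ _ p _ hp F m y hm hy hmy hmy'
  have hp0 : (0:ℝ) < p := by exact_mod_cast (Fact.out : p.Prime).pos
  set D : ZMod p → H →L[ℂ] H := fun i => m * F.a i - F.a i * m with hDdef
  set B : ZMod p → H →L[ℂ] H := fun i => y * F.b i - F.b i * y with hBdef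
  have eD : D = fun i => star (F.a i) * m - m * star (F.a i) := funext fun i => by
    have := (hm.d i).eq
    simp only [mul_add, add_mul] at this
    simp only [hDdef]; rw [sub_eq_sub_iff_add_eq_add, this, add_comm]
  have eB : B = fun i => star (F.b i) * y - y * star (F.b i) := funext fun i => by
    have := (hy.d i).eq
    simp only [mul_add, add_mul] at this
    simp only [hBdef]; rw [sub_eq_sub_iff_add_eq_add, this, add_comm]
  have hD : Col D (4 * ‖m‖ ^ 2) := eD ▸ col_comm F.aa m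
  have hB : Col B (4 * ‖y‖ ^ 2) := eB ▸ col_comm F.bb y
  have hD' : Col (fun i => star (D i)) (4 * ‖m‖ ^ 2) := by
    simpa [hDdef] using col_comm F.aa (star m)
  have hB' : Col (fun i => star (B i)) (4 * ‖y‖ ^ 2) := by
    simpa [hBdef] using col_comm F.bb (star y)
  have ab := fun i j => F.AB _ (Or.inl ⟨i, rfl⟩) _ (Or.inl ⟨j, rfl⟩)
  have mB : ∀ j, Commute m (B j) := fun j =>
    (hmy.mul_right (hm.b j)).sub_right ((hm.b j).mul_right hmy)
  have h1 : ∀ i j, Commute (D i) (B j) := fun i j => by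
    have aB : Commute (F.a i) (B j) :=
      ((hy.a i).symm.mul_right (ab i j).1).sub_right ((ab i j).1.mul_right (hy.a i).symm)
    exact ((mB j).mul_left aB).sub_left (aB.mul_left (mB j))
  have h2 : ∀ i j, Commute (star (D i)) (B j) := fun i j => by
    have my : Commute (star m) y := by simpa using hmy'.star_star
    have mb : Commute (star m) (F.b j) := by simpa using (hm.b' j).star_star
    have mB' : Commute (star m) (B j) := (my.mul_right mb).sub_right (mb.mul_right my)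
    have aB : Commute (star (F.a i)) (B j) :=
      ((hy.a' i).symm.mul_right (ab i j).2).sub_right ((ab i j).2.mul_right (hy.a' i).symm)
    simpa [hDdef] using (aB.mul_left mB').sub_left (mB'.mul_left aB)
  have hE0 : ∀ i k : ZMod p, i ≠ k → star (F.e (some i) none) * F.e (some k) none = 0 :=
    fun i k h => by rw [F.e_star, F.ee, if_neg (by simpa using h)]
  have hE1 : ∀ i : ZMod p, ‖F.e (some i) none‖ ≤ 1 := fun i => by
    have a1 := CStarRing.norm_star_mul_self (x := F.e (some i) none)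
    have a2 := CStarRing.norm_star_mul_self (x := F.e none none)
    rw [F.e_star, F.ee, if_pos rfl] at a1 a2
    have a3 : ‖F.e none none‖ ≤ 1 := by
      by_contra h; push Not at h; nlinarith
    nlinarith [norm_nonneg (F.e (some i) none)]
  have eS : ∀ ζ, F.S m y ζ = ((√(p : ℝ))⁻¹ : ℂ) • ∑ k, F.e (some k) none
      (∑ i, Fk.ph i (k - i) • D i (B (k - i) ζ)) := fun ζ => by
    have a1 : ∀ i, D i * (y * F.V i - F.V i * y) = ((√(p : ℝ))⁻¹ : ℂ) •
        ∑ k, Fk.ph i (k - i) • (F.e (some k) none * (D i * B (k - i))) := fun i => by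
      simp only [Fk.V, mul_smul_comm, smul_mul_assoc, ← smul_sub, mul_sum, sum_mul,
        ← sum_sub_distrib]
      congr 1
      rw [← Equiv.sum_comp (Equiv.addLeft i) fun k => Fk.ph i (k - i) • (F.e (some k) none * (D i * B (k - i)))]
      refine sum_congr rfl fun j _ => ?_
      simp only [Equiv.coe_addLeft, add_sub_cancel_left]
      congr 1
      have ae := (F.Ae _ (Or.inl ⟨i, rfl⟩) _ ⟨some (i + j), none, rfl⟩).1
      have be := (F.Be _ (Or.inl ⟨j, rfl⟩) _ ⟨some (i + j), none, rfl⟩).1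
      have me := hm.e (some (i + j)) none
      have ye := hy.e (some (i + j)) none
      have De : Commute (D i) (F.e (some (i + j)) none) := (me.mul_left ae).sub_left (ae.mul_left me)
      have Be : Commute (B j) (F.e (some (i + j)) none) := (ye.mul_left be).sub_left (be.mul_left ye)
      rw [← (De.mul_left Be).eq, mul_assoc (D i), mul_assoc (F.b j), ← ye.eq]
      simp only [hBdef, sub_mul, mul_assoc]
    simp only [Fk.S]
    simp only [hDdef] at a1
    simp only [a1, ← smul_sum]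
    rw [sum_comm]
    simp [hDdef]
  have key : ∀ ζ, ‖F.S m y ζ‖ ^ 2 ≤ (16 + 16 * √(p : ℝ)) / p * (‖m‖ * ‖y‖) ^ 2 * ‖ζ‖ ^ 2 := fun ζ => by
    rw [eS, norm_smul, mul_pow]
    have a1 := (row_le hE0 hE1 _).trans
      (main_est hp (by positivity) (by positivity) hD hD' hB hB' h1 h2 ζ)
    have a2 : ‖((√(p : ℝ))⁻¹ : ℂ)‖ ^ 2 = (p:ℝ)⁻¹ := by
      rw [norm_inv, Complex.norm_real, Real.norm_of_nonneg (Real.sqrt_nonneg _), inv_pow,
        Real.sq_sqrt hp0.le]
    rw [a2]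
    refine (mul_le_mul_of_nonneg_left a1 (by positivity)).trans (le_of_eq ?_)
    field_simp; ring
  have h0 : 0 ≤ (16 + 16 * √(p : ℝ)) / p * (‖m‖ * ‖y‖) ^ 2 := by positivity
  rw [← Real.sq_sqrt h0]
  refine pow_le_pow_left₀ (norm_nonneg _) (ContinuousLinearMap.opNorm_le_bound _
    (Real.sqrt_nonneg _) fun ζ => ?_) 2
  refine le_of_sq_le_sq ?_ (by positivity)
  rw [mul_pow, Real.sq_sqrt h0]; exact key ζ

end Crest.Agent.H8.KK
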