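import Crest.Agent.H8.KK.N2

/-! N3: `U` is unitary and the commutator estimate. -/

set_option autoImplicit false

namespace Crest.Agent.H8.KK

open scoped ComplexConjugate
open Finset

namespace N3x

variable {R ι : Type} [Ring R] [Fintype ι] [DecidableEq ι]

/-- the algebraic data -/
structure Alg (a a' V V' : ι → R) (e : R) : Prop where
  aa : ∀ i k, a' i * a k = if i = k then 1 else 0
  VV : ∀ i k, V' i * V k = if i = k then e else 0
  Ve : ∀ i, V i * e = V i
  eV : ∀ i, e * V i = 0
  eV' : ∀ i, e * V' i = V' i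
  V'e : ∀ i, V' i * e = 0
  aV : ∀ i k, Commute (a i) (V k)
  aV' : ∀ i k, Commute (a i) (V' k)
  a'V : ∀ i k, Commute (a' i) (V k)
  a'V' : ∀ i k, Commute (a' i) (V' k)
  ae : ∀ i, Commute (a i) e
  a'e : ∀ i, Commute (a' i) e

variable {a a' V V' : ι → R} {e : R} (h : Alg a a' V V' e)
include h

theorem Alg.W'W : (∑ i, V' i * a i) * (∑ i, a' i * V i) = ∑ i, a i * a' i * e := by
  rw [sum_mul_sum]
  refine sum_congr rfl fun i _ => ?_
  have : ∀ k, V' i * a i * (a' k * V k) = if i = k then a i * a' k * e else 0 := fun k => by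
    rw [← (h.aV' i i).eq, mul_assoc, (h.a'V' k i).symm.left_comm, h.VV]
    split_ifs <;> simp [mul_assoc]
  simp [this]

theorem Alg.WW' : (∑ i, a' i * V i) * (∑ i, V' i * a i) = ∑ i, V i * V' i := by
  rw [sum_mul_sum]
  refine sum_congr rfl fun i _ => ?_
  have : ∀ k, a' i * V i * (V' k * a k) = if i = k then V i * V' k else 0 := fun k => by
    rw [(h.a'V i i).eq, ← (h.aV' k k).eq, mul_assoc, ← mul_assoc (a' i), h.aa]
    split_ifs <;> simp
  simp [this]

omit [Fintype ι] in
theorem Alg.VV0 (i k : ι) : V i * V k = 0 := by rw [← h.Ve i, mul_assoc, h.eV, mul_zero]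

theorem Alg.WW : (∑ i, a' i * V i) * (∑ i, a' i * V i) = 0 := by
  rw [sum_mul_sum]
  refine sum_eq_zero fun i _ => sum_eq_zero fun k _ => ?_
  rw [mul_assoc, (h.a'V k i).symm.left_comm, h.VV0]; simp

theorem Alg.QW : (∑ i, V i * V' i) * (∑ i, a' i * V i) = ∑ i, a' i * V i := by
  rw [sum_mul_sum]
  refine sum_congr rfl fun i _ => ?_
  have : ∀ k, V i * V' i * (a' k * V k) = if i = k then a' k * V i else 0 := fun k => by
    rw [mul_assoc, (h.a'V' k i).symm.left_comm, (h.a'V k i).symm.left_comm, h.VV]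
    split_ifs <;> simp [h.Ve]
  simp [this]

theorem Alg.comm {m y : R} (md : ∀ i, a' i * m - m * a' i = m * a i - a i * m)
    (mV : ∀ i, Commute m (V i)) (mV' : ∀ i, Commute m (V' i)) (me : Commute m e)
    (ya : ∀ i, Commute y (a i)) (ya' : ∀ i, Commute y (a' i)) (ye : Commute y e) (my : Commute m y)
    {P Q W W' S T : R} (hP : P = ∑ i, a i * a' i * e) (hQ : Q = ∑ i, V i * V' i)
    (hW : W = ∑ i, a' i * V i) (hW' : W' = ∑ i, V' i * a i)
    (hS : S = ∑ i, (m * a i - a i * m) * (y * V i - V i * y))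
    (hT : T = ∑ i, (m * a i - a i * m) * (y * V' i - V' i * y))
    (hU : (1 - P - Q + W - W') * (1 - P - Q + W' - W) = 1) :
    y * ((1 - P - Q + W - W') * m * (1 - P - Q + W' - W))
      - (1 - P - Q + W - W') * m * (1 - P - Q + W' - W) * y
      = (S + T) * (1 - P - Q + W' - W) + T * Q - P * T + W * T + T * W := by
  obtain ⟨D, hD⟩ : ∃ D : ι → R, D = fun i => m * a i - a i * m := ⟨_, rfl⟩
  obtain ⟨G, hG⟩ : ∃ G : ι → R, G = fun i => y * V i - V i * y := ⟨_, rfl⟩
  obtain ⟨G', hG'⟩ : ∃ G' : ι → R, G' = fun i => y * V' i - V' i * y := ⟨_, rfl⟩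
  have hS' : S = ∑ i, D i * G i := by rw [hS, hD, hG]
  have hT' : T = ∑ i, D i * G' i := by rw [hT, hD, hG']
  have cD : ∀ {x : R} (i : ι), Commute m x → Commute (a i) x → Commute (D i) x := fun i h1 h2 => by
    rw [hD]; exact (h1.mul_left h2).sub_left (h2.mul_left h1)
  have cG' : ∀ {x : R} (i : ι), Commute x y → Commute x (V' i) → Commute x (G' i) :=
    fun i h1 h2 => by rw [hG']; exact (h1.mul_right h2).sub_right (h2.mul_right h1)
  have DV := fun i k => cD i (mV k) (h.aV i k)
  have DV' := fun i k => cD i (mV' k) (h.aV' i k)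
  have De := fun i => cD i me (h.ae i)
  have Dy := fun i => cD i my (ya i).symm
  have DG' := fun i k => cG' k (Dy i) (DV' i k)
  have aG' := fun i k => cG' k (ya i).symm (h.aV' i k)
  have a'G' := fun i k => cG' k (ya' i).symm (h.a'V' i k)
  have eG : ∀ k, e * G k = 0 := fun k => by
    rw [hG]; simp only [mul_sub]; rw [ye.symm.left_comm, ← mul_assoc e, h.eV]; simp
  have eG' : ∀ k, e * G' k = G' k := fun k => by
    rw [hG']; simp only [mul_sub]; rw [ye.symm.left_comm, ← mul_assoc e, h.eV']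
  have VG : ∀ i k, V i * G k = 0 := fun i k => by rw [← h.Ve i, mul_assoc, eG, mul_zero]
  have V'G' : ∀ i k, V' i * G' k = 0 := fun i k => by rw [← eG', ← mul_assoc, h.V'e, zero_mul]
  have V'G : ∀ i k, V' i * G k = -(G' i * V k) := fun i k => by
    rw [hG, hG']
    simp only [mul_sub, sub_mul, neg_sub, mul_assoc]
    rw [← mul_assoc (V' i) (V k), h.VV]
    split_ifs
    · rw [ye.eq]
    · simp
  have Da : ∀ i k, D i * a k = a' i * D k := fun i k => by
    rw [hD]
    simp only [← md i, mul_sub, sub_mul, mul_assoc]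
    rw [← mul_assoc (a' i) (a k), h.aa]
    split_ifs <;> simp
  have eT : e * T = T := by
    rw [hT', mul_sum]
    exact sum_congr rfl fun i _ => by rw [(De i).symm.left_comm, eG']
  obtain ⟨C1, hC1⟩ : ∃ C1, C1 = ∑ i, (a i * D i - D i * a' i) * e := ⟨_, rfl⟩
  obtain ⟨C2, hC2⟩ : ∃ C2, C2 = ∑ i, D i * V i := ⟨_, rfl⟩
  obtain ⟨C3, hC3⟩ : ∃ C3, C3 = ∑ i, D i * V' i := ⟨_, rfl⟩
  have Pm : P * m - m * P = C1 := by
    rw [hP, hC1, sum_mul, mul_sum, ← sum_sub_distrib]
    refine sum_congr rfl fun i _ => ?_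
    have h1 : a i * D i = a i * (a' i * m - m * a' i) := by rw [md, hD]
    rw [h1, hD, mul_assoc _ e, ← me.eq]; noncomm_ring
  have Qm : Q * m - m * Q = 0 := by
    rw [hQ, sub_eq_zero]
    exact (Commute.sum_right _ _ _ fun i _ => (mV i).mul_right (mV' i)).eq.symm
  have Wm : W * m - m * W = C2 := by
    rw [hW, hC2, sum_mul, mul_sum, ← sum_sub_distrib]
    refine sum_congr rfl fun i _ => ?_
    rw [hD]; simp only [← md i]; rw [mul_assoc, ← (mV i).eq]; noncomm_ring
  have W'm : W' * m - m * W' = -C3 := by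
    rw [hW', hC3, sum_mul, mul_sum, ← sum_sub_distrib, ← sum_neg_distrib]
    refine sum_congr rfl fun i _ => ?_
    rw [(DV' i i).eq, hD, (mV' i).left_comm]; noncomm_ring
  have yC1 : Commute y C1 := hC1 ▸ Commute.sum_right _ _ _ fun i _ =>
    (((ya i).mul_right (Dy i).symm).sub_right ((Dy i).symm.mul_right (ya' i))).mul_right ye
  have yC2 : y * C2 - C2 * y = S := by
    rw [hC2, hS', sum_mul, mul_sum, ← sum_sub_distrib]
    refine sum_congr rfl fun i _ => ?_
    rw [hG, (Dy i).symm.left_comm]; noncomm_ring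
  have yC3 : y * C3 - C3 * y = T := by
    rw [hC3, hT', sum_mul, mul_sum, ← sum_sub_distrib]
    refine sum_congr rfl fun i _ => ?_
    rw [hG', (Dy i).symm.left_comm]; noncomm_ring
  have yP : Commute y P := hP ▸ Commute.sum_right _ _ _ fun i _ =>
    ((ya i).mul_right (ya' i)).mul_right ye
  have yQ : y * Q - Q * y = ∑ k, (G k * V' k + V k * G' k) := by
    rw [hQ, sum_mul, mul_sum, ← sum_sub_distrib]
    refine sum_congr rfl fun i _ => ?_
    rw [hG, hG']; noncomm_ring
  have yW : y * W - W * y = ∑ k, a' k * G k := by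
    rw [hW, sum_mul, mul_sum, ← sum_sub_distrib]
    refine sum_congr rfl fun i _ => ?_
    rw [hG, (ya' i).left_comm]; noncomm_ring
  have yW' : y * W' - W' * y = ∑ k, a k * G' k := by
    rw [hW', sum_mul, mul_sum, ← sum_sub_distrib]
    refine sum_congr rfl fun i _ => ?_
    rw [(aG' i i).eq, hG', mul_assoc (V' i), ← (ya i).eq]; noncomm_ring
  have C1e : ∀ x, e * x = 0 → C1 * x = 0 := fun x hx => by
    rw [hC1, sum_mul]; exact sum_eq_zero fun i _ => by rw [mul_assoc, hx, mul_zero]
  have C2e : ∀ x, e * x = 0 → C2 * x = 0 := fun x hx => by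
    rw [hC2, sum_mul]
    exact sum_eq_zero fun i _ => by rw [← h.Ve i, mul_assoc, mul_assoc, hx]; simp
  have e1 : e * (y * W - W * y) = 0 := by
    rw [yW, mul_sum]; exact sum_eq_zero fun k _ => by rw [(h.a'e k).symm.left_comm, eG, mul_zero]
  have e2 : e * (y * Q - Q * y) = 0 := by
    rw [yQ, mul_sum]
    exact sum_eq_zero fun k _ => by rw [mul_add, ← mul_assoc, ← mul_assoc, eG, h.eV]; simp
  have f1 : C3 * (y * W - W * y) = -(T * W) := by
    rw [yW, hC3, hT', hW, sum_mul_sum, sum_mul_sum, ← sum_neg_distrib]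
    refine sum_congr rfl fun i _ => ?_
    rw [← sum_neg_distrib]
    refine sum_congr rfl fun k _ => ?_
    rw [mul_assoc, (h.a'V' k i).symm.left_comm, V'G, mul_assoc, (a'G' k i).symm.left_comm]
    simp
  have f2 : C3 * (y * Q - Q * y) = T - T * Q := by
    rw [yQ, hC3, hT', hQ, sum_mul_sum, sum_mul_sum, ← sum_sub_distrib]
    refine sum_congr rfl fun i _ => ?_
    have : ∀ k, D i * V' i * (G k * V' k + V k * G' k)
        = (if i = k then D i * G' k else 0) - D i * G' i * (V k * V' k) := fun k => by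
      rw [mul_assoc, mul_add, ← mul_assoc (V' i), ← mul_assoc (V' i), V'G, h.VV]
      split_ifs
      · rw [eG']; noncomm_ring
      · noncomm_ring
    simp [this]
  have f3 : C1 * (y * W' - W' * y) = P * T - T := by
    have : P * T = (∑ i, a i * a' i) * T := by rw [hP, ← sum_mul, mul_assoc, eT]
    rw [this, yW', hC1, hT', sum_mul_sum, sum_mul_sum, ← sum_sub_distrib]
    refine sum_congr rfl fun i _ => ?_
    have : ∀ k, (a i * D i - D i * a' i) * e * (a k * G' k)
        = a i * a' i * (D k * G' k) - if i = k then D i * G' k else 0 := fun k => by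
      rw [mul_assoc, (h.ae k).symm.left_comm, eG', sub_mul, mul_assoc, mul_assoc, ← mul_assoc (D i),
        Da, ← mul_assoc (a' i) (a k), h.aa]
      split_ifs <;> simp [mul_assoc]
    simp [this]
  have f4 : C2 * (y * W' - W' * y) = W * T := by
    rw [yW', hC2, hT', hW, sum_mul_sum, sum_mul_sum]
    refine sum_congr rfl fun i _ => sum_congr rfl fun k _ => ?_
    rw [(DV i i).eq, (h.a'V i i).eq, mul_assoc, ← mul_assoc (D i), Da]; simp only [mul_assoc]
  have f5 : C3 * (y * W' - W' * y) = 0 := by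
    rw [yW', hC3, sum_mul_sum]
    refine sum_eq_zero fun i _ => sum_eq_zero fun k _ => ?_
    rw [mul_assoc, (h.aV' k i).symm.left_comm, V'G']; simp
  obtain ⟨U, hU1⟩ : ∃ U, U = 1 - P - Q + W - W' := ⟨_, rfl⟩
  obtain ⟨U', hU2⟩ : ∃ U', U' = 1 - P - Q + W' - W := ⟨_, rfl⟩
  have g1 : U * m = -C1 + C2 + C3 + m * U := by
    rw [hU1, ← Pm, ← Wm, ← neg_neg C3, ← W'm, ← sub_eq_zero, ← neg_zero, ← Qm]; noncomm_ring
  have g2 : y * U' = U' * y + (-(y * Q - Q * y) + (y * W' - W' * y) - (y * W - W * y)) := by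
    rw [hU2]; simp only [mul_add, mul_sub, add_mul, sub_mul, yP.eq]; noncomm_ring
  have g3 : y * (-C1 + C2 + C3) = (-C1 + C2 + C3) * y + (S + T) := by
    rw [← yC2, ← yC3]; simp only [mul_add, add_mul, mul_neg, neg_mul, yC1.eq]; noncomm_ring
  rw [← hU1, ← hU2] at hU ⊢
  have g4 : U * m * U' = (-C1 + C2 + C3) * U' + m := by rw [g1, add_mul, mul_assoc m, hU, mul_one]
  have g5 : (-C1 + C2 + C3) * (-(y * Q - Q * y) + (y * W' - W' * y) - (y * W - W * y))
      = T * Q - P * T + W * T + T * W := by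
    simp only [add_mul, neg_mul, mul_add, mul_neg, mul_sub _ (_ + _), C1e _ e1, C1e _ e2, C2e _ e1,
      C2e _ e2, f1, f2, f3, f4, f5]
    noncomm_ring
  generalize -C1 + C2 + C3 = C at g3 g4 g5
  generalize -(y * Q - Q * y) + (y * W' - W' * y) - (y * W - W * y) = Z at g2 g5
  have g6 : y * (C * U' + m) = (C * U' + m) * y + ((S + T) * U' + C * Z) := by
    rw [mul_add, ← mul_assoc, g3, add_mul (C * y), mul_assoc C y, g2, mul_add C, add_mul (C * U'),
      my.eq]
    noncomm_ring
  rw [g4, g6, g5]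
  noncomm_ring

end N3x

open N3x N2x

variable {H : Type} [NormedAddCommGroup H] [InnerProductSpace ℂ H] [CompleteSpace H]

theorem Fk.alg {p : ℕ} [Fact p.Prime] (F : Fk H p) :
    Alg F.a (fun i => star (F.a i)) F.V (fun i => star (F.V i)) (F.e none none) := by
  have hp0 : (0:ℝ) < p := by exact_mod_cast (Fact.out : p.Prime).pos
  have ab := fun i j => F.AB _ (Or.inl ⟨i, rfl⟩) _ (Or.inl ⟨j, rfl⟩)
  have ae := fun i x y => F.Ae _ (Or.inl ⟨i, rfl⟩) _ ⟨x, y, rfl⟩
  have be := fun i x y => F.Be _ (Or.inl ⟨i, rfl⟩) _ ⟨x, y, rfl⟩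
  have cV : ∀ (x : H →L[ℂ] H) k, (∀ j, Commute x (F.b j)) → (∀ u v, Commute x (F.e u v)) →
      Commute x (F.V k) := fun x k h1 h2 =>
    (Commute.sum_right _ _ _ fun j _ => ((h1 j).mul_right (h2 _ _)).smul_right _).smul_right _
  have aV := fun i k => cV (F.a i) k (fun j => (ab i j).1) fun u v => (ae i u v).1
  have a'V := fun i k => cV (star (F.a i)) k (fun j => (ab i j).2) fun u v => (ae i u v).2
  have Ve : ∀ i, F.V i * F.e none none = F.V i := fun i => by
    simp [Fk.V, sum_mul, mul_assoc, F.ee]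
  have eV : ∀ i, F.e none none * F.V i = 0 := fun i => by
    simp [Fk.V, mul_sum, fun j => (be j none none).1.symm.left_comm, F.ee]
  refine ⟨F.aa, fun i k => ?_, Ve, eV, fun i => ?_, fun i => ?_, aV, fun i k => ?_, a'V,
    fun i k => ?_, fun i => (ae i _ _).1, fun i => (ae i _ _).2⟩
  · have h1 : ∀ j j', star (Fk.ph i j • (F.b j * F.e (some (i + j)) none)) *
        (Fk.ph k j' • (F.b j' * F.e (some (k + j')) none))
        = if j = j' then (if i = k then F.e none none else 0) else 0 := fun j j' => by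
      rw [star_smul, smul_mul_smul_comm, star_mul, F.e_star, mul_assoc, ← mul_assoc (star (F.b j)),
        F.bb]
      split_ifs with h1 h2
      · subst h1 h2
        rw [one_mul, F.ee, if_pos rfl, Fk.ph, Complex.star_def, ← AddChar.map_neg_eq_conj,
          ← AddChar.map_add_eq_mul]; simp
      · subst h1
        rw [one_mul, F.ee, if_neg (by simpa using h2), smul_zero]
      · simp
    have h2 : (star ((√(p : ℝ))⁻¹ : ℂ) * ((√(p : ℝ))⁻¹ : ℂ)) * (p : ℂ) = 1 := by
      rw [Complex.star_def, map_inv₀, Complex.conj_ofReal, ← mul_inv, ← Complex.ofReal_mul,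
        Real.mul_self_sqrt hp0.le]
      exact inv_mul_cancel₀ (by exact_mod_cast hp0.ne')
    simp only [Fk.V]
    rw [star_smul, smul_mul_smul_comm, star_sum, sum_mul_sum]
    simp only [h1, sum_ite_eq, mem_univ, if_true, sum_const, card_univ, ZMod.card]
    rw [← Nat.cast_smul_eq_nsmul ℂ, smul_smul, h2, one_smul]
  · simpa [F.e_star] using congrArg star (Ve i)
  · simpa [F.e_star] using congrArg star (eV i)
  · simpa using (a'V i k).star_star
  · exact (aV i k).star_star

theorem n3 : N3 := by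
  intro H _ _ _ p _ F
  have h := F.alg
  have hW' : star F.W = ∑ i, star (F.V i) * F.a i := by simp [Fk.W, star_sum]
  have h1 : star F.W * F.W = F.P := by rw [hW']; exact h.W'W
  have h2 : F.W * star F.W = F.Q := by rw [hW']; exact h.WW'
  have h3 : F.W * F.W = 0 := h.WW
  have h4 : F.W * star F.W * F.W = F.W := by rw [h2]; exact h.QW
  have hU : F.U = 1 - star F.W * F.W - F.W * star F.W + F.W - star F.W := by rw [h1, h2]; rfl
  have hU' : star F.U = 1 - F.P - F.Q + star F.W - F.W := by rw [hU, ← h1, ← h2]; simp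
  have h3' : star F.W * star F.W = 0 := by simpa using congrArg star h3
  have h4' : star F.W * F.W * star F.W = star F.W := by simpa [mul_assoc] using congrArg star h4
  have k1 : ∀ x, F.W * (F.W * x) = 0 := fun x => by rw [← mul_assoc, h3, zero_mul]
  have k2 : ∀ x, star F.W * (star F.W * x) = 0 := fun x => by rw [← mul_assoc, h3', zero_mul]
  have k3 : ∀ x, F.W * (star F.W * (F.W * x)) = F.W * x := fun x => by
    rw [← mul_assoc, ← mul_assoc, h4]
  have k4 : ∀ x, star F.W * (F.W * (star F.W * x)) = star F.W * x := fun x => by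
    rw [← mul_assoc, ← mul_assoc, h4']
  rw [mul_assoc] at h4 h4'
  have u1 : F.U * star F.U = 1 := by
    rw [hU', ← h1, ← h2, hU]
    simp only [mul_add, mul_sub, add_mul, sub_mul, mul_assoc, one_mul, mul_one, k1, k2, k3, k4, h3,
      h3', h4, h4', mul_zero]
    abel
  have u2 : star F.U * F.U = 1 := by
    rw [hU', ← h1, ← h2, hU]
    simp only [mul_add, mul_sub, add_mul, sub_mul, mul_assoc, one_mul, mul_one, k1, k2, k3, k4, h3,
      h3', h4, h4', mul_zero]
    abel
  have hun : F.U ∈ unitary (H →L[ℂ] H) := ⟨u2, u1⟩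
  refine ⟨hun, fun m y hm hy hmy => ?_⟩
  have mV : ∀ i, Commute m (F.V i) := fun i =>
    (Commute.sum_right _ _ _ fun j _ => ((hm.b j).mul_right (hm.e _ _)).smul_right _).smul_right _
  have mV' : ∀ i, Commute m (star (F.V i)) := fun i => by
    simp only [Fk.V, star_smul, star_sum, star_mul, F.e_star]
    exact (Commute.sum_right _ _ _ fun j _ =>
      ((hm.e _ _).mul_right (hm.b' j)).smul_right _).smul_right _
  have md : ∀ i, star (F.a i) * m - m * star (F.a i) = m * F.a i - F.a i * m := fun i => by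
    have := (hm.d i).eq
    simp only [mul_add, add_mul] at this
    rw [eq_comm, sub_eq_sub_iff_add_eq_add, this, add_comm]
  set T := ∑ i, (m * F.a i - F.a i * m) * (y * star (F.V i) - star (F.V i) * y) with hT
  have key := h.comm md mV mV' (hm.e _ _) hy.a hy.a' (hy.e _ _) hmy (P := F.P) (Q := F.Q)
    (W := F.W) (W' := star F.W) (S := F.S m y) (T := T) rfl rfl rfl hW' rfl rfl
    (by rw [← hU']; exact u1)
  rw [← hU'] at key
  have nT : ‖T‖ = ‖F.S (star m) (star y)‖ := by
    rw [← norm_star (F.S _ _), ← norm_neg T, hT, Fk.S, star_sum, ← sum_neg_distrib]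
    congr 1
    refine sum_congr rfl fun i _ => ?_
    have a1 : Commute (m * F.a i - F.a i * m) y :=
      (hmy.mul_left (hy.a i).symm).sub_left ((hy.a i).symm.mul_left hmy)
    have a2 : Commute (m * F.a i - F.a i * m) (star (F.V i)) :=
      ((mV' i).mul_left (h.aV' i i)).sub_left ((h.aV' i i).mul_left (mV' i))
    rw [((a1.mul_right a2).sub_right (a2.mul_right a1)).eq, star_mul]
    simp only [star_sub, star_mul, star_star, md, ← neg_mul, neg_sub]
  have nP : ‖star F.W * F.W‖ ≤ 1 := by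
    have := CStarRing.norm_star_mul_self (x := star F.W * F.W)
    rw [star_mul, star_star, mul_assoc, k3 |> fun _ => h4] at this
    by_contra hh; push Not at hh; nlinarith
  have nW : ‖F.W‖ ≤ 1 := by
    rw [CStarRing.norm_star_mul_self] at nP; nlinarith [norm_nonneg F.W]
  have nQ : ‖F.Q‖ ≤ 1 := by
    rw [← h2]; refine (norm_mul_le _ _).trans ?_; rw [norm_star]; nlinarith [norm_nonneg F.W]
  rw [h1] at nP
  change ‖y * ((1 - F.P - F.Q + F.W - star F.W) * m * star F.U)
    - (1 - F.P - F.Q + F.W - star F.W) * m * star F.U * y‖ ≤ _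
  rw [key, ← nT]
  have b1 : ‖(F.S m y + T) * star F.U‖ ≤ ‖F.S m y‖ + ‖T‖ := by
    rw [CStarRing.norm_mul_mem_unitary _ (Unitary.star_mem hun)]; exact norm_add_le _ _
  have b2 := (norm_mul_le T F.Q).trans (mul_le_of_le_one_right (norm_nonneg _) nQ)
  have b3 := (norm_mul_le F.P T).trans (mul_le_of_le_one_left (norm_nonneg _) nP)
  have b4 := (norm_mul_le F.W T).trans (mul_le_of_le_one_left (norm_nonneg _) nW)
  have b5 := (norm_mul_le T F.W).trans (mul_le_of_le_one_right (norm_nonneg _) nW)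
  have c1 := norm_add_le ((F.S m y + T) * star F.U + T * F.Q - F.P * T + F.W * T) (T * F.W)
  have c2 := norm_add_le ((F.S m y + T) * star F.U + T * F.Q - F.P * T) (F.W * T)
  have c3 := norm_sub_le ((F.S m y + T) * star F.U + T * F.Q) (F.P * T)
  have c4 := norm_add_le ((F.S m y + T) * star F.U) (T * F.Q)
  have := norm_nonneg T
  linarith

end Crest.Agent.H8.KK
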