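import Crest.Agent.H8.KK.N2

/-! The lower bound for S0104. -/

set_option autoImplicit false
set_option linter.unusedSectionVars false

namespace Crest.Agent.H8.KK

open scoped InnerProductSpace ComplexConjugate
open Finset N2x

variable {H : Type} [NormedAddCommGroup H] [InnerProductSpace ℂ H] [CompleteSpace H]
  {p : ℕ} [Fact p.Prime] (F : Fk H p)

namespace N4x

theorem app {x y : H →L[ℂ] H} (h : Commute x y) (ζ : H) : x (y ζ) = y (x ζ) :=
  congrArg (fun T : H →L[ℂ] H => T ζ) h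

theorem SC.all {S T : Set (H →L[ℂ] H)} (h : SC S T) {x y : H →L[ℂ] H} (hx : x ∈ S) (hy : y ∈ T) :
    Commute x y ∧ Commute (star x) y ∧ Commute x (star y) ∧ Commute (star x) (star y) :=
  ⟨(h x hx y hy).1, (h x hx y hy).2, by simpa using (h x hx y hy).2.star_star,
    (h x hx y hy).1.star_star⟩

theorem ee_app (x y z w) (ζ : H) : F.e x y (F.e z w ζ) = if y = z then F.e x w ζ else 0 := by
  have := congrArg (fun T : H →L[ℂ] H => T ζ) (F.ee x y z w)
  split_ifs at this ⊢ <;> simpa using this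

theorem iso_app {a : ZMod p → H →L[ℂ] H} (h : ∀ i k, star (a i) * a k = if i = k then 1 else 0)
    (i k) (ζ : H) : star (a i) (a k ζ) = if i = k then ζ else 0 := by
  have := congrArg (fun T : H →L[ℂ] H => T ζ) (h i k)
  split_ifs at this ⊢ <;> simpa using this

theorem inner_η (x) : ⟪F.η x, F.η x⟫_ℂ = 1 := by
  rw [← F.e_η x, ← inner_star_r, F.e_star, ee_app, if_pos rfl, F.e_η, ← sq_eq_inner, F.η_norm]
  simp

theorem norm_η (x) : ‖F.η x‖ = 1 := by
  have := inner_η F x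
  rw [← sq_eq_inner] at this
  have h2 : ‖F.η x‖ ^ 2 = 1 := by exact_mod_cast this
  exact (sq_eq_sq₀ (norm_nonneg _) zero_le_one).1 (by rw [h2, one_pow])

theorem aV (k i) : Commute (F.a k) (F.V i) ∧ Commute (star (F.a k)) (F.V i) := by
  have h1 := fun j => SC.all F.AB (Or.inl ⟨k, rfl⟩) (Or.inl ⟨j, rfl⟩)
  have h2 := fun x y => SC.all F.Ae (Or.inl ⟨k, rfl⟩) ⟨x, y, rfl⟩
  exact ⟨Commute.smul_right (Commute.sum_right _ _ _ fun j _ =>
      Commute.smul_right ((h1 j).1.mul_right (h2 _ _).1) _) _,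
    Commute.smul_right (Commute.sum_right _ _ _ fun j _ =>
      Commute.smul_right ((h1 j).2.1.mul_right (h2 _ _).2.1) _) _⟩

theorem V_apply (i) (ζ : H) : F.V i ζ =
    ((√(p : ℝ))⁻¹ : ℂ) • ∑ j, Fk.ph i j • F.b j (F.e (some (i + j)) none ζ) := by
  simp [Fk.V, _root_.sum_apply]

theorem starV {ζ : H} (h : F.e none none ζ = ζ) (i) : star (F.V i) ζ = 0 := by
  refine ext_inner_left ℂ fun θ => ?_
  rw [inner_star_r, V_apply, inner_zero_right, inner_smul_left, sum_inner, sum_eq_zero, mul_zero]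
  intro j _
  rw [inner_smul_left, app (SC.all F.Be (Or.inl ⟨j, rfl⟩) ⟨_, _, rfl⟩).1, ← inner_star_r, F.e_star,
    ← h, ee_app, if_neg (by simp), inner_zero_right, mul_zero]

theorem fibre_a {ζ : H} (h : F.e none none ζ = ζ) (k) : F.e none none (F.a k ζ) = F.a k ζ := by
  rw [← app (SC.all F.Ae (Or.inl ⟨k, rfl⟩) ⟨_, _, rfl⟩).1, h]

theorem U_apply {ζ : H} (h : F.e none none ζ = ζ) :
    F.U ζ = ζ - ∑ k, F.a k (star (F.a k) ζ) + ∑ k, F.V k (star (F.a k) ζ) := by
  have h1 : star F.W ζ = 0 := by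
    simp only [Fk.W, star_sum, star_mul, star_star, _root_.sum_apply, mul_apply_eq_comp]
    exact sum_eq_zero fun k _ => starV F (fibre_a F h k) k
  have h2 : F.Q ζ = 0 := by
    simp only [Fk.Q, _root_.sum_apply, mul_apply_eq_comp, starV F h, map_zero, sum_const_zero]
  have h3 : F.W ζ = ∑ k, F.V k (star (F.a k) ζ) := by
    simp only [Fk.W, _root_.sum_apply, mul_apply_eq_comp]
    exact sum_congr rfl fun k _ => app (aV F k k).2 ζ
  have h4 : F.P ζ = ∑ k, F.a k (star (F.a k) ζ) := by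
    simp only [Fk.P, _root_.sum_apply, mul_apply_eq_comp, h]
  simp only [Fk.U, sub_apply, add_apply, h1, h2, h3, h4, one_apply_eq_self, sub_zero]

theorem conj_apply (hU : F.U ∈ unitary (H →L[ℂ] H)) {ζ : H} (h : F.e none none ζ = ζ)
    (ha : ∀ k, star (F.a k) ζ = 0) (i) (hc : (F.l i + star (F.l i)) ζ = F.a i ζ) :
    (F.U * (F.l i + star (F.l i)) * star F.U) ζ = F.V i ζ := by
  have h1 : F.U ζ = ζ := by simp [U_apply F h, ha]
  have h2 : star F.U ζ = ζ := by
    conv_lhs => rw [← h1]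
    exact congrArg (fun T : H →L[ℂ] H => T ζ) hU.1
  rw [mul_apply_eq_comp, mul_apply_eq_comp, h2, hc, U_apply F (fibre_a F h i)]
  simp [iso_app F.aa, apply_ite]

theorem c'_η (j x) : (F.l' j + star (F.l' j)) (F.η x) = F.b j (F.η x) := by
  have h1 := SC.all F.Be (Or.inr ⟨j, rfl⟩) ⟨x, none, rfl⟩
  rw [← F.e_η x, add_apply, app h1.1, app h1.2.1, F.l'_η, F.lb_η, map_zero, add_zero,
    app (SC.all F.Be (Or.inl ⟨j, rfl⟩) ⟨x, none, rfl⟩).1]

theorem norm_ph (i j : ZMod p) : ‖Fk.ph i j‖ = 1 := AddChar.norm_apply _ _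

theorem term (hU : F.U ∈ unitary (H →L[ℂ] H)) (i j) :
    conj (Fk.ph i j) * (⟪F.b j (F.η (some (i + j))),
      (F.U * (F.l i + star (F.l i)) * star F.U) (F.η none)⟫_ℂ - ⟪F.η (some (i + j)),
      (F.U * (F.l i + star (F.l i)) * star F.U) (F.b j (F.η none))⟫_ℂ) = ((√(p : ℝ))⁻¹ : ℂ) := by
  have h1 := SC.all F.AB (Or.inr ⟨i, rfl⟩) (Or.inl ⟨j, rfl⟩)
  rw [conj_apply F hU (F.e_η none) F.a_η i (by rw [add_apply, F.l_η, F.la_η, add_zero]),
    conj_apply F hU (by rw [← app (SC.all F.Be (Or.inl ⟨j, rfl⟩) ⟨_, _, rfl⟩).1, F.e_η])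
      (fun k => by rw [app (SC.all F.AB (Or.inl ⟨k, rfl⟩) (Or.inl ⟨j, rfl⟩)).2.1, F.a_η, map_zero]) i
      (by rw [add_apply, app h1.1, app h1.2.1, F.l_η, F.la_η, map_zero, add_zero,
        app (SC.all F.AB (Or.inl ⟨i, rfl⟩) (Or.inl ⟨j, rfl⟩)).1]),
    V_apply, V_apply, inner_smul_right, inner_smul_right, inner_sum, inner_sum,
    sum_eq_single j (fun k _ hk => by
      rw [inner_smul_right, ← inner_star_r, iso_app F.bb, if_neg hk.symm, inner_zero_right, mul_zero])
      (by simp), sum_eq_zero (fun k _ => by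
      rw [inner_smul_right, ← inner_star_l, ← F.e_η,
        app (SC.all F.Be (Or.inl ⟨k, rfl⟩) ⟨_, _, rfl⟩).2.1, F.b_η, map_zero, inner_zero_left,
        mul_zero]), inner_smul_right, ← inner_star_r, iso_app F.bb, if_pos rfl, F.e_η, inner_η,
    mul_zero, sub_zero, mul_one, mul_left_comm, Complex.conj_mul', norm_ph]
  simp

theorem col1 (β : H) : ∑ i, ‖star (F.l i) β‖ ≤ √(p : ℝ) * ‖β‖ := by
  have h1 := col_le (iso_facts F.ll).1 (iso_facts F.ll).2 β
  have h2 := sq_sum_le_card_mul_sum_sq (s := univ) (f := fun i => ‖star (F.l i) β‖)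
  rw [card_univ, ZMod.card] at h2
  refine (sq_le_sq₀ (by positivity) (by positivity)).1 ?_
  rw [mul_pow, Real.sq_sqrt (by positivity)]
  exact h2.trans (by gcongr)

theorem phi_le (A B : H →L[ℂ] H) : ∑ i, ∑ j, ‖⟪F.η (some (i + j)),
    (A * (F.l i + star (F.l i)) * B) (F.b j (F.η none))⟫_ℂ‖ ≤ 2 * (‖A‖ * ‖B‖) * (p * √(p : ℝ)) := by
  have hα : ∀ k, ‖star A (F.η (some k))‖ ≤ ‖A‖ := fun k => by
    simpa [norm_η] using (star A).le_opNorm (F.η (some k))
  have hβ : ∀ j, ‖B (F.b j (F.η none))‖ ≤ ‖B‖ := fun j =>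
    (B.le_opNorm _).trans (mul_le_of_le_one_right (norm_nonneg _) (by
      simpa [norm_η] using (F.b j).le_of_opNorm_le ((iso_facts F.bb).2 j) (F.η none)))
  have h1 : ∑ i, ∑ j, ‖star (F.l i) (star A (F.η (some (i + j))))‖ * ‖B‖ ≤
      (‖A‖ * ‖B‖) * (p * √(p : ℝ)) := by
    have : ∀ i, ∑ j, ‖star (F.l i) (star A (F.η (some (i + j))))‖ * ‖B‖ =
        ∑ k, ‖star (F.l i) (star A (F.η (some k)))‖ * ‖B‖ := fun i =>
      Equiv.sum_comp (Equiv.addLeft i) fun k => ‖star (F.l i) (star A (F.η (some k)))‖ * ‖B‖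
    rw [sum_congr rfl fun i _ => this i, sum_comm]
    calc _ ≤ ∑ _k : ZMod p, √(p : ℝ) * ‖A‖ * ‖B‖ := sum_le_sum fun k _ => by
          rw [← sum_mul]
          gcongr
          exact (col1 F _).trans (by gcongr; exact hα k)
      _ = _ := by rw [sum_const, card_univ, ZMod.card, nsmul_eq_mul]; ring
  have h2 : ∑ i, ∑ j, ‖A‖ * ‖star (F.l i) (B (F.b j (F.η none)))‖ ≤
      (‖A‖ * ‖B‖) * (p * √(p : ℝ)) := by
    rw [sum_comm]
    calc _ ≤ ∑ _k : ZMod p, ‖A‖ * (√(p : ℝ) * ‖B‖) := sum_le_sum fun k _ => by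
          rw [← mul_sum]
          gcongr
          exact (col1 F _).trans (by gcongr; exact hβ k)
      _ = _ := by rw [sum_const, card_univ, ZMod.card, nsmul_eq_mul]; ring
  refine le_trans ?_ ((add_le_add h1 h2).trans (le_of_eq (by ring)))
  rw [← sum_add_distrib]
  refine sum_le_sum fun i _ => ?_
  rw [← sum_add_distrib]
  refine sum_le_sum fun j _ => ?_
  rw [mul_apply_eq_comp, mul_apply_eq_comp, ← inner_star_l, add_apply, inner_add_right]
  refine (norm_add_le _ _).trans (add_le_add ?_ ?_)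
  · rw [← inner_star_l]
    exact (norm_inner_le_norm _ _).trans (by gcongr; exact hβ j)
  · exact (norm_inner_le_norm _ _).trans (by gcongr; exact hα _)

theorem first_le (z : H →L[ℂ] H) (i) :
    ‖∑ j, conj (Fk.ph i j) * ⟪F.b j (F.η (some (i + j))), z (F.η none)⟫_ℂ‖ ≤ √(p : ℝ) * ‖z‖ := by
  have h1 := row_le (iso_facts F.bb).1 (iso_facts F.bb).2 fun j => Fk.ph i j • F.η (some (i + j))
  simp only [norm_smul, norm_ph, norm_η, one_mul, one_pow, sum_const, card_univ, ZMod.card,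
    nsmul_eq_mul, mul_one, map_smul] at h1
  simp only [← inner_smul_left, ← sum_inner]
  refine (norm_inner_le_norm _ _).trans (mul_le_mul (Real.le_sqrt_of_sq_le h1) ?_ (norm_nonneg _)
    (by positivity))
  simpa [norm_η] using z.le_opNorm (F.η none)

end N4x

open N4x

theorem n4 : N4 := by
  intro H _ _ _ p _ F hU v hv hc
  have hp0 : (0 : ℝ) < p := by exact_mod_cast (Fact.out : p.Prime).pos
  have hs : 0 < √(p : ℝ) := by positivity
  have un : ∀ w ∈ unitary (H →L[ℂ] H), ‖w‖ ≤ 1 := fun w hw => by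
    have h1 := CStarRing.norm_star_mul_self (x := w)
    rw [hw.1] at h1
    have h2 : ‖(1 : H →L[ℂ] H)‖ ≤ 1 := ContinuousLinearMap.norm_id_le
    nlinarith [norm_nonneg w]
  set ε := ‖v - 1‖
  set c : ZMod p → H →L[ℂ] H := fun i => F.l i + star (F.l i) with hcd
  have e1 : ‖(1 - v) * F.U‖ * ‖star F.U‖ ≤ ε := by
    rw [norm_star]
    refine (mul_le_of_le_one_right (norm_nonneg _) (un _ hU)).trans ((norm_mul_le _ _).trans ?_)
    rw [norm_sub_rev]
    exact mul_le_of_le_one_right (norm_nonneg _) (un _ hU)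
  have e2 : ‖v * F.U‖ * ‖star F.U * (1 - star v)‖ ≤ ε := by
    refine (mul_le_of_le_one_left (norm_nonneg _) (un _ (mul_mem hv hU))).trans
      ((norm_mul_le _ _).trans ?_)
    rw [← star_one (H →L[ℂ] H), ← star_sub, norm_star, norm_star, norm_sub_rev]
    exact mul_le_of_le_one_left (norm_nonneg _) (un _ hU)
  have hz : ∀ i, F.U * c i * star F.U = v * (F.U * c i * star F.U) * star v +
      ((1 - v) * F.U * c i * star F.U + v * F.U * c i * (star F.U * (1 - star v))) := fun i => by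
    noncomm_ring
  have hcn : ∀ i, ‖c i‖ ≤ 2 := fun i => (norm_add_le _ _).trans (by
    rw [norm_star]; linarith [(iso_facts F.ll).2 i])
  have hABC : ∀ (A B : H →L[ℂ] H) i, ‖A‖ * ‖B‖ ≤ ε → ‖A * c i * B‖ ≤ 2 * ε := fun A B i h => by
    refine (norm_mul_le _ _).trans ((mul_le_mul_of_nonneg_right (norm_mul_le _ _)
      (norm_nonneg _)).trans ?_)
    have := mul_le_mul_of_nonneg_left (hcn i) (mul_nonneg (norm_nonneg A) (norm_nonneg B))
    nlinarith
  have key : ∀ i j, ((√(p : ℝ))⁻¹ : ℂ) = conj (Fk.ph i j) * ⟪F.b j (F.η (some (i + j))),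
      ((1 - v) * F.U * c i * star F.U + v * F.U * c i * (star F.U * (1 - star v))) (F.η none)⟫_ℂ -
      (conj (Fk.ph i j) * ⟪F.η (some (i + j)), ((1 - v) * F.U * c i * star F.U)
        (F.b j (F.η none))⟫_ℂ + conj (Fk.ph i j) * ⟪F.η (some (i + j)),
        (v * F.U * c i * (star F.U * (1 - star v))) (F.b j (F.η none))⟫_ℂ) := fun i j => by
    have h0 : ⟪F.b j (F.η (some (i + j))), (v * (F.U * c i * star F.U) * star v) (F.η none)⟫_ℂ =
        ⟪F.η (some (i + j)), (v * (F.U * c i * star F.U) * star v) (F.b j (F.η none))⟫_ℂ := by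
      rw [← c'_η, ← c'_η, app (hc i j), ← inner_star_r, star_add, star_star, add_comm (star _)]
    rw [← term F hU i j]
    conv_lhs => rw [show F.U * (F.l i + star (F.l i)) * star F.U = _ from hz i]
    rw [add_apply, add_apply _ _ (F.b j _), inner_add_right, inner_add_right, h0,
      add_apply _ _ (F.b j _), inner_add_right]
    ring
  have hsum : ∑ i : ZMod p, ∑ j : ZMod p, ((√(p : ℝ))⁻¹ : ℂ) = ((p * √(p : ℝ) : ℝ) : ℂ) := by
    simp only [sum_const, card_univ, ZMod.card, nsmul_eq_mul]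
    have : (p : ℝ) * (p * (√(p : ℝ))⁻¹) = p * √(p : ℝ) := by
      congr 1
      field_simp
      rw [Real.sq_sqrt hp0.le]
    exact_mod_cast this
  have hn : p * √(p : ℝ) ≤ 8 * ε * (p * √(p : ℝ)) := by
    have h1 := congrArg norm hsum
    rw [Complex.norm_real, Real.norm_of_nonneg (by positivity)] at h1
    refine h1.symm.le.trans ?_
    rw [sum_congr rfl fun i _ => sum_congr rfl fun j _ => key i j]
    simp only [sum_sub_distrib, sum_add_distrib]
    have b1 : ∀ A B : H →L[ℂ] H, ‖A‖ * ‖B‖ ≤ ε → ‖∑ i, ∑ j, conj (Fk.ph i j) *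
        ⟪F.η (some (i + j)), (A * c i * B) (F.b j (F.η none))⟫_ℂ‖ ≤ 2 * ε * (p * √(p : ℝ)) :=
      fun A B h => by
        refine le_trans (norm_sum_le_of_le _ fun i _ => norm_sum_le_of_le _ fun j _ => ?_)
          ((phi_le F A B).trans (by gcongr))
        rw [norm_mul, RCLike.norm_conj, norm_ph, one_mul]
    have b2 : ‖∑ i, ∑ j, conj (Fk.ph i j) * ⟪F.b j (F.η (some (i + j))),
        ((1 - v) * F.U * c i * star F.U + v * F.U * c i * (star F.U * (1 - star v)))
          (F.η none)⟫_ℂ‖ ≤ 4 * ε * (p * √(p : ℝ)) := by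
      refine (norm_sum_le_of_le (n := fun _ => √(p : ℝ) * (4 * ε)) _ fun i _ =>
        (first_le F _ i).trans ?_).trans (le_of_eq ?_)
      · gcongr
        exact (norm_add_le _ _).trans (by linarith [hABC _ _ i e1, hABC _ _ i e2])
      · rw [sum_const, card_univ, ZMod.card, nsmul_eq_mul]; ring
    refine (norm_sub_le _ _).trans ((add_le_add b2 ((norm_add_le _ _).trans
      (add_le_add (b1 _ _ e1) (b1 _ _ e2)))).trans (le_of_eq ?_))
    ring
  have : (1 : ℝ) ≤ 8 * ε := le_of_mul_le_mul_right (by linarith) (mul_pos hp0 hs)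
  linarith

end Crest.Agent.H8.KK
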