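import Crest.Agent.H8.KK.HR
import Crest.Agent.H8.KK.N1
import Crest.Agent.H8.KK.N3
import Crest.Agent.H8.KK.N4

/-! Assembly of S0104. -/

set_option autoImplicit false

namespace Crest.Agent.H8.KK

open Filter Topology N4x

variable {H : Type} [NormedAddCommGroup H] [InnerProductSpace ℂ H] [CompleteSpace H]

/-- the von Neumann algebra of operators commuting with `T` and `T⋆` -/
noncomputable def vnOf (T : Set (H →L[ℂ] H)) : VonNeumannAlgebra H where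
  toStarSubalgebra := StarSubalgebra.centralizer ℂ T
  centralizer_centralizer' := Set.centralizer_centralizer_centralizer _

theorem mem_vnOf {T : Set (H →L[ℂ] H)} {x : H →L[ℂ] H} :
    x ∈ vnOf T ↔ ∀ t ∈ T, Commute t x ∧ Commute (star t) x :=
  StarSubalgebra.mem_centralizer_iff ℂ

theorem exists_prime (κ : ℝ) (hκ : 0 < κ) :
    ∃ p : ℕ, p.Prime ∧ p ≠ 2 ∧ (16 + 16 * √(p : ℝ)) / p ≤ κ ^ 2 := by
  obtain ⟨n, hn⟩ := exists_nat_ge ((32 / κ ^ 2) ^ 2)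
  obtain ⟨p, hp, hp'⟩ := Nat.exists_infinite_primes (n + 3)
  refine ⟨p, hp', by omega, ?_⟩
  have h1 : (n : ℝ) + 3 ≤ p := by exact_mod_cast hp
  have h0 : (0 : ℝ) ≤ n := Nat.cast_nonneg n
  have h2 : 32 / κ ^ 2 ≤ √(p : ℝ) := Real.le_sqrt_of_sq_le (by linarith)
  have h3 : 1 ≤ √(p : ℝ) := Real.le_sqrt_of_sq_le (by linarith)
  have h4 := Real.mul_self_sqrt (x := p) (by linarith)
  rw [div_le_iff₀ (by positivity)] at h2
  rw [div_le_iff₀ (by linarith)]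
  nlinarith

theorem s0104 : ∃ ε₀ : ℝ, 0 < ε₀ ∧ ∀ δ : ℝ, 0 < δ →
      ∃ (H : Type) (_ : NormedAddCommGroup H) (_ : InnerProductSpace ℂ H) (_ : CompleteSpace H)
        (_ : TopologicalSpace.SeparableSpace H) (M N : VonNeumannAlgebra H),
        (∀ x ∈ M, ‖x‖ ≤ 1 → ∃ y ∈ N, ‖x - y‖ < δ) ∧
        ∀ u : H →L[ℂ] H, u ∈ unitary (H →L[ℂ] H) →
          (∀ x ∈ M, u * x * star u ∈ N) → ε₀ ≤ ‖u - 1‖ := by
  obtain ⟨C, hC1, hC⟩ := hr.{0}
  refine ⟨1 / 8, by norm_num, fun δ hδ => ?_⟩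
  set κ := δ / (8 * C) with hκ
  have hκ0 : 0 < κ := by positivity
  obtain ⟨p, hp, hp2, hpκ⟩ := exists_prime κ hκ0
  have := Fact.mk hp
  obtain ⟨H, i1, i2, i3, i4, ⟨F⟩⟩ := n1 p
  obtain ⟨hU, h3⟩ := n3 H p F
  let T₀ : Set (H →L[ℂ] H) := {t | (∃ i, t = F.a i + star (F.a i)) ∨ (∃ i, t = F.b i) ∨
    (∃ i, t = F.l' i + star (F.l' i)) ∨ ∃ x y, t = F.e x y}
  let T₁ : Set (H →L[ℂ] H) := {t | (∃ i, t = F.b i + star (F.b i)) ∨ (∃ i, t = F.a i) ∨
    (∃ x y, t = F.e x y) ∨ t ∈ vnOf T₀}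
  have hM : ∀ m ∈ vnOf T₀, F.Mz m := fun m hm =>
    ⟨fun i => (mem_vnOf.1 hm _ (Or.inl ⟨i, rfl⟩)).1.symm,
      fun i => (mem_vnOf.1 hm _ (Or.inr (Or.inl ⟨i, rfl⟩))).1.symm,
      fun i => (mem_vnOf.1 hm _ (Or.inr (Or.inl ⟨i, rfl⟩))).2.symm,
      fun x y => (mem_vnOf.1 hm _ (Or.inr (Or.inr (Or.inr ⟨x, y, rfl⟩)))).1.symm⟩
  have hR : ∀ y ∈ vnOf T₁, F.Rz y := fun y hy =>
    ⟨fun i => (mem_vnOf.1 hy _ (Or.inl ⟨i, rfl⟩)).1.symm,
      fun i => (mem_vnOf.1 hy _ (Or.inr (Or.inl ⟨i, rfl⟩))).1.symm,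
      fun i => (mem_vnOf.1 hy _ (Or.inr (Or.inl ⟨i, rfl⟩))).2.symm,
      fun x y => (mem_vnOf.1 hy _ (Or.inr (Or.inr (Or.inl ⟨x, y, rfl⟩)))).1.symm⟩
  have hMR : ∀ m ∈ vnOf T₀, ∀ y ∈ vnOf T₁, Commute m y := fun m hm y hy =>
    (mem_vnOf.1 hy _ (Or.inr (Or.inr (Or.inr hm)))).1
  have hS : ∀ m ∈ vnOf T₀, ∀ y ∈ vnOf T₁, ‖F.S m y‖ ≤ κ * (‖m‖ * ‖y‖) := fun m hm y hy => by
    refine (sq_le_sq₀ (norm_nonneg _) (by positivity)).1 ((n2 H p hp2 F m y (hM m hm) (hR y hy)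
      (hMR m hm y hy) (hMR m hm _ (star_mem hy))).trans ?_)
    rw [mul_pow κ]
    gcongr
  have cj : ∀ {x y : H →L[ℂ] H} {U}, U ∈ unitary (H →L[ℂ] H) → Commute x y →
      Commute (U * x * star U) (U * y * star U) := fun {x y U} hU h => by
    change _ = _
    calc _ = U * x * (star U * U) * y * star U := by noncomm_ring
      _ = U * (x * y) * star U := by rw [hU.1]; noncomm_ring
      _ = U * y * (star U * U) * x * star U := by rw [h.eq, hU.1]; noncomm_ring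
      _ = _ := by noncomm_ring
  have cc : ∀ x : H →L[ℂ] H, star F.U * (F.U * x * star F.U) * star (star F.U) = x := fun x => by
    calc _ = star F.U * F.U * x * (star F.U * F.U) := by rw [star_star]; noncomm_ring
      _ = _ := by rw [hU.1]; simp
  have sa : ∀ x : H →L[ℂ] H, star (x + star x) = x + star x := fun x => by
    rw [star_add, star_star, add_comm]
  refine ⟨H, i1, i2, i3, i4, vnOf ((fun t => F.U * t * star F.U) '' T₀), (vnOf T₁).commutant,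
    fun x hx hx1 => ?_, fun v hv h => n4 H p F hU v hv fun i j => ?_⟩
  · set m := star F.U * x * star (star F.U) with hm
    have hm0 : m ∈ vnOf T₀ := mem_vnOf.2 fun t ht => by
      obtain ⟨a1, a2⟩ := mem_vnOf.1 hx _ ⟨t, ht, rfl⟩
      have b1 := cj (Unitary.star_mem hU) a1
      have b2 := cj (Unitary.star_mem hU) a2
      rw [star_mul, star_mul, star_star, ← mul_assoc F.U, ← star_star F.U, star_star (star F.U)] at b2
      rw [cc] at b1
      refine ⟨b1, ?_⟩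
      have := cc (star t)
      simp only [star_star] at this b2 hm
      rw [this] at b2
      rwa [hm]
    have hxm : F.U * m * star F.U = x := by
      calc _ = F.U * star F.U * x * (F.U * star F.U) := by rw [hm, star_star]; noncomm_ring
        _ = _ := by rw [hU.2]; simp
    have hmn : ‖m‖ ≤ 1 := by
      rw [hm, star_star, CStarRing.norm_mul_mem_unitary _ hU,
        CStarRing.norm_mem_unitary_mul _ (Unitary.star_mem hU)]
      exact hx1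
    obtain ⟨z, hz, hz'⟩ := hC H (vnOf T₁) x (7 * κ) (by positivity) fun y hy => by
      have a1 := h3 m y (hM m hm0) (hR y hy) (hMR m hm0 y hy)
      have a2 := hS m hm0 y hy
      have a3 := hS _ (star_mem hm0) _ (star_mem hy)
      rw [norm_star, norm_star] at a3
      rw [hxm, norm_sub_rev] at a1
      have : κ * (‖m‖ * ‖y‖) ≤ κ * ‖y‖ := by
        gcongr; exact mul_le_of_le_one_left (norm_nonneg _) hmn
      linarith
    refine ⟨z, hz, hz'.trans_lt ?_⟩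
    have : C * (7 * κ) = 7 / 8 * δ := by rw [hκ]; field_simp
    linarith
  · have hl := fun {y} (hy : y ∈ Set.range F.b ∪ Set.range F.l') => SC.all F.AB (Or.inr ⟨i, rfl⟩) hy
    have hc : F.l i + star (F.l i) ∈ vnOf T₀ := mem_vnOf.2 <| by
      rintro _ (⟨k, rfl⟩ | ⟨k, rfl⟩ | ⟨k, rfl⟩ | ⟨x, y, rfl⟩)
      · rw [sa]; exact ⟨(F.cd i k).symm, (F.cd i k).symm⟩
      · obtain ⟨a1, a2, a3, a4⟩ := hl (Or.inl ⟨k, rfl⟩)
        exact ⟨(a1.add_left a2).symm, (a3.add_left a4).symm⟩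
      · obtain ⟨a1, a2, a3, a4⟩ := hl (Or.inr ⟨k, rfl⟩)
        rw [sa, and_self]
        exact ((a1.add_left a2).add_right (a3.add_left a4)).symm
      · obtain ⟨a1, a2, a3, a4⟩ := SC.all F.Ae (Or.inr ⟨i, rfl⟩) ⟨x, y, rfl⟩
        exact ⟨(a1.add_left a2).symm, (a3.add_left a4).symm⟩
    have hc' : F.l' j + star (F.l' j) ∈ vnOf T₁ := mem_vnOf.2 <| by
      rintro t (⟨k, rfl⟩ | ⟨k, rfl⟩ | ⟨x, y, rfl⟩ | ht)
      · rw [sa]; exact ⟨(F.cd' j k).symm, (F.cd' j k).symm⟩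
      · obtain ⟨a1, a2, a3, a4⟩ := SC.all F.AB (Or.inl ⟨k, rfl⟩) (Or.inr ⟨j, rfl⟩)
        exact ⟨a1.add_right a3, a2.add_right a4⟩
      · obtain ⟨a1, a2, a3, a4⟩ := SC.all F.Be (Or.inr ⟨j, rfl⟩) ⟨x, y, rfl⟩
        exact ⟨(a1.add_left a2).symm, (a3.add_left a4).symm⟩
      · exact ⟨(mem_vnOf.1 ht _ (Or.inr (Or.inr (Or.inl ⟨j, rfl⟩)))).1.symm,
          (mem_vnOf.1 (star_mem ht) _ (Or.inr (Or.inr (Or.inl ⟨j, rfl⟩)))).1.symm⟩
    have := h _ (mem_vnOf.2 (by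
      rintro _ ⟨t, ht, rfl⟩
      obtain ⟨a1, a2⟩ := mem_vnOf.1 hc t ht
      refine ⟨cj hU a1, ?_⟩
      have := cj hU a2
      rwa [star_mul, star_mul, star_star, ← mul_assoc]))
    exact (VonNeumannAlgebra.mem_commutant_iff.1 this _ hc').symm

end Crest.Agent.H8.KK
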