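import Crest.Agent.H8.KK.ODefs

/-! O1: Pytlik–Szwarc representations. -/

set_option autoImplicit false
set_option linter.unusedSectionVars false
set_option linter.deprecated false

noncomputable section

namespace Crest.Agent.H8.KK.PS

open scoped InnerProductSpace

variable {Γ : Type} [Group Γ] [DecidableEq Γ]

theorem eu_app (x y : Γ) (ξ : L2 Γ ℂ) (z : Γ) : eu x y ξ z = if z = x then ξ y else 0 := by
  rw [eu, pull_apply]
  by_cases h : z = x
  · subst h; simp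
  · simp [PEquiv.single_apply_of_ne (Ne.symm h), h]

theorem lam_app (g : Γ) (ξ : L2 Γ ℂ) (z : Γ) : lam Γ g ξ z = ξ (g⁻¹ * z) := rfl

theorem dlt_app (x z : Γ) : dlt x z = if z = x then 1 else 0 := by
  by_cases h : z = x
  · subst h; simp
  · rw [if_neg h]; exact lp.single_apply_ne _ _ _ h

theorem star_eu (x y : Γ) : star (eu x y) = eu y x := by
  rw [eu, star_pull, PEquiv.symm_single]; rfl

theorem star_lam (g : Γ) : star (lam Γ g) = lam Γ g⁻¹ := by
  change star (pull ℂ _) = pull ℂ _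
  rw [star_pull]
  congr 1
  rw [← Equiv.toPEquiv_symm]
  congr 1
  rw [map_inv, inv_inv]; rfl

theorem lam_unit (g : Γ) : lam Γ g ∈ unitary (L2 Γ ℂ →L[ℂ] L2 Γ ℂ) := by
  rw [Unitary.mem_iff, star_lam, ← map_mul, ← map_mul]; simp

theorem norm_lam_app (g : Γ) (ξ : L2 Γ ℂ) : ‖lam Γ g ξ‖ = ‖ξ‖ :=
  ContinuousLinearMap.norm_map_of_mem_unitary (lam_unit g) ξ

/-- the rotation in the plane spanned by `δ₁`, `δₐ` -/
def rot (c σ : ℝ) (a : Γ) : L2 Γ ℂ →L[ℂ] L2 Γ ℂ :=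
  1 + (((c : ℂ) - 1) • (eu 1 1 + eu a a) + (σ : ℂ) • (eu 1 a - eu a 1))

theorem rot_app (c σ : ℝ) {a : Γ} (ha : a ≠ 1) (ξ : L2 Γ ℂ) (z : Γ) :
    rot c σ a ξ z = if z = 1 then c * ξ 1 + σ * ξ a else if z = a then c * ξ a - σ * ξ 1
      else ξ z := by
  simp only [rot, ContinuousLinearMap.add_apply, ContinuousLinearMap.smul_apply,
    ContinuousLinearMap.sub_apply, ContinuousLinearMap.one_apply, lp.coeFn_add, lp.coeFn_smul,
    lp.coeFn_sub, Pi.add_apply, Pi.smul_apply, Pi.sub_apply, eu_app, smul_eq_mul]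
  by_cases h1 : z = 1
  · subst h1; simp [ha.symm]; ring
  · by_cases h2 : z = a
    · subst h2; simp [h1]; ring
    · simp [h1, h2]

theorem star_rot (c σ : ℝ) (a : Γ) : star (rot c σ a) = rot c (-σ) a := by
  simp only [rot, star_add, star_smul, star_sub, star_one, star_eu, Complex.star_def, map_sub,
    Complex.conj_ofReal, map_one]
  push_cast
  rw [neg_smul, ← smul_neg, neg_sub]

theorem rot_mul {c σ : ℝ} (h : c ^ 2 + σ ^ 2 = 1) {a : Γ} (ha : a ≠ 1) :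
    rot c σ a * rot c (-σ) a = 1 := by
  have h' : (c : ℂ) ^ 2 + (σ : ℂ) ^ 2 = 1 := by exact_mod_cast h
  ext1 ξ; ext z
  simp only [ContinuousLinearMap.mul_apply, rot_app _ _ ha, ContinuousLinearMap.one_apply, if_true,
    if_neg ha]
  push_cast
  split_ifs with h1 h2
  · subst h1; linear_combination (ξ 1) * h'
  · subst h2; linear_combination (ξ z) * h'
  · rfl

theorem rot_unit {c σ : ℝ} (h : c ^ 2 + σ ^ 2 = 1) {a : Γ} (ha : a ≠ 1) :
    rot c σ a ∈ unitary (L2 Γ ℂ →L[ℂ] L2 Γ ℂ) := by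
  rw [Unitary.mem_iff, star_rot]
  refine ⟨?_, rot_mul h ha⟩
  have := rot_mul (c := c) (σ := -σ) (by simpa using h) ha
  rwa [neg_neg] at this

theorem lam_rot (c σ : ℝ) {b : Γ} (hb : b ≠ 1) :
    lam Γ b⁻¹ * rot c (-σ) b = rot c σ b⁻¹ * lam Γ b⁻¹ := by
  ext1 ξ; ext z
  simp only [ContinuousLinearMap.mul_apply, rot_app _ _ hb, rot_app _ _ (inv_ne_one.2 hb), lam_app,
    inv_inv, mul_one, mul_inv_cancel, mul_eq_left]
  push_cast
  by_cases h1 : z = 1
  · subst h1; simp [hb]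
  · by_cases h2 : z = b⁻¹
    · subst h2; simp [hb]; ring
    · have : b * z ≠ 1 := fun h => h2 (eq_inv_of_mul_eq_one_right h)
      simp [h1, h2, this]

variable (Γ) in
/-- finite matrices -/
abbrev fin : Submodule ℂ (L2 Γ ℂ →L[ℂ] L2 Γ ℂ) := Submodule.span ℂ {t | ∃ x y, t = eu x y}

theorem eu_mem (x y : Γ) : eu x y ∈ fin Γ := Submodule.subset_span ⟨x, y, rfl⟩

theorem mul_mem_fin {T S : L2 Γ ℂ →L[ℂ] L2 Γ ℂ} (hT : ∀ x y, T * eu x y ∈ fin Γ) (hS : S ∈ fin Γ) :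
    T * S ∈ fin Γ := by
  induction hS using Submodule.span_induction with
  | mem t ht => obtain ⟨x, y, rfl⟩ := ht; exact hT x y
  | zero => simp
  | add a b _ _ ha hb => rw [mul_add]; exact add_mem ha hb
  | smul c a _ ha => rw [mul_smul_comm]; exact Submodule.smul_mem _ _ ha

theorem fin_mul_mem {T S : L2 Γ ℂ →L[ℂ] L2 Γ ℂ} (hT : ∀ x y, eu x y * T ∈ fin Γ) (hS : S ∈ fin Γ) :
    S * T ∈ fin Γ := by
  induction hS using Submodule.span_induction with
  | mem t ht => obtain ⟨x, y, rfl⟩ := ht; exact hT x y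
  | zero => simp
  | add a b _ _ ha hb => rw [add_mul]; exact add_mem ha hb
  | smul c a _ ha => rw [smul_mul_assoc]; exact Submodule.smul_mem _ _ ha

theorem lam_mul_mem (g : Γ) {S : L2 Γ ℂ →L[ℂ] L2 Γ ℂ} (hS : S ∈ fin Γ) : lam Γ g * S ∈ fin Γ := by
  refine mul_mem_fin (fun x y => ?_) hS
  have : lam Γ g * eu x y = eu (g * x) y := by
    ext1 ξ; ext z
    simp only [ContinuousLinearMap.mul_apply, lam_app, eu_app, inv_mul_eq_iff_eq_mul]
  rw [this]; exact eu_mem _ _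

theorem mul_lam_mem (g : Γ) {S : L2 Γ ℂ →L[ℂ] L2 Γ ℂ} (hS : S ∈ fin Γ) : S * lam Γ g ∈ fin Γ := by
  refine fin_mul_mem (fun x y => ?_) hS
  have : eu x y * lam Γ g = eu x (g⁻¹ * y) := by
    ext1 ξ; ext z
    simp only [ContinuousLinearMap.mul_apply, lam_app, eu_app]
  rw [this]; exact eu_mem _ _

theorem fin_mul_fin {T S : L2 Γ ℂ →L[ℂ] L2 Γ ℂ} (hT : T ∈ fin Γ) (hS : S ∈ fin Γ) :
    T * S ∈ fin Γ := by
  refine mul_mem_fin (fun z w => fin_mul_mem (fun x y => ?_) hT) hS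
  have : eu x y * eu z w = if y = z then eu x w else 0 := by
    ext1 ξ; ext v
    simp only [ContinuousLinearMap.mul_apply, eu_app]
    split_ifs <;> simp [eu_app, *]
  rw [this]
  split_ifs
  · exact eu_mem _ _
  · exact zero_mem _

theorem rot_sub_mem (c σ : ℝ) (a : Γ) : rot c σ a - 1 ∈ fin Γ := by
  rw [rot, add_sub_cancel_left]
  exact add_mem (Submodule.smul_mem _ _ (add_mem (eu_mem _ _) (eu_mem _ _)))
    (Submodule.smul_mem _ _ (sub_mem (eu_mem _ _) (eu_mem _ _)))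

theorem norm_add_dlt (ξ : L2 Γ ℂ) (x : Γ) (t : ℂ) :
    ‖ξ + t • dlt x‖ ^ 2 = ‖ξ‖ ^ 2 - ‖ξ x‖ ^ 2 + ‖ξ x + t‖ ^ 2 := by
  rw [@norm_add_sq ℂ, @norm_add_sq ℂ _ _ _ _ (ξ x) t, inner_smul_right, lp.inner_single_right,
    norm_smul, lp.norm_single (by norm_num)]
  simp [mul_comm]; ring

/-- the cocycle along a list of group elements -/
def Wl (c σ : ℝ) : List Γ → L2 Γ ℂ →L[ℂ] L2 Γ ℂ
  | [] => 1
  | a :: L => rot c σ a * (lam Γ a * Wl c σ L * lam Γ a⁻¹)

theorem Wl_mem (c σ : ℝ) (L : List Γ) : Wl c σ L - 1 ∈ fin Γ := by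
  induction L with
  | nil => simp [Wl]
  | cons a L ih =>
    have h1 : lam Γ a * Wl c σ L * lam Γ a⁻¹ - 1 ∈ fin Γ := by
      have : lam Γ a * Wl c σ L * lam Γ a⁻¹ - 1 = lam Γ a * (Wl c σ L - 1) * lam Γ a⁻¹ := by
        rw [mul_sub, sub_mul, mul_one, ← map_mul, mul_inv_cancel, map_one]
      rw [this]; exact mul_lam_mem _ (lam_mul_mem _ ih)
    have : Wl c σ (a :: L) - 1 = (rot c σ a - 1) * (lam Γ a * Wl c σ L * lam Γ a⁻¹ - 1) +
        (rot c σ a - 1) + (lam Γ a * Wl c σ L * lam Γ a⁻¹ - 1) := by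
      rw [Wl]; noncomm_ring
    rw [this]
    exact add_mem (add_mem (fin_mul_fin (rot_sub_mem _ _ _) h1) (rot_sub_mem _ _ _)) h1

theorem Wl_fix (c σ : ℝ) (L : List Γ) (hL : ∀ a ∈ L, a ≠ 1) (x : Γ)
    (hx : ∀ k, x ≠ (L.take k).prod) :
    Wl c σ L (dlt x) = dlt x ∧ ∀ ξ, Wl c σ L ξ x = ξ x := by
  induction L generalizing x with
  | nil => exact ⟨rfl, fun _ => rfl⟩
  | cons a L ih =>
    have ha : a ≠ 1 := hL a (by simp)
    have h1 : x ≠ 1 := by simpa using hx 0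
    have h2 : x ≠ a := by simpa using hx 1
    obtain ⟨i1, i2⟩ := ih (fun b hb => hL b (by simp [hb])) (a⁻¹ * x) fun k h => hx (k + 1) (by
      rw [List.take_succ_cons, List.prod_cons, ← h]; simp)
    have ld : ∀ g y : Γ, lam Γ g (dlt y) = dlt (g * y) := fun g y => by
      ext z; simp only [lam_app, dlt_app, inv_mul_eq_iff_eq_mul]
    constructor
    · simp only [Wl, ContinuousLinearMap.mul_apply, ld, i1, mul_inv_cancel_left]
      ext z
      rw [rot_app _ _ ha]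
      simp only [dlt_app, if_neg h1.symm, if_neg h2.symm]
      split_ifs with k1 k2 k3 k4 <;> simp_all
    · intro ξ
      simp only [Wl, ContinuousLinearMap.mul_apply, rot_app _ _ ha, if_neg h1, if_neg h2, lam_app,
        i2, inv_inv, mul_inv_cancel_left]

theorem scalar_bound {c s X Y Z A B : ℝ} (hs : 0 ≤ s) (hs2 : s ^ 2 ≤ 1 / 12) (hc1 : |c - 1| ≤ s ^ 2)
    (hc : |c| ≤ 1) (hX : 0 ≤ X) (hY : 0 ≤ Y) (hZ : 0 ≤ Z) (hA0 : 0 ≤ A) (hB0 : 0 ≤ B)
    (hA : A ≤ |c - 1| * X + s * Y + s * Z) (hB : B ≤ s * X + |c - 1| * Y + |c| * Z) :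
    B ^ 2 + 4 * A ^ 2 ≤ 15 * s ^ 2 * X ^ 2 + 15 * s ^ 2 * Y ^ 2 + 4 * Z ^ 2 := by
  have hA' : A ≤ s ^ 2 * X + s * Y + s * Z := by nlinarith [mul_le_mul_of_nonneg_right hc1 hX]
  have hB' : B ≤ s * X + s ^ 2 * Y + Z := by
    nlinarith [mul_le_mul_of_nonneg_right hc1 hY, mul_le_mul_of_nonneg_right hc hZ]
  have t : ∀ u v w : ℝ, (u + v + w) ^ 2 ≤ 3 * (u ^ 2 + v ^ 2 + w ^ 2) := fun u v w => by
    nlinarith [sq_nonneg (u - v), sq_nonneg (v - w), sq_nonneg (u - w)]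
  have h1 := (pow_le_pow_left₀ hA0 hA' 2).trans (t _ _ _)
  have h2 := (pow_le_pow_left₀ hB0 hB' 2).trans (t _ _ _)
  have k1 : s ^ 2 * (s ^ 2 * X ^ 2) ≤ 1 / 12 * (s ^ 2 * X ^ 2) :=
    mul_le_mul_of_nonneg_right hs2 (by positivity)
  have k2 : s ^ 2 * (s ^ 2 * Y ^ 2) ≤ 1 / 12 * (s ^ 2 * Y ^ 2) :=
    mul_le_mul_of_nonneg_right hs2 (by positivity)
  have k3 : s ^ 2 * Z ^ 2 ≤ 1 / 12 * Z ^ 2 := mul_le_mul_of_nonneg_right hs2 (by positivity)
  have k4 : 0 ≤ s ^ 2 * X ^ 2 := by positivity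
  have k5 : 0 ≤ s ^ 2 * Y ^ 2 := by positivity
  nlinarith

theorem Wl_bound {c s : ℝ} (hs : 0 ≤ s) (hs2 : s ^ 2 ≤ 1 / 12) (hc1 : |c - 1| ≤ s ^ 2)
    (hc : |c| ≤ 1) (L : List Γ) (hL : ∀ P, P <:+: L → P ≠ [] → P.prod ≠ 1) (ξ : L2 Γ ℂ) :
    ‖Wl c s L ξ - ξ‖ ^ 2 + 3 * ‖(Wl c s L ξ - ξ) 1‖ ^ 2 ≤
      30 * s ^ 2 * ‖ξ‖ ^ 2 - 15 * s ^ 2 * ‖ξ 1‖ ^ 2 := by
  induction L generalizing ξ with
  | nil =>
    have h1 : ‖ξ 1‖ ^ 2 ≤ ‖ξ‖ ^ 2 :=
      pow_le_pow_left₀ (norm_nonneg _) (lp.norm_apply_le_norm (by norm_num) ξ 1) 2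
    have h2 := mul_le_mul_of_nonneg_left h1 (sq_nonneg s)
    have h3 : 0 ≤ s ^ 2 * ‖ξ‖ ^ 2 := by positivity
    simp only [Wl, ContinuousLinearMap.one_apply, sub_self, norm_zero, lp.coeFn_zero,
      Pi.zero_apply]
    nlinarith
  | cons a L ih =>
    have ha : a ≠ 1 := by simpa using hL [a] (List.IsPrefix.isInfix (by simp)) (by simp)
    have hL' : ∀ P, P <:+: L → P ≠ [] → P.prod ≠ 1 := fun P h =>
      hL P (h.trans (List.suffix_cons a L).isInfix)
    obtain ⟨f1, f2⟩ := Wl_fix c s L (fun b hb => by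
      simpa using hL' [b] ((List.singleton_infix_iff _ _).2 hb) (by simp)) a⁻¹ fun k h =>
        hL (a :: L.take k) (List.IsPrefix.isInfix (by simpa using List.take_prefix k L)) (by simp)
          (by rw [List.prod_cons, ← h]; simp)
    set ξ' := lam Γ a⁻¹ (ξ + (-ξ 1) • dlt 1) with hξ'
    have n1 : ‖ξ'‖ ^ 2 = ‖ξ‖ ^ 2 - ‖ξ 1‖ ^ 2 := by
      rw [hξ', norm_lam_app, norm_add_dlt]; simp
    have n2 : ξ' 1 = ξ a := by
      rw [hξ', lam_app, inv_inv, mul_one]; simp [ha]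
    have IH := ih hL' ξ'
    set η := lam Γ a (Wl c s L ξ' - ξ') with hη
    have n3 : ‖η‖ = ‖Wl c s L ξ' - ξ'‖ := norm_lam_app _ _
    have n4 : η a = (Wl c s L ξ' - ξ') 1 := by rw [hη, lam_app, inv_mul_cancel]
    have n5 : η 1 = 0 := by
      rw [hη, lam_app, mul_one, lp.coeFn_sub, Pi.sub_apply, f2, sub_self]
    have n6 : (lam Γ a * Wl c s L * lam Γ a⁻¹) ξ = ξ + η := by
      have ld : lam Γ a⁻¹ (dlt 1) = dlt a⁻¹ := by
        ext z; simp only [lam_app, dlt_app, inv_inv, mul_eq_one_iff_inv_eq, eq_comm]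
      have ll : ∀ ζ, lam Γ a (lam Γ a⁻¹ ζ) = ζ := fun ζ => by
        rw [← ContinuousLinearMap.mul_apply, ← map_mul, mul_inv_cancel, map_one]; rfl
      simp only [hη, hξ', map_add, map_smul, map_sub, ld, f1, ll, ContinuousLinearMap.mul_apply]
      abel
    rw [← n3, ← n4, n1, n2] at IH
    set v1 : ℂ := (c - 1) * ξ 1 + s * ξ a + s * η a with hv1
    set va : ℂ := -(s * ξ 1) + (c - 1) * ξ a + c * η a with hva
    have e : Wl c s (a :: L) ξ - ξ = η + v1 • dlt 1 + (va - η a) • dlt a := by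
      rw [Wl, ContinuousLinearMap.mul_apply, n6]
      ext z
      simp only [lp.coeFn_sub, lp.coeFn_add, lp.coeFn_smul, Pi.sub_apply, Pi.add_apply,
        Pi.smul_apply, rot_app _ _ ha, dlt_app, smul_eq_mul, n5]
      by_cases h1 : z = 1
      · subst h1; simp only [if_true, if_neg ha.symm, n5, hv1]; ring
      · by_cases h2 : z = a
        · subst h2; simp only [if_true, if_neg h1, hva]; ring
        · simp only [if_neg h1, if_neg h2]; ring
    have e1 : (η + v1 • dlt 1 + (va - η a) • dlt a : L2 Γ ℂ) 1 = v1 := by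
      simp [dlt_app, n5, ha.symm]
    have e2 : (η + v1 • dlt 1 : L2 Γ ℂ) a = η a := by simp [dlt_app, ha]
    rw [e, e1, norm_add_dlt, norm_add_dlt, e2, n5]
    simp only [norm_zero, zero_add, add_sub_cancel]
    have nc : ‖(c : ℂ) - 1‖ = |c - 1| := by
      rw [← Real.norm_eq_abs, ← Complex.norm_real]; push_cast; rfl
    have ns : ‖(s : ℂ)‖ = s := by rw [Complex.norm_real, Real.norm_of_nonneg hs]
    have b := scalar_bound hs hs2 hc1 hc (norm_nonneg (ξ 1)) (norm_nonneg (ξ a))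
      (norm_nonneg (η a)) (norm_nonneg v1) (norm_nonneg va)
      (norm_add₃_le.trans (by simp only [norm_mul, nc, ns]; rfl))
      (norm_add₃_le.trans (by
        simp only [norm_neg, norm_mul, nc, ns, Complex.norm_real, Real.norm_eq_abs]; rfl))
    nlinarith

end Crest.Agent.H8.KK.PS

namespace Crest.Agent.H8.KK

open scoped InnerProductSpace
open PS

theorem o1 : O1 := by
  intro r s hs hs2
  set c := √(1 - s ^ 2) with hc
  have hc2 : c ^ 2 + s ^ 2 = 1 := by rw [hc, Real.sq_sqrt (by linarith)]; ring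
  have hc0 : 0 ≤ c := Real.sqrt_nonneg _
  have hcl : c ≤ 1 := by nlinarith
  have hc1 : |c - 1| ≤ s ^ 2 := by rw [abs_le]; constructor <;> nlinarith
  let π₀ : FreeGroup (Fin r) →* unitary (L2 (FreeGroup (Fin r)) ℂ →L[ℂ] L2 (FreeGroup (Fin r)) ℂ) :=
    FreeGroup.lift fun i => ⟨rot c s (FreeGroup.of i) * lam _ (FreeGroup.of i),
      mul_mem (rot_unit hc2 (FreeGroup.of_ne_one i)) (lam_unit _)⟩
  let π := (unitary (L2 (FreeGroup (Fin r)) ℂ →L[ℂ] L2 (FreeGroup (Fin r)) ℂ)).subtype.comp π₀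
  have hU : IsU π := fun g => by
    simp only [π, MonoidHom.comp_apply, map_inv π₀]
    rfl
  have hof : ∀ i, π (FreeGroup.of i) = rot c s (FreeGroup.of i) * lam _ (FreeGroup.of i) :=
    fun i => by simp [π, π₀]
  let lt : Fin r × Bool → FreeGroup (Fin r) := fun a => FreeGroup.mk [a]
  have hlt : ∀ a, π (lt a) = rot c s (lt a) * lam _ (lt a) := by
    rintro ⟨i, _ | _⟩
    · have : lt (i, false) = (FreeGroup.of i)⁻¹ := rfl
      rw [this, ← hU, hof, star_mul, star_lam, star_rot, lam_rot _ _ (FreeGroup.of_ne_one i)]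
    · exact hof i
  have hpr : ∀ L : List (Fin r × Bool), (L.map lt).prod = FreeGroup.mk L := by
    intro L
    induction L with
    | nil => rfl
    | cons a L ih => rw [List.map_cons, List.prod_cons, ih, FreeGroup.mul_mk]; rfl
  have hW : ∀ L : List (Fin r × Bool),
      π (L.map lt).prod = Wl c s (L.map lt) * lam _ (L.map lt).prod := by
    intro L
    induction L with
    | nil => simp [Wl]
    | cons a L ih =>
      rw [List.map_cons, List.prod_cons, map_mul, ih, hlt, Wl]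
      simp only [mul_assoc, ← map_mul, inv_mul_cancel_left]
  have hW' : ∀ g, π g - lam _ g = (Wl c s (g.toWord.map lt) - 1) * lam _ g := fun g => by
    have := hW g.toWord
    rw [hpr, FreeGroup.mk_toWord] at this
    rw [this, sub_mul, one_mul]
  refine ⟨π, hU, fun g => ?_, fun g => ?_, fun i => ?_⟩
  · rw [hW']
    refine ContinuousLinearMap.opNorm_le_bound _ (by positivity) fun ξ => ?_
    have hb := Wl_bound hs hs2 hc1 (by rwa [abs_of_nonneg hc0]) (g.toWord.map lt) (by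
      intro P hP hne h1
      obtain ⟨Q, hQ, rfl⟩ := List.infix_map_iff.1 hP
      rw [hpr, ← FreeGroup.toWord_eq_nil_iff, FreeGroup.toWord_mk,
        (FreeGroup.isReduced_toWord.infix hQ).reduce_eq] at h1
      exact hne (by simp [h1])) (lam _ g ξ)
    rw [norm_lam_app] at hb
    refine le_of_sq_le_sq ?_ (by positivity) |> fun h => h
    rw [ContinuousLinearMap.mul_apply, ContinuousLinearMap.sub_apply,
      ContinuousLinearMap.one_apply]
    have k1 : 0 ≤ s ^ 2 * ‖lam _ g ξ 1‖ ^ 2 := by positivity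
    have k2 : 0 ≤ s ^ 2 * ‖ξ‖ ^ 2 := by positivity
    nlinarith [sq_nonneg ‖(Wl c s (g.toWord.map lt) (lam _ g ξ) - lam _ g ξ) 1‖]
  · rw [hW']
    exact mul_lam_mem _ (Wl_mem _ _ _)
  · rw [lp.inner_single_left, hof, ContinuousLinearMap.mul_apply,
      rot_app _ _ (FreeGroup.of_ne_one i), if_pos rfl]
    simp [lam_app, dlt_app]

end Crest.Agent.H8.KK
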