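import Crest.Agent.H8.KK.ODefs

/-! Haagerup's bound for free generators and residual finiteness of free groups. -/

set_option autoImplicit false

noncomputable section

namespace Crest.Agent.H8.KK

open Filter Finset

theorem exists_perm_ext {G : Type} [Group G] (B : Set G) [Finite B] (a : G) :
    ∃ σ : Equiv.Perm B, ∀ x y : B, (y : G) = a * x → σ x = y := by
  classical
  let e : {x : B // a * x ∈ B} ≃ {y : B // a⁻¹ * y ∈ B} :=
    { toFun := fun x => ⟨⟨_, x.2⟩, by simp⟩
      invFun := fun y => ⟨⟨_, y.2⟩, by simp⟩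
      left_inv := fun x => by ext; simp
      right_inv := fun y => by ext; simp }
  refine ⟨e.extendSubtype, fun x y h => ?_⟩
  rw [Equiv.extendSubtype_apply_of_mem e x (h ▸ y.2)]
  exact Subtype.ext h.symm

theorem o2b : O2b := by
  intro r
  let B : ℕ → Set (FreeGroup (Fin r)) := fun n => FreeGroup.mk '' {l | l.length ≤ n}
  have hB : ∀ n, Finite (B n) := fun n => ((List.finite_length_le _ n).image _).to_subtype
  choose σ hσ using fun n i => exists_perm_ext (B n) (FreeGroup.of i)
  have h1 : ∀ n, (1 : FreeGroup (Fin r)) ∈ B n := fun n => ⟨[], by simp, rfl⟩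
  have key : ∀ n (L : List (Fin r × Bool)), L.length ≤ n →
      ((FreeGroup.lift (σ n) (FreeGroup.mk L) ⟨1, h1 n⟩ : B n) : FreeGroup (Fin r)) =
        FreeGroup.mk L := fun n L => by
    induction L with
    | nil => intro _; rfl
    | cons x L ih =>
      intro hL
      have ih := ih (by simp at hL; omega)
      obtain ⟨i, b⟩ := x
      have hm : FreeGroup.mk ((i, b) :: L) ∈ B n := ⟨_, hL, rfl⟩
      have e : FreeGroup.mk ((i, b) :: L) = FreeGroup.mk [(i, b)] * FreeGroup.mk L := rfl
      cases b with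
      | true =>
        have e' : FreeGroup.mk [(i, true)] = FreeGroup.of i := rfl
        conv_lhs => rw [e, e', map_mul, FreeGroup.lift_apply_of, Equiv.Perm.mul_apply]
        rw [hσ n i _ ⟨_, hm⟩ (by rw [ih]; rfl)]
      | false =>
        have e' : FreeGroup.mk [(i, false)] = (FreeGroup.of i)⁻¹ := rfl
        conv_lhs => rw [e, e', map_mul, map_inv, FreeGroup.lift_apply_of, Equiv.Perm.mul_apply]
        rw [← hσ n i ⟨_, hm⟩ (FreeGroup.lift (σ n) (FreeGroup.mk L) ⟨1, h1 n⟩)
          (by rw [ih]; dsimp only; rw [e, e', mul_inv_cancel_left])]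
        simp
  refine ⟨fun n => Nat.card (B n), fun n => (Finite.equivFin (B n)).permCongrHom.toMonoidHom.comp
    (FreeGroup.lift (σ n)), fun g hg => ?_⟩
  filter_upwards [eventually_ge_atTop g.toWord.length] with n hn h
  have h2 : FreeGroup.lift (σ n) g = 1 :=
    (Finite.equivFin (B n)).permCongrHom.injective (h.trans (map_one _).symm)
  have := key n _ hn
  rw [FreeGroup.mk_toWord, h2] at this
  exact hg this.symm

theorem norm_sum_pull {X : Type} {r : ℕ} (e : Fin r → X ≃ X) (f : X → Option (Fin r × Bool))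
    (h : ∀ i x, f x ≠ some (i, true) → f (e i x) = some (i, false)) :
    ‖∑ i, pull ℂ (e i).toPEquiv‖ ≤ 2 * √(r : ℝ) := by
  classical
  let A : Fin r → L2 X ℂ →L[ℂ] L2 X ℂ := fun i =>
    pull ℂ (PEquiv.ofSet {x | f x = some (i, true)}) * pull ℂ (e i).toPEquiv
  have hA : ∀ i ξ x, A i ξ x = if f x = some (i, true) then ξ (e i x) else 0 := fun i ξ x => by
    simp only [A, ContinuousLinearMap.mul_apply, pull_apply, PEquiv.ofSet]
    split_ifs with h1 <;> simp [h1]
  have hr : (0 : ℝ) ≤ r := Nat.cast_nonneg _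
  have hs : ∀ ξ : L2 X ℂ, (√(r : ℝ) * ‖ξ‖) ^ 2 = r * ‖ξ‖ ^ 2 := fun ξ => by
    rw [mul_pow, Real.sq_sqrt hr]
  have e1 : ∑ i, pull ℂ (e i).toPEquiv = ∑ i, A i + ∑ i, (pull ℂ (e i).toPEquiv - A i) := by
    rw [← sum_add_distrib]; simp
  rw [e1, two_mul]
  refine (norm_add_le _ _).trans (add_le_add ?_ ?_)
  · refine ContinuousLinearMap.opNorm_le_bound _ (by positivity) fun ξ =>
      norm_le_of_sum_le (by positivity) fun s => ?_
    rw [hs]
    calc ∑ x ∈ s, ‖(∑ i, A i) ξ x‖ ^ 2 ≤ ∑ x ∈ s, ∑ i, ‖pull ℂ (e i).toPEquiv ξ x‖ ^ 2 := by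
          refine sum_le_sum fun x _ => ?_
          rw [ContinuousLinearMap.sum_apply, lp.coeFn_sum, Finset.sum_apply]
          simp only [hA, pull_equiv]
          by_cases h1 : ∃ i, f x = some (i, true)
          · obtain ⟨i, hi⟩ := h1
            rw [sum_eq_single i (fun j _ hj => if_neg fun h2 => hj (by simpa [hi] using h2.symm))
              (by simp), if_pos hi]
            exact single_le_sum (f := fun i => ‖ξ (e i x)‖ ^ 2) (fun _ _ => by positivity)
              (mem_univ i)
          · rw [sum_eq_zero fun j _ => if_neg fun h2 => h1 ⟨j, h2⟩]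
            simpa using sum_nonneg fun _ _ => by positivity
      _ ≤ ∑ _i : Fin r, ‖ξ‖ ^ 2 := by
          rw [sum_comm]
          exact sum_le_sum fun i _ => pull_aux _ ξ s
      _ = _ := by simp
  · refine ContinuousLinearMap.opNorm_le_bound _ (by positivity) fun ξ =>
      norm_le_of_sum_le (by positivity) fun s => ?_
    rw [hs]
    let t : Finset X := univ.biUnion fun i => s.image (e i)
    calc ∑ x ∈ s, ‖(∑ i, (pull ℂ (e i).toPEquiv - A i)) ξ x‖ ^ 2
        ≤ ∑ x ∈ s, r * ∑ i, if f (e i x) = some (i, false) then ‖ξ (e i x)‖ ^ 2 else 0 := by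
          refine sum_le_sum fun x _ => ?_
          rw [ContinuousLinearMap.sum_apply, lp.coeFn_sum, Finset.sum_apply]
          refine (pow_le_pow_left₀ (norm_nonneg _) (norm_sum_le _ _) 2).trans
            (sq_sum_le_card_mul_sum_sq.trans ?_)
          rw [card_univ, Fintype.card_fin]
          refine mul_le_mul_of_nonneg_left (sum_le_sum fun i _ => ?_) hr
          rw [ContinuousLinearMap.sub_apply, lp.coeFn_sub, Pi.sub_apply, hA, pull_equiv]
          by_cases h1 : f x = some (i, true)
          · rw [if_pos h1, sub_self]; split_ifs <;> simp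
          · rw [if_neg h1, if_pos (h i x h1), sub_zero]
      _ ≤ r * ∑ i, ∑ y ∈ t, if f y = some (i, false) then ‖ξ y‖ ^ 2 else 0 := by
          rw [← mul_sum, sum_comm]
          refine mul_le_mul_of_nonneg_left (sum_le_sum fun i _ => ?_) hr
          rw [← sum_image (f := fun y => if f y = some (i, false) then ‖ξ y‖ ^ 2 else 0)
            (e i).injective.injOn]
          exact sum_le_sum_of_subset_of_nonneg (subset_biUnion_of_mem (fun i => s.image (e i)) (mem_univ i))
            fun _ _ _ => by positivity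
      _ ≤ _ := by
          refine mul_le_mul_of_nonneg_left (le_trans ?_ (sum_sq_le ξ t)) hr
          rw [sum_comm]
          refine sum_le_sum fun y _ => ?_
          by_cases h1 : ∃ i, f y = some (i, false)
          · obtain ⟨i, hi⟩ := h1
            rw [sum_eq_single i (fun j _ hj => if_neg fun h2 => hj (by simpa [hi] using h2.symm))
              (by simp), if_pos hi]
          · rw [sum_eq_zero fun j _ => if_neg fun h2 => h1 ⟨j, h2⟩]; positivity

theorem o2a : O2a := fun r => by
  refine norm_sum_pull (fun i => reg (FreeGroup (Fin r)) (FreeGroup.of i)⁻¹)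
    (fun x => x.toWord.head?) fun i x hx => ?_
  have e' : (FreeGroup.of i)⁻¹ = FreeGroup.mk [(i, false)] := rfl
  have : ((FreeGroup.of i)⁻¹ * x).toWord = FreeGroup.reduce ((i, false) :: x.toWord) := by
    conv_lhs => rw [← FreeGroup.mk_toWord (x := x), e', FreeGroup.mul_mk, FreeGroup.toWord_mk]
    rfl
  change ((FreeGroup.of i)⁻¹ * x).toWord.head? = _
  rw [this, FreeGroup.reduce.cons, FreeGroup.reduce_toWord]
  cases h : x.toWord with
  | nil => rfl
  | cons a l =>
    rw [h] at hx
    dsimp only
    rw [if_neg]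
    · rfl
    · rintro ⟨h1, h2⟩
      apply hx
      obtain ⟨j, b⟩ := a
      cases b
      · exact absurd h2 (by simp)
      · dsimp only at h1; rw [h1]; rfl

end Crest.Agent.H8.KK
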