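import Crest.Agent.H8.KK.O3A

set_option autoImplicit false

namespace Crest.Agent.H8.KK

open scoped InnerProductSpace
open Filter TopologicalSpace Topology

theorem o3 : O3 := by
  intro Γ H H' _ _ _ _ _ _ _ _ _ η D hη
  refine ⟨fun b => ⟨D.AS b, rfl⟩, fun b => ?_, fun ε hε b a ha ha1 => ?_, ?_⟩
  · have h1 : IsSeparable ((D.J : Set (H →L[ℂ] H)) ∪ Set.range (D.ρ b)) :=
      D.J_sep.union (Set.countable_range _).isSeparable
    refine (h1.span (R := ℂ)).closure.mono (closure_mono ?_)
    rintro _ ⟨i, c, hi, rfl⟩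
    refine add_mem (Submodule.subset_span (Or.inl hi.1)) ?_
    induction c using MonoidAlgebra.induction_on with
    | of g => rw [lin_of]; exact Submodule.subset_span (Or.inr ⟨g, rfl⟩)
    | add x y hx hy => rw [map_add]; exact add_mem hx hy
    | smul r x hx => rw [map_smul]; exact Submodule.smul_mem _ r hx
  · set τ : ℝ := (ε - 4 * η) / (2 * (2 + 4 * η)) with hτ
    have hτ0 : 0 < τ := div_pos (by linarith) (by positivity)
    obtain ⟨_, ⟨i, c, hi, rfl⟩, h0⟩ := Metric.mem_closure_iff.1 ha τ hτ0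
    rw [dist_eq_norm] at h0
    have g0 : (i + lin (D.ρ b) c, lin (D.θ b) c) ∈ D.Gr := by
      simpa using D.gr_add hi.2 (D.lin_gr b c)
    have n0 : ‖lin (D.θ b) c‖ ≤ 1 + τ := by
      refine (D.gr_norm g0).trans ?_
      have := norm_sub_norm_le (i + lin (D.ρ b) c) a
      rw [norm_sub_rev] at this
      linarith
    have g1 := D.gr_sub (D.lin_gr (!b) c) (D.lin_gr b c)
    obtain ⟨j₁, m1, g2, n1⟩ := D.lift_J (D.lin_sub' (!b) b c) g1
    have n2 : ‖lin (D.θ (!b)) c - lin (D.θ b) c‖ ≤ η * (1 + τ) := by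
      refine le_trans ?_ ((D.close b c).trans (by gcongr))
      rcases b with _ | _
      · exact le_rfl
      · exact (norm_sub_rev _ _).le
    set a₁ := i + lin (D.ρ b) c + j₁ with ha₁
    have m2 : a₁ ∈ D.AS (!b) := by
      have := D.mem_A (!b) (hi.add (Core.I.of_sub m1 (D.lin_sub' (!b) b c) g2 g1)) c
      rw [D.mem_AS]
      convert this using 1
      rw [ha₁]; abel
    set d : ℝ := τ + 2 * (η * (1 + τ)) with hd
    have hd0 : 0 < d := by positivity
    have n3 : ‖a - a₁‖ ≤ d := by
      have : a - a₁ = (a - (i + lin (D.ρ b) c)) - j₁ := by rw [ha₁]; abel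
      rw [this]
      refine (norm_sub_le _ _).trans ?_
      linarith
    have n4 : ‖a₁‖ ≤ 1 + d := by
      have := norm_sub_norm_le a₁ a
      rw [norm_sub_rev] at this
      linarith
    refine ⟨(((1 + d)⁻¹ : ℝ) : ℂ) • a₁, (D.AS (!b)).smul_mem m2 _, ?_, ?_⟩
    · rw [norm_smul, Complex.norm_real, Real.norm_of_nonneg (by positivity),
        inv_mul_le_iff₀ (by positivity)]
      linarith
    · have e : a - (((1 + d)⁻¹ : ℝ) : ℂ) • a₁ = (a - a₁) + ((d / (1 + d) : ℝ) : ℂ) • a₁ := by
        have : (((1 + d)⁻¹ : ℝ) : ℂ) = 1 - ((d / (1 + d) : ℝ) : ℂ) := by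
          rw [← Complex.ofReal_one, ← Complex.ofReal_sub]; congr 1; field_simp; ring
        rw [this, sub_smul, one_smul]; abel
      rw [e]
      refine (norm_add_le _ _).trans_lt ?_
      rw [norm_smul, Complex.norm_real, Real.norm_of_nonneg (by positivity)]
      have n5 : d / (1 + d) * ‖a₁‖ ≤ d := by
        rw [div_mul_eq_mul_div, div_le_iff₀ (by positivity)]; gcongr
      have n6 : 2 * d = 4 * η + (ε - 4 * η) / 2 := by
        have : τ * (2 + 4 * η) = (ε - 4 * η) / 2 := by rw [hτ]; field_simp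
        rw [hd, ← this]; ring
      linarith
  · have key : ∀ b, (D.A b).centralizer = {i | D.I i}.centralizer := by
      intro b
      refine Set.Subset.antisymm (Set.centralizer_subset fun i hi => D.I_mem_A b hi) ?_
      intro T hT a ha
      have hcl : IsClosed {a : H →L[ℂ] H | a * T = T * a} := isClosed_eq (by fun_prop) (by fun_prop)
      refine closure_minimal ?_ hcl ha
      rintro _ ⟨i, c, hi, rfl⟩
      change _ * T = T * _
      rw [add_mul, mul_add, hT i hi]
      congr 1
      obtain ⟨Z, hZ, hz⟩ := D.tot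
      refine eq_zero_of_total hZ _ _ fun ζ hζ => ?_
      obtain ⟨e, he, he0, heζ⟩ := hz ζ hζ
      have hI : D.I e := ⟨he, he0⟩
      have h1 := hT _ (hI.lin_mul b c)
      have h2 := hT _ hI
      rw [← heζ]
      change (lin (D.ρ b) c * T * e) ζ = (T * lin (D.ρ b) c * e) ζ
      rw [mul_assoc, ← h2, ← mul_assoc, h1, mul_assoc]
    rw [key, key]

end Crest.Agent.H8.KK
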