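import Crest.Agent.H8.KK.ODefs

/-! Common lemmas for O3 and O4. -/

set_option autoImplicit false

noncomputable section

namespace Crest.Agent.H8.KK

open scoped InnerProductSpace
open Filter TopologicalSpace Topology

theorem exists_partner {X Y : Type*} [NormedAddCommGroup X] [NormedAddCommGroup Y]
    [CompleteSpace Y] (P : Set (X × Y))
    (hP : ∀ p ∈ P, ∀ p' ∈ P, ‖p.2 - p'.2‖ ≤ ‖p.1 - p'.1‖) {a : X}
    (ha : a ∈ closure (Prod.fst '' P)) : ∃ y, (a, y) ∈ closure P := by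
  obtain ⟨x, hx, hlim⟩ := mem_closure_iff_seq_limit.1 ha
  choose p hp hpx using hx
  have hc : CauchySeq fun n => (p n).2 := by
    have := hlim.cauchySeq
    rw [Metric.cauchySeq_iff] at this ⊢
    intro ε hε
    obtain ⟨N, hN⟩ := this ε hε
    refine ⟨N, fun m hm n hn => lt_of_le_of_lt ?_ (hN m hm n hn)⟩
    rw [dist_eq_norm, dist_eq_norm, ← hpx, ← hpx]
    exact hP _ (hp m) _ (hp n)
  obtain ⟨y, hy⟩ := cauchySeq_tendsto_of_complete hc
  refine ⟨y, mem_closure_of_tendsto (f := p) (b := atTop) ?_ (.of_forall hp)⟩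
  have : Tendsto (fun n => (p n).1) atTop (𝓝 a) := by simpa only [hpx] using hlim
  exact this.prodMk_nhds hy

variable {Γ : Type} [Group Γ]

theorem lin_of {K : Type} [NormedAddCommGroup K] [InnerProductSpace ℂ K] [CompleteSpace K]
    (ρ : Γ →* (K →L[ℂ] K)) (g : Γ) : lin ρ (MonoidAlgebra.of ℂ Γ g) = ρ g :=
  MonoidAlgebra.lift_of _ _

theorem exists_cstar (c : MonoidAlgebra ℂ Γ) : ∃ c' : MonoidAlgebra ℂ Γ,
    ∀ (K : Type) [NormedAddCommGroup K] [InnerProductSpace ℂ K] [CompleteSpace K]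
      (ρ : Γ →* (K →L[ℂ] K)), IsU ρ → lin ρ c' = star (lin ρ c) := by
  induction c using MonoidAlgebra.induction_on with
  | of g => exact ⟨MonoidAlgebra.of ℂ Γ g⁻¹, fun K _ _ _ ρ h => by rw [lin_of, lin_of, h]⟩
  | add x y hx hy =>
    obtain ⟨x', hx⟩ := hx
    obtain ⟨y', hy⟩ := hy
    exact ⟨x' + y', fun K _ _ _ ρ h => by rw [map_add, map_add, star_add, hx K ρ h, hy K ρ h]⟩
  | smul r x hx =>
    obtain ⟨x', hx⟩ := hx
    exact ⟨star r • x', fun K _ _ _ ρ h => by rw [map_smul, map_smul, star_smul, hx K ρ h]⟩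

theorem eq_zero_of_total {K K' : Type} [NormedAddCommGroup K] [InnerProductSpace ℂ K]
    [NormedAddCommGroup K'] [InnerProductSpace ℂ K'] {Z : Set K}
    (hZ : Dense (Submodule.span ℂ Z : Set K)) (S T : K →L[ℂ] K') (h : ∀ ζ ∈ Z, S ζ = T ζ) :
    S = T := ContinuousLinearMap.ext_on hZ h

namespace Core

variable [DecidableEq Γ] {H H' : Type} [NormedAddCommGroup H] [InnerProductSpace ℂ H]
  [CompleteSpace H] [NormedAddCommGroup H'] [InnerProductSpace ℂ H'] [CompleteSpace H'] {η : ℝ}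
  (D : Core Γ H H' η)

theorem gr_add {a a' : H →L[ℂ] H} {y y' : H' →L[ℂ] H'} (h : (a, y) ∈ D.Gr) (h' : (a', y') ∈ D.Gr) :
    (a + a', y + y') ∈ D.Gr := add_mem h h'

theorem gr_sub {a a' : H →L[ℂ] H} {y y' : H' →L[ℂ] H'} (h : (a, y) ∈ D.Gr) (h' : (a', y') ∈ D.Gr) :
    (a - a', y - y') ∈ D.Gr := sub_mem h h'

theorem gr_mul {a a' : H →L[ℂ] H} {y y' : H' →L[ℂ] H'} (h : (a, y) ∈ D.Gr) (h' : (a', y') ∈ D.Gr) :
    (a * a', y * y') ∈ D.Gr := mul_mem h h'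

theorem gr_star {a : H →L[ℂ] H} {y : H' →L[ℂ] H'} (h : (a, y) ∈ D.Gr) :
    (star a, star y) ∈ D.Gr := by
  rw [← Prod.star_def (a, y)]; exact star_mem h

theorem gr_smul (r : ℂ) {a : H →L[ℂ] H} {y : H' →L[ℂ] H'} (h : (a, y) ∈ D.Gr) :
    (r • a, r • y) ∈ D.Gr := D.Gr.smul_mem h r

theorem gr_norm {a : H →L[ℂ] H} {y : H' →L[ℂ] H'} (h : (a, y) ∈ D.Gr) : ‖y‖ ≤ ‖a‖ :=
  D.Gr_norm _ h

theorem gr_uniq {a : H →L[ℂ] H} {y y' : H' →L[ℂ] H'} (h : (a, y) ∈ D.Gr) (h' : (a, y') ∈ D.Gr) :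
    y = y' := by
  have := D.gr_norm (D.gr_sub h h')
  rwa [sub_self, norm_zero, norm_le_zero_iff, sub_eq_zero] at this

theorem lin_gr (b : Bool) (c : MonoidAlgebra ℂ Γ) : (lin (D.ρ b) c, lin (D.θ b) c) ∈ D.Gr := by
  induction c using MonoidAlgebra.induction_on with
  | of g => rw [lin_of, lin_of]; exact D.ρθ b g
  | add x y hx hy => rw [map_add, map_add]; exact D.gr_add hx hy
  | smul r x hx => rw [map_smul, map_smul]; exact D.gr_smul r hx

theorem lin_sub (c : MonoidAlgebra ℂ Γ) : lin (D.ρ true) c - lin (D.ρ false) c ∈ D.J := by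
  induction c using MonoidAlgebra.induction_on with
  | of g => rw [lin_of, lin_of]; exact D.ρ_sub g
  | add x y hx hy => rw [map_add, map_add, add_sub_add_comm]; exact add_mem hx hy
  | smul r x hx => rw [map_smul, map_smul, ← smul_sub]; exact D.J.smul_mem r hx

theorem lin_sub' (b b' : Bool) (c : MonoidAlgebra ℂ Γ) : lin (D.ρ b) c - lin (D.ρ b') c ∈ D.J := by
  rcases b with _ | _ <;> rcases b' with _ | _
  · rw [sub_self]; exact zero_mem _
  · rw [← neg_sub]; exact neg_mem (D.lin_sub c)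
  · exact D.lin_sub c
  · rw [sub_self]; exact zero_mem _

theorem lin_mul_J (b : Bool) (c : MonoidAlgebra ℂ Γ) {j : H →L[ℂ] H} (hj : j ∈ D.J) :
    lin (D.ρ b) c * j ∈ D.J := by
  have h0 : lin (D.ρ false) c * j ∈ D.J := by
    induction c using MonoidAlgebra.induction_on with
    | of g => rw [lin_of]; exact D.ρJ g j hj
    | add x y hx hy => rw [map_add, add_mul]; exact add_mem hx hy
    | smul r x hx => rw [map_smul, smul_mul_assoc]; exact D.J.smul_mem r hx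
  have := add_mem (mul_mem (D.lin_sub' b false c) hj) h0
  rwa [← add_mul, sub_add_cancel] at this

theorem J_mul_lin (b : Bool) (c : MonoidAlgebra ℂ Γ) {j : H →L[ℂ] H} (hj : j ∈ D.J) :
    j * lin (D.ρ b) c ∈ D.J := by
  obtain ⟨c', hc'⟩ := exists_cstar c
  have := star_mem (D.lin_mul_J b c' (star_mem hj))
  rwa [hc' H _ (D.ρ_star b), star_mul, star_star, star_star] at this

variable {D}

theorem I.zero : D.I 0 := ⟨zero_mem _, zero_mem _⟩

theorem I.add {i i' : H →L[ℂ] H} (h : D.I i) (h' : D.I i') : D.I (i + i') :=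
  ⟨add_mem h.1 h'.1, by simpa using D.gr_add h.2 h'.2⟩

theorem I.sub {i i' : H →L[ℂ] H} (h : D.I i) (h' : D.I i') : D.I (i - i') :=
  ⟨sub_mem h.1 h'.1, by simpa using D.gr_sub h.2 h'.2⟩

theorem I.smul (r : ℂ) {i : H →L[ℂ] H} (h : D.I i) : D.I (r • i) :=
  ⟨D.J.smul_mem r h.1, by simpa using D.gr_smul r h.2⟩

theorem I.star {i : H →L[ℂ] H} (h : D.I i) : D.I (star i) :=
  ⟨star_mem h.1, by simpa using D.gr_star h.2⟩

theorem I.J_mul {i j : H →L[ℂ] H} (h : D.I i) (hj : j ∈ D.J) : D.I (j * i) := by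
  obtain ⟨j', hj'⟩ := D.J_dom j hj
  exact ⟨mul_mem hj h.1, by simpa using D.gr_mul hj' h.2⟩

theorem I.mul {i i' : H →L[ℂ] H} (h : D.I i) (h' : D.I i') : D.I (i * i') := h'.J_mul h.1

theorem I.lin_mul {i : H →L[ℂ] H} (h : D.I i) (b : Bool) (c : MonoidAlgebra ℂ Γ) :
    D.I (lin (D.ρ b) c * i) :=
  ⟨D.lin_mul_J b c h.1, by simpa using D.gr_mul (D.lin_gr b c) h.2⟩

theorem I.mul_lin {i : H →L[ℂ] H} (h : D.I i) (b : Bool) (c : MonoidAlgebra ℂ Γ) :
    D.I (i * lin (D.ρ b) c) :=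
  ⟨D.J_mul_lin b c h.1, by simpa using D.gr_mul h.2 (D.lin_gr b c)⟩

theorem I.of_sub {j j' : H →L[ℂ] H} {y : H' →L[ℂ] H'} (hj : j ∈ D.J) (hj' : j' ∈ D.J)
    (h : (j, y) ∈ D.Gr) (h' : (j', y) ∈ D.Gr) : D.I (j - j') :=
  ⟨sub_mem hj hj', by simpa using D.gr_sub h h'⟩

variable (D)

/-- the dense subalgebra of `A b` -/
def A0 (b : Bool) : StarSubalgebra ℂ (H →L[ℂ] H) where
  carrier := {a | ∃ i c, D.I i ∧ a = i + lin (D.ρ b) c}
  mul_mem' := by
    rintro _ _ ⟨i, c, hi, rfl⟩ ⟨i', c', hi', rfl⟩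
    refine ⟨i * i' + i * lin (D.ρ b) c' + lin (D.ρ b) c * i', c * c',
      ((hi.mul hi').add (hi.mul_lin b c')).add (hi'.lin_mul b c), ?_⟩
    rw [map_mul]; noncomm_ring
  add_mem' := by
    rintro _ _ ⟨i, c, hi, rfl⟩ ⟨i', c', hi', rfl⟩
    exact ⟨i + i', c + c', hi.add hi', by rw [map_add]; abel⟩
  algebraMap_mem' r := ⟨0, algebraMap ℂ _ r, I.zero, by rw [AlgHom.commutes, zero_add]⟩
  star_mem' := by
    rintro _ ⟨i, c, hi, rfl⟩
    obtain ⟨c', hc'⟩ := exists_cstar c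
    exact ⟨star i, c', hi.star, by rw [star_add, hc' H _ (D.ρ_star b)]⟩

/-- `A b` as a star subalgebra -/
def AS (b : Bool) : StarSubalgebra ℂ (H →L[ℂ] H) := (D.A0 b).topologicalClosure

theorem AS_coe (b : Bool) : (D.AS b : Set (H →L[ℂ] H)) = D.A b := rfl

theorem mem_AS {b : Bool} {a : H →L[ℂ] H} : a ∈ D.AS b ↔ a ∈ D.A b := Iff.rfl

theorem mem_A (b : Bool) {i : H →L[ℂ] H} (hi : D.I i) (c : MonoidAlgebra ℂ Γ) :
    i + lin (D.ρ b) c ∈ D.A b := subset_closure ⟨i, c, hi, rfl⟩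

theorem I_mem_A (b : Bool) {i : H →L[ℂ] H} (hi : D.I i) : i ∈ D.A b := by
  simpa using D.mem_A b hi 0

theorem lin_mem_A (b : Bool) (c : MonoidAlgebra ℂ Γ) : lin (D.ρ b) c ∈ D.A b := by
  simpa using D.mem_A b I.zero c

theorem lift_sa {j : H →L[ℂ] H} {y : H' →L[ℂ] H'} (hj : j ∈ D.J) (h : (j, y) ∈ D.Gr)
    (sj : IsSelfAdjoint j) (sy : IsSelfAdjoint y) :
    ∃ j₁ ∈ D.J, (j₁, y) ∈ D.Gr ∧ ‖j₁‖ ≤ ‖y‖ := by
  set f : ℝ → ℝ := fun t => max (-‖y‖) (min ‖y‖ t) with hf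
  have hc : Continuous f := by fun_prop
  have hn := norm_nonneg y
  have f0 : f 0 = 0 := by simp [hf]
  have hJ := D.J_closed
  have hG := D.Gr_closed
  have h1 : cfcₙ f (j, y) ∈ D.Gr := cfcₙ_mem (𝕜' := ℂ) f h
  have sp : IsSelfAdjoint (j, y) := Prod.ext sj sy
  rw [cfcₙ_map_prod (S := ℝ) f j y hc.continuousOn sp sj sy] at h1
  have h2 : cfcₙ f y = y := by
    conv_rhs => rw [← cfcₙ_id' ℝ y sy]
    refine cfcₙ_congr fun t ht => ?_
    have := abs_le.1 (NonUnitalIsometricContinuousFunctionalCalculus.norm_quasispectrum_le y ht sy)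
    simp only [hf]
    rw [min_eq_right this.2, max_eq_right this.1]
  rw [h2] at h1
  refine ⟨cfcₙ f j, cfcₙ_mem (𝕜' := ℂ) f hj, h1, norm_cfcₙ_le fun t _ => ?_⟩
  rw [Real.norm_eq_abs, abs_le]
  exact ⟨le_max_left _ _, max_le (by linarith) (min_le_left _ _)⟩

theorem lift_J {j : H →L[ℂ] H} {y : H' →L[ℂ] H'} (hj : j ∈ D.J) (h : (j, y) ∈ D.Gr) :
    ∃ j₁ ∈ D.J, (j₁, y) ∈ D.Gr ∧ ‖j₁‖ ≤ 2 * ‖y‖ := by
  have s1 : ∀ {K : Type} [NormedAddCommGroup K] [InnerProductSpace ℂ K] [CompleteSpace K]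
      (x : K →L[ℂ] K), IsSelfAdjoint ((1 / 2 : ℂ) • (x + star x)) := fun x => by
    rw [IsSelfAdjoint, star_smul, star_add, star_star, add_comm]; congr 1; simp
  have s2 : ∀ {K : Type} [NormedAddCommGroup K] [InnerProductSpace ℂ K] [CompleteSpace K]
      (x : K →L[ℂ] K), IsSelfAdjoint ((-Complex.I / 2 : ℂ) • (x - star x)) := fun x => by
    rw [IsSelfAdjoint, star_smul, star_sub, star_star, ← neg_sub, smul_neg, ← neg_smul]; congr 1
    simp [neg_div]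
  have hj1 : j + star j ∈ D.J := add_mem hj (star_mem hj)
  have hj2 : j - star j ∈ D.J := sub_mem hj (star_mem hj)
  obtain ⟨j₁, m1, g1, n1⟩ := D.lift_sa (D.J.smul_mem _ hj1)
    (D.gr_smul (1 / 2) (D.gr_add h (D.gr_star h))) (s1 j) (s1 y)
  obtain ⟨j₂, m2, g2, n2⟩ := D.lift_sa (D.J.smul_mem _ hj2)
    (D.gr_smul (-Complex.I / 2) (D.gr_sub h (D.gr_star h))) (s2 j) (s2 y)
  have hdec : (1 / 2 : ℂ) • (y + star y) + Complex.I • (-Complex.I / 2 : ℂ) • (y - star y) = y := by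
    rw [smul_smul]
    have : Complex.I * (-Complex.I / 2) = 1 / 2 := by
      rw [← mul_div_assoc, mul_neg, Complex.I_mul_I, neg_neg]
    rw [this, ← smul_add]
    have : y + star y + (y - star y) = (2 : ℂ) • y := by rw [two_smul]; abel
    rw [this, smul_smul]; norm_num
  refine ⟨j₁ + Complex.I • j₂, add_mem m1 (D.J.smul_mem _ m2), ?_, ?_⟩
  · have := D.gr_add g1 (D.gr_smul Complex.I g2)
    rwa [hdec] at this
  · have a1 := norm_add_le y (star y)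
    have a2 := norm_sub_le y (star y)
    rw [norm_star] at a1 a2
    have e1 : ‖(1 / 2 : ℂ)‖ = 1 / 2 := by simp
    have e2 : ‖(-Complex.I / 2 : ℂ)‖ = 1 / 2 := by simp
    rw [norm_smul, e1] at n1
    rw [norm_smul, e2] at n2
    refine (norm_add_le _ _).trans ?_
    rw [norm_smul, Complex.norm_I]
    linarith

end Core

end Crest.Agent.H8.KK
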