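import Crest.Agent.H8.KK.O3A

set_option autoImplicit false

noncomputable section

namespace Crest.Agent.H8.KK

open scoped InnerProductSpace
open Filter TopologicalSpace Topology

namespace Core

variable {Γ : Type} [Group Γ] [DecidableEq Γ] {H H' : Type} [NormedAddCommGroup H]
  [InnerProductSpace ℂ H] [CompleteSpace H] [NormedAddCommGroup H'] [InnerProductSpace ℂ H']
  [CompleteSpace H'] {η : ℝ} (D : Core Γ H H' η)

/-- the closure of the range of `lin (θ b)` -/
def T (b : Bool) : Set (H' →L[ℂ] H') := closure (Set.range (lin (D.θ b)))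

theorem exists_q {b : Bool} {a : H →L[ℂ] H} (ha : a ∈ D.A b) : ∃ y ∈ D.T b, (a, y) ∈ D.Gr := by
  set P : Set ((H →L[ℂ] H) × (H' →L[ℂ] H')) :=
    {p | ∃ i c, D.I i ∧ p = (i + lin (D.ρ b) c, lin (D.θ b) c)} with hP
  have hG : P ⊆ D.Gr := by
    rintro _ ⟨i, c, hi, rfl⟩
    simpa using D.gr_add hi.2 (D.lin_gr b c)
  obtain ⟨y, hy⟩ := exists_partner P (fun p hp p' hp' => D.Gr_norm _ (sub_mem (hG hp) (hG hp')))
    (a := a) (closure_mono (by
      rintro _ ⟨i, c, hi, rfl⟩
      exact ⟨_, ⟨i, c, hi, rfl⟩, rfl⟩) ha)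
  refine ⟨y, ?_, closure_minimal hG D.Gr_closed hy⟩
  refine map_mem_closure (f := Prod.snd) continuous_snd hy ?_
  rintro _ ⟨i, c, -, rfl⟩
  exact ⟨c, rfl⟩

theorem I_of_A {b : Bool} {a : H →L[ℂ] H} (ha : a ∈ D.A b) (h : (a, 0) ∈ D.Gr) : D.I a := by
  refine ⟨?_, h⟩
  have : a ∈ closure (D.J : Set (H →L[ℂ] H)) := by
    rw [Metric.mem_closure_iff]
    intro ε hε
    obtain ⟨_, ⟨i, c, hi, rfl⟩, h0⟩ := Metric.mem_closure_iff.1 ha (ε / 2) (by positivity)
    rw [dist_eq_norm] at h0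
    have g0 := D.gr_norm (D.gr_sub h (D.gr_add hi.2 (D.lin_gr b c)))
    rw [zero_add, zero_sub, norm_neg] at g0
    have g1 := D.fell b c
    refine ⟨i + (lin (D.ρ b) c - lin (D.ρ false) c), add_mem hi.1 (D.lin_sub' b false c), ?_⟩
    rw [dist_eq_norm]
    have e : a - (i + (lin (D.ρ b) c - lin (D.ρ false) c)) =
        (a - (i + lin (D.ρ b) c)) + lin (D.ρ false) c := by abel
    rw [e]
    refine (norm_add_le _ _).trans_lt ?_
    linarith
  rwa [D.J_closed.closure_eq] at this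

/-- the graph of `q` on the algebra generated by `ρ false` -/
def P0 : StarSubalgebra ℂ ((H →L[ℂ] H) × (H' →L[ℂ] H')) where
  carrier := {p | ∃ c, p = (lin (D.ρ false) c, lin (D.θ false) c)}
  mul_mem' := by
    rintro _ _ ⟨c, rfl⟩ ⟨c', rfl⟩
    exact ⟨c * c', by rw [map_mul, map_mul, Prod.mk_mul_mk]⟩
  add_mem' := by
    rintro _ _ ⟨c, rfl⟩ ⟨c', rfl⟩
    exact ⟨c + c', by rw [map_add, map_add, Prod.mk_add_mk]⟩
  algebraMap_mem' r := ⟨algebraMap ℂ _ r, by
    rw [AlgHom.commutes, AlgHom.commutes, Prod.algebraMap_apply]⟩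
  star_mem' := by
    rintro _ ⟨c, rfl⟩
    obtain ⟨c', hc'⟩ := exists_cstar c
    exact ⟨c', by rw [hc' H _ (D.ρ_star false), hc' H' _ (D.θ_star false), Prod.star_def]⟩

/-- its closure -/
def G0 : StarSubalgebra ℂ ((H →L[ℂ] H) × (H' →L[ℂ] H')) := D.P0.topologicalClosure

theorem mem_G0 {p : (H →L[ℂ] H) × (H' →L[ℂ] H')} : p ∈ D.G0 ↔
    p ∈ closure {p : (H →L[ℂ] H) × (H' →L[ℂ] H') |
      ∃ c, p = (lin (D.ρ false) c, lin (D.θ false) c)} := Iff.rfl

theorem G0_gr {p : (H →L[ℂ] H) × (H' →L[ℂ] H')} (h : p ∈ D.G0) : p ∈ D.Gr := by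
  rw [mem_G0] at h
  refine closure_minimal (t := (D.Gr : Set ((H →L[ℂ] H) × (H' →L[ℂ] H')))) ?_ D.Gr_closed h
  rintro _ ⟨c, rfl⟩; exact D.lin_gr false c

theorem G0_norm {p : (H →L[ℂ] H) × (H' →L[ℂ] H')} (h : p ∈ D.G0) : ‖p.1‖ ≤ ‖p.2‖ := by
  rw [mem_G0] at h
  refine closure_minimal (t := {p : (H →L[ℂ] H) × (H' →L[ℂ] H') | ‖p.1‖ ≤ ‖p.2‖}) ?_
    (isClosed_le (by fun_prop) (by fun_prop)) h
  rintro _ ⟨c, rfl⟩; exact D.fell false c

theorem G0_A {p : (H →L[ℂ] H) × (H' →L[ℂ] H')} (h : p ∈ D.G0) : p.1 ∈ D.A false := by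
  rw [mem_G0] at h
  refine map_mem_closure (f := Prod.fst) continuous_fst h ?_
  rintro _ ⟨c, rfl⟩
  exact ⟨0, c, I.zero, (zero_add _).symm⟩

theorem G0_uniq {y y' : H →L[ℂ] H} {z : H' →L[ℂ] H'} (h : (y, z) ∈ D.G0) (h' : (y', z) ∈ D.G0) :
    y = y' := by
  have := D.G0_norm (sub_mem h h')
  simp only [Prod.fst_sub, Prod.snd_sub, sub_self, norm_zero, norm_le_zero_iff] at this
  exact sub_eq_zero.1 this

theorem exists_G0 {z : H' →L[ℂ] H'} (hz : z ∈ D.T false) : ∃ y, (y, z) ∈ D.G0 := by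
  obtain ⟨y, hy⟩ := exists_partner {p : (H' →L[ℂ] H') × (H →L[ℂ] H) |
      ∃ c, p = (lin (D.θ false) c, lin (D.ρ false) c)} (by
    rintro _ ⟨c, rfl⟩ _ ⟨c', rfl⟩
    simp only [← map_sub]
    exact D.fell false _) (a := z) (closure_mono (by
      rintro _ ⟨c, rfl⟩
      exact ⟨_, ⟨c, rfl⟩, rfl⟩) hz)
  refine ⟨y, D.mem_G0.2 (map_mem_closure (f := Prod.swap) continuous_swap hy ?_)⟩
  rintro _ ⟨c, rfl⟩
  exact ⟨c, rfl⟩

theorem trace_lin (b : Bool) (c c' : MonoidAlgebra ℂ Γ) :
    ⟪D.ω, (lin (D.θ b) c * lin (D.θ b) c') D.ω⟫_ℂ = ⟪D.ω, (lin (D.θ b) c' * lin (D.θ b) c) D.ω⟫_ℂ := by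
  induction c using MonoidAlgebra.induction_on with
  | of g =>
    induction c' using MonoidAlgebra.induction_on with
    | of h =>
      rw [lin_of, lin_of, ← map_mul, ← map_mul, D.ω_tr, D.ω_tr]
      simp only [mul_eq_one_comm (a := g)]
    | add x y hx hy =>
      simp only [map_add, mul_add, add_mul, ContinuousLinearMap.add_apply, inner_add_right, hx, hy]
    | smul r x hx =>
      simp only [map_smul, mul_smul_comm, smul_mul_assoc, ContinuousLinearMap.smul_apply,
        inner_smul_right, hx]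
  | add x y hx hy =>
    simp only [map_add, mul_add, add_mul, ContinuousLinearMap.add_apply, inner_add_right, hx, hy]
  | smul r x hx =>
    simp only [map_smul, mul_smul_comm, smul_mul_assoc, ContinuousLinearMap.smul_apply,
      inner_smul_right, hx]

theorem trace_T {b : Bool} {y z : H' →L[ℂ] H'} (hy : y ∈ D.T b) (hz : z ∈ D.T b) :
    ⟪D.ω, (y * z) D.ω⟫_ℂ = ⟪D.ω, (z * y) D.ω⟫_ℂ := by
  have h1 : ∀ c, ⟪D.ω, (lin (D.θ b) c * z) D.ω⟫_ℂ = ⟪D.ω, (z * lin (D.θ b) c) D.ω⟫_ℂ := by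
    intro c
    refine closure_minimal (t := {z : H' →L[ℂ] H' |
      ⟪D.ω, (lin (D.θ b) c * z) D.ω⟫_ℂ = ⟪D.ω, (z * lin (D.θ b) c) D.ω⟫_ℂ}) ?_
      (isClosed_eq (by fun_prop) (by fun_prop)) hz
    rintro _ ⟨c', rfl⟩
    exact D.trace_lin b c c'
  refine closure_minimal (t := {y : H' →L[ℂ] H' | ⟪D.ω, (y * z) D.ω⟫_ℂ = ⟪D.ω, (z * y) D.ω⟫_ℂ}) ?_
    (isClosed_eq (by fun_prop) (by fun_prop)) hy
  rintro _ ⟨c, rfl⟩
  exact h1 c

theorem faith_T {b : Bool} {y : H' →L[ℂ] H'} (hy : y ∈ D.T b) (h : y D.ω = 0) : y = 0 := by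
  obtain ⟨Z, hZ, hz⟩ := D.faith
  refine eq_zero_of_total hZ _ _ fun ζ hζ => ?_
  have : ‖y ζ‖ ≤ ‖ζ‖ * ‖y D.ω‖ := by
    refine closure_minimal (t := {y : H' →L[ℂ] H' | ‖y ζ‖ ≤ ‖ζ‖ * ‖y D.ω‖}) ?_
      (isClosed_le (by fun_prop) (by fun_prop)) hy
    rintro _ ⟨c, rfl⟩
    exact hz ζ hζ b c
  rw [h, norm_zero, mul_zero, norm_le_zero_iff] at this
  rw [this]; rfl

theorem norm_E (x y : Γ) : ‖D.E x y‖ ≤ 1 := by
  have h1 : ∀ x, ‖D.E x x‖ ≤ 1 := fun x =>
    IsStarProjection.norm_le _ ⟨by rw [IsIdempotentElem, D.E_mul, if_pos rfl], D.E_star x x⟩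
  have h2 := CStarRing.norm_star_mul_self (x := D.E x y)
  rw [D.E_star, D.E_mul, if_pos rfl] at h2
  have := h1 y
  nlinarith [norm_nonneg (D.E x y)]

theorem gr_sum {ι : Type*} (s : Finset ι) {a : ι → H →L[ℂ] H} {y : ι → H' →L[ℂ] H'}
    (h : ∀ i ∈ s, (a i, y i) ∈ D.Gr) : (∑ i ∈ s, a i, ∑ i ∈ s, y i) ∈ D.Gr := by
  rw [prod_mk_sum]; exact sum_mem h

theorem conj_I [Infinite Γ] {b : Bool} {u : H →L[ℂ] H} (hu : u ∈ unitary (H →L[ℂ] H))
    (h : ∀ i, D.I i → u * i * star u ∈ D.A b) {k : H →L[ℂ] H} (hk : D.I k) :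
    D.I (u * k * star u) := by
  have key : ∀ i, ∃ y, D.I i → y ∈ D.T b ∧ (u * i * star u, y) ∈ D.Gr := by
    intro i
    by_cases hi : D.I i
    · obtain ⟨y, h1, h2⟩ := D.exists_q (h i hi)
      exact ⟨y, fun _ => ⟨h1, h2⟩⟩
    · exact ⟨0, fun h => absurd h hi⟩
  choose Q hQ using key
  have nu : ∀ a : H →L[ℂ] H, ‖u * a * star u‖ = ‖a‖ := fun a => by
    rw [CStarRing.norm_mul_mem_unitary _ (Unitary.star_mem hu), CStarRing.norm_mem_unitary_mul _ hu]
  have hmul : ∀ a a' : H →L[ℂ] H, u * a * star u * (u * a' * star u) = u * (a * a') * star u := by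
    intro a a'
    calc _ = u * a * (star u * u) * a' * star u := by simp only [mul_assoc]
      _ = _ := by rw [hu.1, mul_one]; simp only [mul_assoc]
  have hstar : ∀ a : H →L[ℂ] H, star (u * a * star u) = u * star a * star u := fun a => by
    rw [star_mul, star_mul, star_star, mul_assoc]
  have Qstar : ∀ i, D.I i → star (Q i) ∈ D.T b := fun i hi => by
    have := D.gr_star (hQ i hi).2
    rw [hstar] at this
    rw [D.gr_uniq this (hQ _ hi.star).2]; exact (hQ _ hi.star).1
  have gss : ∀ i, D.I i → (u * (star i * i) * star u, star (Q i) * Q i) ∈ D.Gr := fun i hi => by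
    have := D.gr_mul (D.gr_star (hQ i hi).2) (hQ i hi).2
    rwa [hstar, hmul] at this
  have gss' : ∀ i, D.I i → (u * (i * star i) * star u, Q i * star (Q i)) ∈ D.Gr := fun i hi => by
    have := D.gr_mul (hQ i hi).2 (D.gr_star (hQ i hi).2)
    rwa [hstar, hmul] at this
  have step : ∀ x, Q (D.E x x * k) D.ω = 0 := by
    intro x
    have hm : ∀ y, D.I (D.E y x * k) := fun y => hk.J_mul (D.E_mem y x)
    have e1 : ∀ y, star (D.E y x * k) * (D.E y x * k) = star k * D.E x x * k := fun y => by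
      rw [star_mul, D.E_star, mul_assoc, ← mul_assoc (D.E x y), D.E_mul, if_pos rfl, mul_assoc]
    set t : ℝ := ‖Q (D.E x x * k) D.ω‖ ^ 2 with ht
    have e2 : ∀ y, ⟪D.ω, (Q (D.E y x * k) * star (Q (D.E y x * k))) D.ω⟫_ℂ = (t : ℂ) := by
      intro y
      have g1 := gss _ (hm y)
      have g2 := gss _ (hm x)
      rw [e1] at g1 g2
      rw [D.trace_T (hQ _ (hm y)).1 (Qstar _ (hm y)), D.gr_uniq g1 g2,
        ContinuousLinearMap.mul_apply, ContinuousLinearMap.star_eq_adjoint,
        ContinuousLinearMap.adjoint_inner_right, inner_self_eq_norm_sq_to_K, ht]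
      push_cast; rfl
    have e3 : ∀ F : Finset Γ, F.card * t ^ 2 ≤ ‖k * star k‖ ^ 2 := by
      intro F
      set W := ∑ y ∈ F, D.E y x * k * star (D.E y x * k) with hW
      have g := D.gr_sum F fun y _ => gss' _ (hm y)
      rw [← Finset.sum_mul, ← Finset.mul_sum, ← hW] at g
      have n1 := D.gr_norm g
      rw [nu] at n1
      have n2 : F.card * t ≤ ‖W‖ := by
        have := norm_inner_le_norm (𝕜 := ℂ) D.ω
          ((∑ y ∈ F, Q (D.E y x * k) * star (Q (D.E y x * k))) D.ω)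
        rw [ContinuousLinearMap.sum_apply, inner_sum] at this
        simp only [e2, Finset.sum_const, nsmul_eq_mul, norm_mul, Complex.norm_natCast,
          Complex.norm_real] at this
        rw [Real.norm_of_nonneg (by positivity), D.ω_norm, one_mul,
          ← ContinuousLinearMap.sum_apply] at this
        refine this.trans ((ContinuousLinearMap.le_opNorm _ _).trans ?_)
        rw [D.ω_norm, mul_one]; exact n1
      have w1 : ∀ y, D.E y x * k * star (D.E y x * k) = D.E y x * (k * star k) * D.E x y :=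
        fun y => by rw [star_mul, D.E_star]; simp only [mul_assoc]
      have n3 : ‖W‖ ^ 2 ≤ F.card * ‖k * star k‖ ^ 2 := by
        have hs : star W = W := by
          rw [hW, star_sum]
          exact Finset.sum_congr rfl fun y _ => by rw [star_mul, star_star]
        have e : W * W = ∑ y ∈ F, D.E y x * (k * star k) * D.E x x * (k * star k) * D.E x y := by
          rw [hW, Finset.sum_mul]
          refine Finset.sum_congr rfl fun y hy => ?_
          rw [Finset.mul_sum, Finset.sum_eq_single y]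
          · rw [w1]
            calc _ = D.E y x * (k * star k) * (D.E x y * D.E y x) * (k * star k) * D.E x y := by
                  simp only [mul_assoc]
              _ = _ := by rw [D.E_mul, if_pos rfl]
          · intro y' _ hne
            rw [w1, w1]
            calc _ = D.E y x * (k * star k) * (D.E x y * D.E y' x) * (k * star k) * D.E x y' := by
                  simp only [mul_assoc]
              _ = _ := by rw [D.E_mul, if_neg hne.symm]; simp
          · intro hy'; exact absurd hy hy'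
        have := CStarRing.norm_star_mul_self (x := W)
        rw [hs, e] at this
        rw [sq, ← this]
        refine (norm_sum_le _ _).trans ?_
        rw [← nsmul_eq_mul, ← Finset.sum_const]
        refine Finset.sum_le_sum fun y _ => ?_
        calc _ ≤ ‖D.E y x‖ * ‖k * star k‖ * ‖D.E x x‖ * ‖k * star k‖ * ‖D.E x y‖ := by
              refine (norm_mul_le _ _).trans ?_
              gcongr
              refine (norm_mul_le _ _).trans ?_
              gcongr
              refine (norm_mul_le _ _).trans ?_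
              gcongr
              exact norm_mul_le _ _
          _ ≤ 1 * ‖k * star k‖ * 1 * ‖k * star k‖ * 1 := by gcongr <;> exact D.norm_E _ _
          _ = _ := by ring
      rcases F.eq_empty_or_nonempty with rfl | hF
      · simp
      · have hc : (0 : ℝ) < F.card := by exact_mod_cast hF.card_pos
        have n4 : (F.card * t) ^ 2 ≤ ‖W‖ ^ 2 := by gcongr
        refine le_of_mul_le_mul_left ?_ hc
        nlinarith
    by_contra hne
    have ht0 : 0 < t ^ 2 := by have := norm_pos_iff.2 hne; positivity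
    obtain ⟨n, hn⟩ := exists_nat_gt (‖k * star k‖ ^ 2 / t ^ 2)
    obtain ⟨F, hF⟩ := Infinite.exists_subset_card_eq Γ n
    have := e3 F
    rw [hF] at this
    rw [div_lt_iff₀ ht0] at hn
    linarith
  have fin : Q k D.ω = 0 := by
    refine norm_le_zero_iff.1 (le_of_forall_pos_le_add fun ε hε => ?_)
    obtain ⟨F, hF⟩ := D.E_lim k hk.1 ε hε
    have g := D.gr_sub (hQ k hk).2 (D.gr_sum F fun x _ => (hQ _ (hk.J_mul (D.E_mem x x))).2)
    rw [← Finset.sum_mul, ← Finset.mul_sum, ← Finset.sum_mul, ← sub_mul, ← mul_sub] at g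
    have n1 := D.gr_norm g
    rw [nu] at n1
    have n2 := (Q k - ∑ x ∈ F, Q (D.E x x * k)).le_opNorm D.ω
    simp only [ContinuousLinearMap.sub_apply, ContinuousLinearMap.sum_apply, step,
      Finset.sum_const_zero, sub_zero, D.ω_norm, mul_one] at n2
    linarith
  have g := (hQ k hk).2
  rw [D.faith_T (hQ k hk).1 fin] at g
  exact D.I_of_A (h k hk) g

end Core

theorem o4 : O4 := by
  intro Γ H H' _ _ _ _ _ _ _ _ _ η D u hu hA
  have hu' := Unitary.star_mem hu
  have back : ∀ y ∈ D.A true, star u * y * u ∈ D.A false := by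
    intro y hy
    obtain ⟨x, hx, rfl⟩ := (hA y).1 hy
    have : star u * (u * x * star u) * u = x := by
      calc _ = (star u * u) * x * (star u * u) := by simp only [mul_assoc]
        _ = x := by rw [hu.1, one_mul, mul_one]
    rwa [this]
  have c1 : ∀ k, D.I k → D.I (u * k * star u) := fun k hk =>
    D.conj_I (b := true) hu (fun i hi => (hA _).2 ⟨i, D.I_mem_A false hi, rfl⟩) hk
  have c2 : ∀ k, D.I k → D.I (star u * k * u) := fun k hk => by
    have := D.conj_I (b := false) hu'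
      (fun i hi => by rw [star_star]; exact back _ (D.I_mem_A true hi)) hk
    rwa [star_star] at this
  have key : ∀ g, ∃ y z, (y, z) ∈ D.G0 ∧ (star u * D.ρ true g * u, z) ∈ D.Gr := by
    intro g
    have := D.lin_mem_A true (MonoidAlgebra.of ℂ Γ g)
    rw [lin_of] at this
    obtain ⟨z, hz, h⟩ := D.exists_q (back _ this)
    obtain ⟨y, hy⟩ := D.exists_G0 hz
    exact ⟨y, z, hy, h⟩
  choose y z hy hz using key
  have hmul : ∀ a a' : H →L[ℂ] H, star u * a * u * (star u * a' * u) = star u * (a * a') * u := by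
    intro a a'
    calc _ = star u * a * (u * star u) * a' * u := by simp only [mul_assoc]
      _ = _ := by rw [hu.2, mul_one]; simp only [mul_assoc]
  have y1 : y 1 = 1 := by
    have h1 := hz 1
    rw [map_one, mul_one, hu.1] at h1
    have h2 := hy 1
    rw [D.gr_uniq h1 (one_mem D.Gr)] at h2
    exact D.G0_uniq h2 (one_mem D.G0)
  have ym : ∀ g h, y (g * h) = y g * y h := by
    intro g h
    have h1 := D.gr_mul (hz g) (hz h)
    rw [hmul, ← map_mul] at h1
    have h2 := hy (g * h)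
    rw [D.gr_uniq (hz _) h1] at h2
    have h3 := mul_mem (hy g) (hy h)
    rw [Prod.mk_mul_mk] at h3
    exact D.G0_uniq h2 h3
  have ys : ∀ g, star (y g) = y g⁻¹ := by
    intro g
    have h1 := D.gr_star (hz g)
    rw [star_mul, star_mul, star_star, D.ρ_star, ← mul_assoc] at h1
    have h2 := hy g⁻¹
    rw [D.gr_uniq (hz _) h1] at h2
    have h3 := star_mem (hy g)
    rw [Prod.star_def] at h3
    exact D.G0_uniq h3 h2
  let ν : Γ →* (H →L[ℂ] H) :=
    { toFun := fun g => u * y g * star u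
      map_one' := by rw [y1, mul_one, hu.2]
      map_mul' := fun g h => by
        rw [ym]
        calc _ = u * y g * (star u * u) * y h * star u := by
              rw [hu.1, mul_one]; simp only [mul_assoc]
          _ = _ := by simp only [mul_assoc] }
  have hν : ∀ g, ν g = u * y g * star u := fun g => rfl
  refine ⟨ν, 1 + 2 * |η|, by positivity, fun g => ?_, fun c => ?_, fun g => ?_⟩
  · rw [hν, hν, star_mul, star_mul, star_star, ys, mul_assoc]
  · have h1 : ∃ Y Z, lin ν c = u * Y * star u ∧ (Y, Z) ∈ D.G0 ∧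
        (star u * lin (D.ρ true) c * u, Z) ∈ D.Gr := by
      induction c using MonoidAlgebra.induction_on with
      | of g => exact ⟨y g, z g, by rw [lin_of, hν], hy g, by rw [lin_of]; exact hz g⟩
      | add c c' hc hc' =>
        obtain ⟨Y, Z, a1, a2, a3⟩ := hc
        obtain ⟨Y', Z', b1, b2, b3⟩ := hc'
        refine ⟨Y + Y', Z + Z', by rw [map_add, a1, b1, mul_add, add_mul], ?_, ?_⟩
        · rw [← Prod.mk_add_mk]; exact add_mem a2 b2
        · rw [map_add, mul_add, add_mul]; exact D.gr_add a3 b3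
      | smul r c hc =>
        obtain ⟨Y, Z, a1, a2, a3⟩ := hc
        refine ⟨r • Y, r • Z, by rw [map_smul, a1, mul_smul_comm, smul_mul_assoc], ?_, ?_⟩
        · rw [← Prod.smul_mk]; exact D.G0.smul_mem a2 r
        · rw [map_smul, mul_smul_comm, smul_mul_assoc]; exact D.gr_smul r a3
    obtain ⟨Y, Z, a1, a2, a3⟩ := h1
    have g1 := D.gr_sub (D.lin_gr true c) (D.lin_gr false c)
    obtain ⟨j₁, m1, g2, n1⟩ := D.lift_J (D.lin_sub c) g1
    have g3 := D.gr_add a3 (c2 _ (Core.I.of_sub m1 (D.lin_sub c) g2 g1)).2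
    rw [add_zero, ← add_mul, ← mul_add] at g3
    have n2 := D.gr_norm g3
    rw [CStarRing.norm_mul_mem_unitary _ hu, CStarRing.norm_mem_unitary_mul _ hu'] at n2
    have e : lin (D.ρ true) c + (j₁ - (lin (D.ρ true) c - lin (D.ρ false) c)) =
        lin (D.ρ false) c + j₁ := by abel
    rw [e] at n2
    rw [a1, CStarRing.norm_mul_mem_unitary _ hu', CStarRing.norm_mem_unitary_mul _ hu]
    have n3 : ‖Y‖ ≤ ‖Z‖ := D.G0_norm a2
    have n4 := norm_add_le (lin (D.ρ false) c) j₁
    have n5 := D.fell true c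
    have n6 := D.close true c
    have n7 : η * ‖lin (D.θ true) c‖ ≤ |η| * ‖lin (D.θ true) c‖ := by gcongr; exact le_abs_self η
    linarith
  · have m1 := D.lin_mem_A true (MonoidAlgebra.of ℂ Γ g)
    rw [lin_of] at m1
    have m2 : y g - star u * D.ρ true g * u ∈ D.AS false :=
      sub_mem (D.mem_AS.2 (D.G0_A (hy g))) (D.mem_AS.2 (back _ m1))
    have g1 := D.gr_sub (D.G0_gr (hy g)) (hz g)
    rw [sub_self] at g1
    have := c1 _ (D.I_of_A (D.mem_AS.1 m2) g1)
    convert this using 1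
    rw [hν, mul_sub, sub_mul]
    congr 1
    calc D.ρ true g = (u * star u) * D.ρ true g * (u * star u) := by rw [hu.2, one_mul, mul_one]
      _ = _ := by simp only [mul_assoc]

end Crest.Agent.H8.KK
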