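import Crest.Agent.H8.KK.ODefs

/-! Fell absorption. -/

set_option autoImplicit false

noncomputable section

namespace Crest.Agent.H8.KK

open scoped InnerProductSpace

variable {Γ : Type} [Group Γ] {X : Type}
variable {K : Type} [NormedAddCommGroup K] [InnerProductSpace ℂ K] [CompleteSpace K]
variable {K' : Type} [NormedAddCommGroup K'] [InnerProductSpace ℂ K'] [CompleteSpace K']

theorem lin_intertwine (ρ : Γ →* (K →L[ℂ] K)) (ρ' : Γ →* (K' →L[ℂ] K')) (W : K →L[ℂ] K')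
    (h : ∀ g ξ, ρ' g (W ξ) = W (ρ g ξ)) (c : MonoidAlgebra ℂ Γ) (ξ : K) :
    lin ρ' c (W ξ) = W (lin ρ c ξ) := by
  induction c using MonoidAlgebra.induction_linear with
  | zero => simp
  | add a b ha hb => simp [ha, hb]
  | single g z => simp [h]

theorem norm_lin_equiv (ρ : Γ →* (K →L[ℂ] K)) (ρ' : Γ →* (K' →L[ℂ] K')) (W : K ≃ₗᵢ[ℂ] K')
    (h : ∀ g ξ, ρ' g (W ξ) = W (ρ g ξ)) (c : MonoidAlgebra ℂ Γ) : ‖lin ρ' c‖ = ‖lin ρ c‖ := by
  have key := lin_intertwine ρ ρ' W.toContinuousLinearEquiv.toContinuousLinearMap h c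
  apply le_antisymm
  · refine ContinuousLinearMap.opNorm_le_bound _ (norm_nonneg _) fun ζ => ?_
    obtain ⟨ξ, rfl⟩ := W.surjective ζ
    have := key ξ
    simp only [ContinuousLinearEquiv.coe_coe, LinearIsometryEquiv.coe_toContinuousLinearEquiv] at this
    rw [this, W.norm_map, W.norm_map]
    exact ContinuousLinearMap.le_opNorm _ _
  · refine ContinuousLinearMap.opNorm_le_bound _ (norm_nonneg _) fun ξ => ?_
    have := key ξ
    simp only [ContinuousLinearEquiv.coe_coe, LinearIsometryEquiv.coe_toContinuousLinearEquiv] at this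
    rw [← W.norm_map, ← this, ← W.norm_map ξ]
    exact ContinuousLinearMap.le_opNorm _ _

theorem lin_map {B : Type} [NormedAddCommGroup B] [InnerProductSpace ℂ B] [CompleteSpace B]
    (ρ : Γ →* (K →L[ℂ] K)) (f : (K →L[ℂ] K) →ₐ[ℂ] (B →L[ℂ] B)) (c : MonoidAlgebra ℂ Γ) :
    lin ((f : (K →L[ℂ] K) →* (B →L[ℂ] B)).comp ρ) c = f (lin ρ c) := by
  induction c using MonoidAlgebra.induction_linear with
  | zero => simp
  | add a b ha hb => rw [map_add, map_add, map_add, ha, hb]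
  | single g z => simp

theorem norm_lin_tr_lam (a : Γ →* Equiv.Perm X) (c : MonoidAlgebra ℂ Γ) :
    ‖lin (tr (lam Γ) a) c‖ = ‖dg X (L2 Γ ℂ) (lin (lam Γ) c)‖ := by
  let e : X × Γ ≃ X × Γ :=
    { toFun := fun p => (a p.2⁻¹ p.1, p.2)
      invFun := fun p => (a p.2 p.1, p.2)
      left_inv := fun p => by simp
      right_inv := fun p => by simp }
  obtain ⟨W, hW⟩ := exists_perm₂ (K := ℂ) e
  have := lin_map (lam Γ) (dg X (L2 Γ ℂ)).toAlgHom c
  rw [← show _ = dg X (L2 Γ ℂ) (lin (lam Γ) c) from this]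
  refine norm_lin_equiv _ _ W (fun g ξ => ?_) c
  ext x h
  rw [tr_apply, prm_apply, hW, hW]
  simp [e]

theorem IsU.mem {π : Γ →* (K →L[ℂ] K)} (h : IsU π) (g : Γ) : π g ∈ unitary (K →L[ℂ] K) :=
  ⟨by rw [h, ← map_mul, inv_mul_cancel, map_one], by rw [h, ← map_mul, mul_inv_cancel, map_one]⟩

theorem IsU.norm_le {π : Γ →* (K →L[ℂ] K)} (h : IsU π) (g : Γ) : ‖π g‖ ≤ 1 := by
  rcases subsingleton_or_nontrivial (K →L[ℂ] K) with hs | hs
  · rw [Subsingleton.elim (π g) 0]; simp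
  · exact (CStarRing.norm_of_mem_unitary (h.mem g)).le

theorem isU_prm (a : Γ →* Equiv.Perm X) : IsU (prm K a) := fun g => by
  change star (pull K _) = pull K _
  rw [star_pull, ← Equiv.toPEquiv_symm, inv_inv, map_inv]
  rfl

theorem isU_tr {π : Γ →* (K →L[ℂ] K)} (h : IsU π) (a : Γ →* Equiv.Perm X) : IsU (tr π a) :=
  fun g => by
    change star (dg X K _ * prm K a g) = dg X K _ * prm K a g⁻¹
    rw [star_mul, isU_prm, ← map_star, h]
    exact commute_pull_dg _ _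

theorem o5a : O5a := by
  intro Γ _ c
  refine ⟨fun X a => (norm_lin_tr_lam a c).le.trans (norm_dg_le _), fun π κ hπ hκ => ?_⟩
  have hl : IsU (lam Γ) := isU_prm _
  have hκ0 : 0 ≤ κ := (norm_nonneg _).trans (hκ 1)
  have b1 : ∀ x, ‖π x * lam Γ x⁻¹‖ ≤ 1 := fun x => (norm_mul_le _ _).trans
    (mul_le_one₀ (hπ.norm_le _) (norm_nonneg _) (hl.norm_le _))
  have b2 : ∀ x, ‖lam Γ x * π x⁻¹‖ ≤ 1 := fun x => (norm_mul_le _ _).trans
    (mul_le_one₀ (hl.norm_le _) (norm_nonneg _) (hπ.norm_le _))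
  have b3 : ∀ x, ‖π x * lam Γ x⁻¹ - 1‖ ≤ κ := fun x => by
    have : π x * lam Γ x⁻¹ - 1 = (π x - lam Γ x) * lam Γ x⁻¹ := by
      rw [sub_mul, ← map_mul (lam Γ), mul_inv_cancel, map_one]
    rw [this]
    exact (norm_mul_le _ _).trans ((mul_le_of_le_one_right (norm_nonneg _) (hl.norm_le _)).trans
      (hκ x))
  let W := dgf (fun x => π x * lam Γ x⁻¹) zero_le_one b1
  have hs : star W = dgf (fun x => lam Γ x * π x⁻¹) zero_le_one b2 :=
    star_dgf _ _ _ _ _ _ fun x => by rw [star_mul, hl, hπ, inv_inv]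
  have hW : W ∈ unitary _ := by
    constructor <;> rw [hs] <;> ext1 ξ <;> ext1 <;> funext x
    · change (lam Γ x * π x⁻¹ * (π x * lam Γ x⁻¹)) (ξ x) = ξ x
      rw [mul_assoc, ← mul_assoc (π x⁻¹), ← map_mul, inv_mul_cancel, map_one, one_mul, ← map_mul,
        mul_inv_cancel, map_one]; rfl
    · change (π x * lam Γ x⁻¹ * (lam Γ x * π x⁻¹)) (ξ x) = ξ x
      rw [mul_assoc, ← mul_assoc (lam Γ x⁻¹), ← map_mul, inv_mul_cancel, map_one, one_mul,
        ← map_mul, mul_inv_cancel, map_one]; rfl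
  have hW1 : ‖W - 1‖ ≤ κ := by
    have : W - 1 = dgf (fun x => π x * lam Γ x⁻¹ - 1) hκ0 b3 := by ext1 ξ; ext1; rfl
    rw [this]; exact norm_dgf_le _ _ _
  have hint : lin (tr π (reg Γ)) c * W = W * lin (tr (lam Γ) (reg Γ)) c :=
    ContinuousLinearMap.ext <| lin_intertwine _ _ W (fun g ξ => by
      ext1; funext x
      change (π g * (π (g⁻¹ * x) * lam Γ (g⁻¹ * x)⁻¹)) (ξ (g⁻¹ * x)) =
        (π x * lam Γ x⁻¹ * lam Γ g) (ξ (g⁻¹ * x))
      rw [← mul_assoc, ← map_mul, mul_inv_cancel_left, mul_assoc, ← map_mul, mul_inv_rev,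
        inv_inv]) c
  have hn : ‖lin (tr (lam Γ) (reg Γ)) c‖ = ‖lin (lam Γ) c‖ := by rw [norm_lin_tr_lam, norm_dg]
  have h1 : ‖lin (tr π (reg Γ)) c‖ = ‖lin (lam Γ) c‖ := by
    rw [← CStarRing.norm_mul_mem_unitary _ hW, hint, CStarRing.norm_mem_unitary_mul _ hW, hn]
  refine ⟨h1, ?_⟩
  have : lin (tr π (reg Γ)) c - lin (tr (lam Γ) (reg Γ)) c =
      (W - 1) * lin (tr (lam Γ) (reg Γ)) c - lin (tr π (reg Γ)) c * (W - 1) := by
    rw [sub_mul, mul_sub, hint]; simp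
  rw [this]
  refine (norm_sub_le _ _).trans ?_
  have a1 := norm_mul_le (W - 1) (lin (tr (lam Γ) (reg Γ)) c)
  have a2 := norm_mul_le (lin (tr π (reg Γ)) c) (W - 1)
  rw [hn] at a1; rw [h1] at a2
  nlinarith [norm_nonneg (lin (lam Γ) c)]

end Crest.Agent.H8.KK
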