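import Crest.Agent.H8.KK.O5a

/-! The power trick. -/

set_option autoImplicit false

noncomputable section

namespace Crest.Agent.H8.KK

open scoped InnerProductSpace
open Filter Topology

variable {Γ : Type} [Group Γ]

theorem exists_star (c : MonoidAlgebra ℂ Γ) : ∃ c' : MonoidAlgebra ℂ Γ,
    ∀ (K : Type) [NormedAddCommGroup K] [InnerProductSpace ℂ K] [CompleteSpace K]
      (ρ : Γ →* (K →L[ℂ] K)), IsU ρ → lin ρ c' = star (lin ρ c) := by
  induction c using MonoidAlgebra.induction_linear with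
  | zero => exact ⟨0, by simp⟩
  | add a b ha hb =>
    obtain ⟨a', ha⟩ := ha
    obtain ⟨b', hb⟩ := hb
    exact ⟨a' + b', fun K _ _ _ ρ h => by rw [map_add, map_add, star_add, ha K ρ h, hb K ρ h]⟩
  | single g z =>
    exact ⟨MonoidAlgebra.single g⁻¹ (star z), fun K _ _ _ ρ h => by simp [h g]⟩

theorem le_of_pow_le {a b C : ℝ} (hb : 0 ≤ b) (h : ∀ k : ℕ, a ^ 2 ^ k ≤ C * b ^ 2 ^ k) : a ≤ b := by
  by_contra hab
  push Not at hab
  have ha : 0 < a := hb.trans_lt hab
  have h1 : Tendsto (fun k : ℕ => C * (b / a) ^ 2 ^ k) atTop (𝓝 (C * 0)) :=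
    ((tendsto_pow_atTop_nhds_zero_of_lt_one (by positivity) ((div_lt_one ha).2 hab)).comp
      (tendsto_pow_atTop_atTop_of_one_lt one_lt_two)).const_mul C
  have h2 : (1 : ℝ) ≤ C * 0 := ge_of_tendsto' h1 fun k => by
    rw [div_pow, ← mul_div_assoc, le_div_iff₀ (by positivity), one_mul]
    exact h k
  linarith

theorem power_trick {K K' : Type} [NormedAddCommGroup K] [InnerProductSpace ℂ K] [CompleteSpace K]
    [NormedAddCommGroup K'] [InnerProductSpace ℂ K'] [CompleteSpace K']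
    (ρ : Γ →* (K →L[ℂ] K)) (ρ' : Γ →* (K' →L[ℂ] K')) (h : IsU ρ) (h' : IsU ρ') (C : ℝ)
    (hC : ∀ c, ‖lin ρ c‖ ≤ C * ‖lin ρ' c‖) (c : MonoidAlgebra ℂ Γ) : ‖lin ρ c‖ ≤ ‖lin ρ' c‖ := by
  obtain ⟨c', hc'⟩ := exists_star c
  have : ‖lin ρ c‖ * ‖lin ρ c‖ ≤ ‖lin ρ' c‖ * ‖lin ρ' c‖ := by
    refine le_of_pow_le (C := C) (by positivity) fun k => ?_
    have := hC ((c' * c) ^ 2 ^ k)
    rwa [map_pow, map_pow, map_mul, map_mul, hc' K ρ h, hc' K' ρ' h',
      (IsSelfAdjoint.star_mul_self _).norm_pow_two_pow, (IsSelfAdjoint.star_mul_self _).norm_pow_two_pow,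
      CStarRing.norm_star_mul_self, CStarRing.norm_star_mul_self] at this
  exact (mul_self_le_mul_self_iff (norm_nonneg _) (norm_nonneg _)).2 this

theorem o5b : O5b := by
  intro Γ _ G _ _ φ H _ _ _ ν C hν hC
  classical
  let P : G → L2 Γ ℂ →L[ℂ] L2 Γ ℂ := fun w => pull ℂ (PEquiv.ofSet {x | φ x = w})
  have hP : ∀ w ξ x, P w ξ x = if φ x = w then ξ x else 0 := fun w ξ x => by
    split_ifs with h
    · exact pull_some ((PEquiv.ofSet_eq_some_self_iff (s := {x | φ x = w})).2 h) ξ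
    · exact pull_none (by simp [PEquiv.ofSet, h]) ξ
  have dec : ∀ c : MonoidAlgebra ℂ Γ, ∃ cz : G → MonoidAlgebra ℂ Γ,
      lin (tr ν (lm φ)) c = ∑ z, dg G H (lin ν (cz z)) * prm H (reg G) z ∧
      ∀ z, lin (lam Γ) (cz z) = ∑ w, P (z * w) * lin (lam Γ) c * P w := by
    intro c
    induction c using MonoidAlgebra.induction_linear with
    | zero => exact ⟨0, by simp, by simp⟩
    | add a b ha hb =>
      obtain ⟨a', ha, ha'⟩ := ha
      obtain ⟨b', hb, hb'⟩ := hb
      refine ⟨a' + b', ?_, fun z => ?_⟩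
      · simp only [map_add, ha, hb, Pi.add_apply, add_mul, Finset.sum_add_distrib]
      · simp only [map_add, ha', hb', Pi.add_apply, add_mul, mul_add, Finset.sum_add_distrib]
    | single g a =>
      refine ⟨fun z => if φ g = z then MonoidAlgebra.single g a else 0, ?_, fun z => ?_⟩
      · rw [Finset.sum_eq_single (φ g) (fun z _ hz => by simp [hz.symm]) (by simp)]
        ext1 ξ; ext1; funext x
        simp
      · ext1 ξ; ext1; funext x
        rw [sum_apply, lp.coeFn_sum, Finset.sum_apply,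
          Finset.sum_eq_single ((φ g)⁻¹ * φ x) (fun w _ hw => by simp [hP, hw.symm]) (by simp)]
        by_cases h : φ g = z
        · simp [hP, ← h]
        · have : ¬ φ x = z * ((φ g)⁻¹ * φ x) := fun h2 => h (by
            rw [← mul_assoc, eq_comm, mul_eq_right, mul_inv_eq_one] at h2; exact h2.symm)
          simp [hP, h, this]
  refine power_trick _ _ (isU_tr hν _) (isU_prm _)
    (Fintype.card G * (|C| * Fintype.card G)) fun c => ?_
  obtain ⟨cz, h1, h2⟩ := dec c
  have h3 : ∀ z, ‖lin (lam Γ) (cz z)‖ ≤ Fintype.card G * ‖lin (lam Γ) c‖ := fun z => by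
    rw [h2, ← nsmul_eq_mul, ← Finset.card_univ, ← Finset.sum_const]
    refine norm_sum_le_of_le _ fun w _ => ?_
    refine (norm_mul_le _ _).trans ((mul_le_of_le_one_right (norm_nonneg _) (norm_pull_le _)).trans ?_)
    exact (norm_mul_le _ _).trans (mul_le_of_le_one_left (norm_nonneg _) (norm_pull_le _))
  rw [h1, mul_assoc, ← nsmul_eq_mul, ← Finset.card_univ, ← Finset.sum_const]
  refine norm_sum_le_of_le _ fun z _ => ?_
  refine (norm_mul_le _ _).trans ((mul_le_of_le_one_right (norm_nonneg _)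
    ((isU_prm _).norm_le _)).trans ((norm_dg_le _).trans ((hC _).trans ?_)))
  rw [Finset.card_univ, mul_assoc]
  exact mul_le_mul (le_abs_self C) (h3 z) (norm_nonneg _) (abs_nonneg _)

end Crest.Agent.H8.KK
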