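import Crest.Agent.H8.KK.O6b

/-! Task O6: the concrete model. -/

set_option autoImplicit false
set_option linter.unusedSectionVars false

noncomputable section

namespace Crest.Agent.H8.KK

open scoped InnerProductSpace Topology
open Filter TopologicalSpace

namespace O6

variable {Γ : Type} [Group Γ] [DecidableEq Γ]
variable {G : ℕ → Type} [∀ n, Group (G n)] [∀ n, DecidableEq (G n)] (φ : ∀ n, Γ →* G n)

theorem sum_eu_mul (F : Finset Γ) {x : Γ} (hx : x ∈ F) (y : Γ) :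
    (∑ z ∈ F, eu z z) * eu x y = eu x y := by
  rw [Finset.sum_mul, Finset.sum_eq_single_of_mem x hx fun z _ hz => by rw [eu_mul, if_neg hz],
    eu_mul, if_pos rfl]

theorem op_sum (F : Finset Γ) :
    ∑ z ∈ F, op φ (eu z z) 1 [] = op φ (∑ z ∈ F, eu z z) 1 [] := by
  simp only [op, map_sum, Finset.sum_mul]

theorem E_lim (j : L2 (Σ n, G n) (L2 Γ ℂ) →L[ℂ] L2 (Σ n, G n) (L2 Γ ℂ))
    (hj : j ∈ (J₀ φ).topologicalClosure) (ε : ℝ) (hε : 0 < ε) :
    ∃ F : Finset Γ, ‖j - (∑ x ∈ F, op φ (eu x x) 1 []) * j‖ ≤ ε := by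
  obtain ⟨j₀, h₀, hd⟩ := Metric.mem_closure_iff.1 hj (ε / 2) (by positivity)
  rw [dist_eq_norm] at hd
  have h1 : ∀ᶠ F : Finset Γ in atTop, (∑ x ∈ F, op φ (eu x x) 1 []) * j₀ = j₀ := by
    clear hd
    induction h₀ using Submodule.span_induction with
    | mem s hs =>
      obtain ⟨p, rfl⟩ := hs
      filter_upwards [eventually_ge_atTop {p.1}] with F hF
      rw [op_sum, op_mul, sum_eu_mul F (hF (Finset.mem_singleton_self _)), one_mul, List.nil_append]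
    | zero => exact .of_forall fun F => mul_zero _
    | add _ _ _ _ h h' => filter_upwards [h, h'] with F e e'; rw [mul_add, e, e']
    | smul c _ _ h => filter_upwards [h] with F e; rw [mul_smul_comm, e]
  obtain ⟨F, hF⟩ := h1.exists
  refine ⟨F, ?_⟩
  have hp : IsStarProjection (∑ x ∈ F, op φ (eu x x) 1 []) := by
    rw [op_sum]
    refine ⟨?_, ?_⟩
    · rw [IsIdempotentElem, op_mul, Finset.mul_sum, one_mul,
        Finset.sum_congr rfl fun x hx => sum_eu_mul F hx x]; rfl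
    · rw [IsSelfAdjoint, star_op, star_sum, inv_one]
      simp only [star_eu]
  have e : j - (∑ x ∈ F, op φ (eu x x) 1 []) * j =
      (j - j₀) - (∑ x ∈ F, op φ (eu x x) 1 []) * (j - j₀) := by
    rw [mul_sub, hF]; abel
  rw [e]
  refine (norm_sub_le _ _).trans ?_
  have := norm_mul_le (∑ x ∈ F, op φ (eu x x) 1 []) (j - j₀)
  nlinarith [hp.norm_le, norm_nonneg (j - j₀)]

theorem rt_comm (z : ∀ n, G n) : ∀ j ∈ (J₀ φ).topologicalClosure,
    rt (L2 Γ ℂ) z * j = j * rt (L2 Γ ℂ) z :=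
  J_ind φ (S :=
    { carrier := {j | rt (L2 Γ ℂ) z * j = j * rt (L2 Γ ℂ) z}
      add_mem' := fun {a b} (ha : _ = _) (hb : _ = _) => by
        change _ = _; rw [mul_add, add_mul, ha, hb]
      zero_mem' := by change _ = _; rw [mul_zero, zero_mul]
      smul_mem' := fun c a (ha : _ = _) => by
        change _ = _; rw [mul_smul_comm, smul_mul_assoc, ha] })
    (isClosed_eq (continuous_const.mul continuous_id) (continuous_id.mul continuous_const))
    fun _ _ _ _ => rt_op φ z _ _ _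

theorem norm_J_single {j : L2 (Σ n, G n) (L2 Γ ℂ) →L[ℂ] L2 (Σ n, G n) (L2 Γ ℂ)}
    (hj : j ∈ (J₀ φ).topologicalClosure) (n : ℕ) (y : G n) (k : L2 Γ ℂ) :
    ‖j (lp.single 2 ⟨n, y⟩ k)‖ ≤ ‖j (lp.single 2 ⟨n, 1⟩ k)‖ := by
  have h1 := rt_single (K := L2 Γ ℂ) (Pi.mulSingle n y) n 1 k
  rw [Pi.mulSingle_eq_same, one_mul] at h1
  have h2 := congrArg (fun a => a (lp.single 2 ⟨n, 1⟩ k)) (rt_comm φ (Pi.mulSingle n y) j hj)
  change rt _ _ (j _) = j (rt _ _ _) at h2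
  rw [← h1, ← h2]
  exact (ContinuousLinearMap.le_opNorm _ _).trans
    (mul_le_of_le_one_left (norm_nonneg _) (norm_pull_le _))

theorem last [∀ n, Fintype (G n)] {K H : Type} [NormedAddCommGroup K] [InnerProductSpace ℂ K]
    [CompleteSpace K] [NormedAddCommGroup H] [InnerProductSpace ℂ H] [CompleteSpace H]
    (π : Γ →* (K →L[ℂ] K)) (ω : K) (ν : Γ →* (H →L[ℂ] H)) (s : ∀ n, G n → H)
    (h1 : ∀ n x, ‖s n x‖ = 1) (d : Γ → ℕ → ℝ) (hd : ∀ g, Tendsto (d g) atTop (𝓝 0))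
    (h0 : ∀ g n x, ‖⟪s n x, ν g (s n (φ n g⁻¹ * x))⟫_ℂ - ⟪ω, π g ω⟫_ℂ‖ ≤ d g n)
    (c : MonoidAlgebra ℂ Γ) (M : ℝ) (hM : ∀ n, ‖lin (tr ν (lm (φ n))) c‖ ≤ M) :
    ‖⟪ω, lin π c ω⟫_ℂ‖ ≤ M := by
  let ζ : ∀ n, L2 (G n) H := fun n => ⟨s n, Memℓp.all _⟩
  have hζ : ∀ n x, ζ n x = s n x := fun _ _ => rfl
  have hN : ∀ n, (0 : ℝ) < Fintype.card (G n) := fun n => by exact_mod_cast Fintype.card_pos
  have hn : ∀ n, ‖ζ n‖ ^ 2 = Fintype.card (G n) := fun n => by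
    rw [(hasSum_sq (ζ n)).unique (hasSum_fintype _)]
    simp [hζ, h1]
  have hlim : Tendsto (fun n => ((Fintype.card (G n) : ℝ) : ℂ)⁻¹ *
      ⟪ζ n, lin (tr ν (lm (φ n))) c (ζ n)⟫_ℂ) atTop (𝓝 ⟪ω, lin π c ω⟫_ℂ) := by
    clear hM
    induction c using MonoidAlgebra.induction_on with
    | add c d hc hd =>
      simpa only [map_add, ContinuousLinearMap.add_apply, inner_add_right, mul_add] using hc.add hd
    | smul r c hc =>
      simpa only [map_smul, ContinuousLinearMap.smul_apply, inner_smul_right, mul_left_comm _ r]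
        using hc.const_mul r
    | of g =>
      simp only [MonoidAlgebra.lift_of]
      rw [← tendsto_sub_nhds_zero_iff]
      refine squeeze_zero_norm (fun n => ?_) (hd g)
      have hc : ((Fintype.card (G n) : ℝ) : ℂ) ≠ 0 := Complex.ofReal_ne_zero.2 (hN n).ne'
      have e : ((Fintype.card (G n) : ℝ) : ℂ)⁻¹ * ⟪ζ n, tr ν (lm (φ n)) g (ζ n)⟫_ℂ - ⟪ω, π g ω⟫_ℂ =
          ((Fintype.card (G n) : ℝ) : ℂ)⁻¹ *
            ∑ x, (⟪s n x, ν g (s n (φ n g⁻¹ * x))⟫_ℂ - ⟪ω, π g ω⟫_ℂ) := by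
        rw [lp.inner_eq_tsum, tsum_fintype, Finset.sum_sub_distrib, Finset.sum_const,
          Finset.card_univ, nsmul_eq_mul, mul_sub, ← Complex.ofReal_natCast,
          inv_mul_cancel_left₀ hc]
        rfl
      rw [e, norm_mul, norm_inv, Complex.norm_real, Real.norm_of_nonneg (hN n).le,
        inv_mul_le_iff₀ (hN n)]
      refine (norm_sum_le _ _).trans ?_
      rw [← Finset.card_univ, ← nsmul_eq_mul]
      exact Finset.sum_le_card_nsmul _ _ _ fun x _ => h0 g n x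
  refine le_of_tendsto' hlim.norm fun n => ?_
  rw [norm_mul, norm_inv, Complex.norm_real, Real.norm_of_nonneg (hN n).le, inv_mul_le_iff₀ (hN n),
    ← hn]
  have h2 : ‖lin (tr ν (lm (φ n))) c (ζ n)‖ ≤ M * ‖ζ n‖ :=
    (ContinuousLinearMap.le_opNorm _ _).trans (mul_le_mul_of_nonneg_right (hM n) (norm_nonneg _))
  calc _ ≤ ‖ζ n‖ * ‖lin (tr ν (lm (φ n))) c (ζ n)‖ := norm_inner_le_norm _ _
    _ ≤ ‖ζ n‖ * (M * ‖ζ n‖) := mul_le_mul_of_nonneg_left h2 (norm_nonneg _)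
    _ = _ := by ring

theorem last_est {K : Type} [NormedAddCommGroup K] [InnerProductSpace ℂ K] [CompleteSpace K]
    (π : Γ →* (K →L[ℂ] K)) {ω : K} (hω : ‖ω‖ = 1) (Y : L2 (Σ n, G n) K →L[ℂ] L2 (Σ n, G n) K)
    (g : Γ) (n : ℕ) (x : G n) :
    ‖⟪(lp.single 2 ⟨n, x⟩ ω : L2 (Σ n, G n) K), Y (lp.single 2 ⟨n, φ n g⁻¹ * x⟩ ω)⟫_ℂ -
      ⟪ω, π g ω⟫_ℂ‖ ≤ ‖(Y - tr π (act φ) g) (lp.single 2 ⟨n, φ n g⁻¹ * x⟩ ω)‖ := by
  have e : ⟪ω, π g ω⟫_ℂ = ⟪(lp.single 2 ⟨n, x⟩ ω : L2 (Σ n, G n) K),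
      tr π (act φ) g (lp.single 2 ⟨n, φ n g⁻¹ * x⟩ ω)⟫_ℂ := by
    rw [tr_single, act_apply, ← mul_assoc, ← map_mul, mul_inv_cancel, map_one, one_mul,
      lp.inner_single_left, lp.single_apply_self]
  rw [e, ← inner_sub_right]
  refine (norm_inner_le_norm _ _).trans ?_
  rw [lp.norm_single (by norm_num), hω, one_mul]
  rfl

theorem norm_dlt : ‖dlt (1 : Γ)‖ = 1 := by rw [lp.norm_single (by norm_num), norm_one]

theorem om_tr {K : Type} [NormedAddCommGroup K] [InnerProductSpace ℂ K] [CompleteSpace K]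
    (π : Γ →* (K →L[ℂ] K)) {ω : K} (hω : ‖ω‖ = 1) (g : Γ) :
    ⟪(lp.single 2 1 ω : L2 Γ K), tr π (reg Γ) g (lp.single 2 1 ω)⟫_ℂ = if g = 1 then 1 else 0 := by
  rw [tr_single, lp.inner_single_left]
  change ⟪_, (lp.single 2 (g * 1) _ : L2 Γ K) 1⟫_ℂ = _
  split_ifs with hg
  · subst hg
    rw [mul_one, lp.single_apply_self, map_one]
    simp [inner_self_eq_norm_sq_to_K, hω]
  · rw [mul_one, lp.single_apply_ne _ _ _ (Ne.symm hg), inner_zero_right]

theorem dense_single {K : Type} [NormedAddCommGroup K] [InnerProductSpace ℂ K] [CompleteSpace K] :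
    Dense (Submodule.span ℂ {z : L2 Γ K | ∃ h k, z = lp.single 2 h k} : Set (L2 Γ K)) :=
  dense_span fun v hv => by
    ext1; ext1 h
    refine ext_inner_left ℂ fun k => ?_
    have := hv _ ⟨h, k, rfl⟩
    rw [lp.inner_single_left] at this
    exact this.trans (inner_zero_right _).symm

theorem dense_single' {X : Type} [DecidableEq X] :
    Dense (Submodule.span ℂ {z : L2 X (L2 Γ ℂ) | ∃ p y, z = lp.single 2 p (dlt y)} :
      Set (L2 X (L2 Γ ℂ))) :=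
  dense_span fun v hv => by
    ext p y
    have := hv _ ⟨p, y, rfl⟩
    rw [lp.inner_single_left, lp.inner_single_left] at this
    simpa using this

theorem gen_mem (x y g : Γ) (l : List ℕ) : op φ (eu x y) g l ∈ (J₀ φ).topologicalClosure :=
  subset_closure (Submodule.subset_span ⟨(x, y, g, l), rfl⟩)

section
variable {H H' : Type} [NormedAddCommGroup H] [InnerProductSpace ℂ H] [CompleteSpace H]
  [NormedAddCommGroup H'] [InnerProductSpace ℂ H'] [CompleteSpace H']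

/-- the domain of a graph -/
def dom (R : StarSubalgebra ℂ ((H →L[ℂ] H) × (H' →L[ℂ] H'))) : Submodule ℂ (H →L[ℂ] H) where
  carrier := {j | ∃ j', (j, j') ∈ R}
  add_mem' := fun ⟨_, ha⟩ ⟨_, hb⟩ => ⟨_, add_mem ha hb⟩
  zero_mem' := ⟨0, zero_mem _⟩
  smul_mem' := fun c _ ⟨_, ha⟩ => ⟨_, R.smul_mem ha c⟩

/-- the elements multiplied into `J` -/
def lmul (J : NonUnitalStarSubalgebra ℂ (H →L[ℂ] H)) (t : H →L[ℂ] H) :
    Submodule ℂ (H →L[ℂ] H) where
  carrier := {j | t * j ∈ J}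
  add_mem' := fun {a b} ha hb => by
    change t * (a + b) ∈ J; rw [mul_add]; exact add_mem ha hb
  zero_mem' := by change t * 0 ∈ J; rw [mul_zero]; exact zero_mem _
  smul_mem' := fun c a ha => by
    change t * (c • a) ∈ J; rw [mul_smul_comm]; exact SMulMemClass.smul_mem c ha

theorem isClosed_lmul (J : NonUnitalStarSubalgebra ℂ (H →L[ℂ] H)) (t : H →L[ℂ] H) :
    IsClosed (lmul J.topologicalClosure t : Set (H →L[ℂ] H)) :=
  J.isClosed_topologicalClosure.preimage (continuous_const.mul continuous_id)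

theorem isClosed_dom' {V : ℕ → H' →L[ℂ] H} (hV : ∀ n, ‖V n‖ ≤ 1)
    (hV' : ∀ ζ, Tendsto (fun n => ‖V n ζ‖) atTop (𝓝 ‖ζ‖)) :
    IsClosed (dom (Gr V) : Set (H →L[ℂ] H)) :=
  isClosed_dom (isClosed_Gr hV) fun _ hp => hp.1.norm_le hV hV'

end

theorem rho_J (g : Γ) : ∀ j ∈ (J₀ φ).topologicalClosure,
    tr (lam Γ) (act φ) g * j ∈ (J₀ φ).topologicalClosure :=
  J_ind φ (S := lmul (J₀ φ).topologicalClosure (tr (lam Γ) (act φ) g)) (isClosed_lmul _ _)
    fun x y h l => by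
      change tr (lam Γ) (act φ) g * op φ (eu x y) h l ∈ (J₀ φ).topologicalClosure
      rw [tr_eq_op, op_mul, lam_eu]; exact gen_mem φ _ _ _ _

theorem J_dom {V : ℕ → L2 Γ (L2 Γ ℂ) →L[ℂ] L2 (Σ n, G n) (L2 Γ ℂ)} (hV : ∀ n, ‖V n‖ ≤ 1)
    (hV' : ∀ ζ, Tendsto (fun n => ‖V n ζ‖) atTop (𝓝 ‖ζ‖))
    (hs : ∀ h, ∀ᶠ n in atTop, ∀ k, V n (lp.single 2 h k) = lp.single 2 ⟨n, φ n h⟩ k) :
    ∀ j ∈ (J₀ φ).topologicalClosure, ∃ j', (j, j') ∈ Gr V :=
  J_ind φ (S := dom (Gr V)) (isClosed_dom' hV hV') fun x y g l => ⟨_, op_mem_Gr hV hs (eu x y) g l⟩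

theorem E_mul (x y z w : Γ) : op φ (eu x y) 1 [] * op φ (eu z w) 1 [] =
    if y = z then op φ (eu x w) 1 [] else 0 := by
  rw [op_mul, eu_mul, one_mul]
  split_ifs
  · rfl
  · exact op_zero φ _ _

theorem rho_sub {π : Γ →* (L2 Γ ℂ →L[ℂ] L2 Γ ℂ)} {g : Γ}
    (h : π g - lam Γ g ∈ Submodule.span ℂ {t | ∃ x y, t = eu x y}) :
    tr π (act φ) g - tr (lam Γ) (act φ) g ∈ (J₀ φ).topologicalClosure := by
  rw [tr_eq_op, tr_eq_op, ← op_sub]
  exact subset_closure (op_mem_span φ h _ _)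

theorem op_fix (p : Σ n, G n) (y : Γ) :
    op φ (eu y y) 1 [p.1] (lp.single 2 p (dlt y)) = lp.single 2 p (dlt y) := by
  rw [op_single, if_pos (by simp), eu_dlt, map_one]; rfl

theorem model [Countable Γ] [∀ n, Fintype (G n)] (h5 : O5a)
    (hφ : ∀ g ≠ 1, ∀ᶠ n in atTop, φ n g ≠ 1) (π : Γ →* (L2 Γ ℂ →L[ℂ] L2 Γ ℂ)) (κ : ℝ)
    (hπ : IsU π) (hκ : ∀ g, ‖π g - lam Γ g‖ ≤ κ)
    (hsp : ∀ g, π g - lam Γ g ∈ Submodule.span ℂ {t | ∃ x y, t = eu x y}) :
    ∃ D : Core Γ (L2 (Σ n, G n) (L2 Γ ℂ)) (L2 Γ (L2 Γ ℂ)) (2 * κ),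
    (∀ c, ‖lin (D.θ true) c‖ ≤ ‖lin (lam Γ) c‖) ∧
    ∀ ν : Γ →* _, (∀ g, D.I (ν g - D.ρ true g)) → ∀ (c : MonoidAlgebra ℂ Γ) (M : ℝ),
      (∀ n, ‖lin (tr ν (lm (φ n))) c‖ ≤ M) → ‖⟪dlt (1 : Γ), lin π c (dlt 1)⟫_ℂ‖ ≤ M := by
  obtain ⟨V, hV, hV', hs⟩ := exists_V (K := L2 Γ ℂ) φ hφ
  have hU : ∀ b : Bool, IsU (bif b then π else lam Γ) := by
    rintro (_ | _)
    · exact isU_prm _
    · exact hπ
  have hn : ∀ (b : Bool) c, ‖lin (tr (bif b then π else lam Γ) (reg Γ)) c‖ = ‖lin (lam Γ) c‖ := by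
    rintro (_ | _) c
    · exact ((h5 Γ c).2 (lam Γ) 0 (isU_prm _) fun g => by rw [sub_self, norm_zero]).1
    · exact ((h5 Γ c).2 π κ hπ hκ).1
  refine ⟨
    { Gr := Gr V
      Gr_closed := isClosed_Gr hV
      Gr_norm := fun p hp => hp.1.norm_le hV hV'
      J := (J₀ φ).topologicalClosure
      J_closed := NonUnitalStarSubalgebra.isClosed_topologicalClosure _
      J_sep := (Set.countable_range _).isSeparable.span.closure
      J_dom := J_dom φ hV hV' hs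
      ρ := fun b => tr (bif b then π else lam Γ) (act φ)
      θ := fun b => tr (bif b then π else lam Γ) (reg Γ)
      ρ_star := fun b => isU_tr (hU b) _
      θ_star := fun b => isU_tr (hU b) _
      ρθ := fun b g => by rw [tr_eq_op]; exact op_mem_Gr hV hs _ g []
      ρJ := rho_J φ
      ρ_sub := fun g => rho_sub φ (hsp g)
      fell := fun b c => ((h5 Γ c).1 _ _).trans (hn b c).ge
      close := fun b c => by rw [hn]; exact ((h5 Γ c).2 π κ hπ hκ).2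
      ω := lp.single 2 1 (dlt 1)
      ω_norm := (lp.norm_single (by norm_num) _ _).trans norm_dlt
      ω_tr := fun b g => om_tr _ norm_dlt g
      faith := ⟨_, dense_single, by
        rintro _ ⟨h, k, rfl⟩ b c
        rw [faith_reg (hU b) c h k (dlt 1) norm_dlt, lp.norm_single (by norm_num)]⟩
      E := fun x y => op φ (eu x y) 1 []
      E_mul := E_mul φ
      E_star := fun x y => by rw [star_op, star_eu, inv_one]
      E_mem := fun x y => gen_mem φ _ _ _ _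
      E_lim := E_lim φ
      tot := ⟨_, dense_single', by
        rintro _ ⟨p, y, rfl⟩
        exact ⟨_, gen_mem φ _ _ _ _, op_mem_Gr hV hs _ _ [p.1], op_fix φ p y⟩⟩ },
    fun c => (hn true c).le, fun ν hν c M hM => last φ π (dlt 1) ν
      (fun n x => lp.single 2 ⟨n, x⟩ (dlt 1))
      (fun n x => (lp.norm_single (by norm_num) _ _).trans norm_dlt)
      (fun g n => ‖(ν g - tr π (act φ) g) (lp.single 2 ⟨n, 1⟩ (dlt 1))‖) (fun g => ?_)
      (fun g n x => (last_est φ π norm_dlt _ g n x).trans (norm_J_single φ (hν g).1 n _ _)) c M hM⟩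
  rw [← tendsto_zero_iff_norm_tendsto_zero]
  refine ((hν g).2.1 (lp.single 2 1 (dlt 1))).congr' ?_
  filter_upwards [hs 1] with n e
  rw [e, map_one]
  exact (congrArg _ (map_zero (V n))).trans (sub_zero _)

end O6

theorem o6 (h5 : O5a) : O6 := by
  intro Γ _ _ _ m φ hφ π κ hπ hκ hsp
  obtain ⟨D, hD⟩ := O6.model φ h5 hφ π κ hπ hκ hsp
  exact ⟨_, _, _, _, _, inferInstance, _, _, _, D, hD⟩

end Crest.Agent.H8.KK
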