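import Crest.Agent.H8.KK.ODefs

/-! Task O6, part a: asymptotic graphs and basic operators. -/

set_option autoImplicit false
set_option linter.unusedSectionVars false

noncomputable section

namespace Crest.Agent.H8.KK.O6

open scoped InnerProductSpace Topology
open Filter TopologicalSpace

section Graph

variable {H H' : Type} [NormedAddCommGroup H] [InnerProductSpace ℂ H] [CompleteSpace H]
  [NormedAddCommGroup H'] [InnerProductSpace ℂ H'] [CompleteSpace H']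

/-- asymptotic intertwining -/
def Asy (V : ℕ → H' →L[ℂ] H) (Y : H →L[ℂ] H) (Y' : H' →L[ℂ] H') : Prop :=
  ∀ ζ, Tendsto (fun n => Y (V n ζ) - V n (Y' ζ)) atTop (𝓝 0)

theorem Asy.mul {V : ℕ → H' →L[ℂ] H} {Y Z : H →L[ℂ] H} {Y' Z' : H' →L[ℂ] H'} (h : Asy V Y Y')
    (h' : Asy V Z Z') : Asy V (Y * Z) (Y' * Z') := fun ζ => by
  have := ((Y.continuous.tendsto 0).comp (h' ζ)).add (h (Z' ζ))
  rw [map_zero, add_zero] at this
  refine this.congr fun n => ?_
  simp

theorem Asy.add {V : ℕ → H' →L[ℂ] H} {Y Z : H →L[ℂ] H} {Y' Z' : H' →L[ℂ] H'} (h : Asy V Y Y')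
    (h' : Asy V Z Z') : Asy V (Y + Z) (Y' + Z') := fun ζ => by
  have := (h ζ).add (h' ζ)
  rw [add_zero] at this
  refine this.congr fun n => ?_
  simp only [ContinuousLinearMap.add_apply, map_add]; abel

theorem asy_scalar (V : ℕ → H' →L[ℂ] H) (c : ℂ) :
    Asy V (algebraMap ℂ _ c) (algebraMap ℂ _ c) := fun ζ => by
  simp [Algebra.algebraMap_eq_smul_one]

/-- the graph -/
def Gr (V : ℕ → H' →L[ℂ] H) : StarSubalgebra ℂ ((H →L[ℂ] H) × (H' →L[ℂ] H')) where
  carrier := {p | Asy V p.1 p.2 ∧ Asy V (star p.1) (star p.2)}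
  mul_mem' := fun {p q} hp hq => ⟨hp.1.mul hq.1, by
    rw [Prod.fst_mul, Prod.snd_mul, star_mul, star_mul]; exact hq.2.mul hp.2⟩
  add_mem' := fun {p q} hp hq => ⟨hp.1.add hq.1, by
    rw [Prod.fst_add, Prod.snd_add, star_add, star_add]; exact hp.2.add hq.2⟩
  algebraMap_mem' := fun c => ⟨asy_scalar V c, by
    change Asy V (star (algebraMap ℂ _ c)) (star (algebraMap ℂ _ c))
    rw [← algebraMap_star_comm, ← algebraMap_star_comm]; exact asy_scalar V _⟩
  star_mem' := fun {p} hp => ⟨hp.2, by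
    change Asy V (star (star p.1)) (star (star p.2))
    rw [star_star, star_star]; exact hp.1⟩

theorem isClosed_asy {V : ℕ → H' →L[ℂ] H} (hV : ∀ n, ‖V n‖ ≤ 1) :
    IsClosed {p : (H →L[ℂ] H) × (H' →L[ℂ] H') | Asy V p.1 p.2} := by
  refine isClosed_of_closure_subset fun p hp ζ => ?_
  rw [NormedAddGroup.tendsto_nhds_zero]
  intro ε hε
  obtain ⟨q, hq, hpq⟩ := Metric.mem_closure_iff.1 hp (ε / (3 * (‖ζ‖ + 1))) (by positivity)
  rw [dist_eq_norm] at hpq
  have h1 : ‖p.1 - q.1‖ ≤ ε / (3 * (‖ζ‖ + 1)) := (norm_fst_le (p - q)).trans hpq.le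
  have h2 : ‖p.2 - q.2‖ ≤ ε / (3 * (‖ζ‖ + 1)) := (norm_snd_le (p - q)).trans hpq.le
  have h3 : ε / (3 * (‖ζ‖ + 1)) * ‖ζ‖ ≤ ε / 3 := by
    rw [div_mul_eq_mul_div, div_le_div_iff₀ (by positivity) (by positivity)]
    nlinarith
  filter_upwards [NormedAddGroup.tendsto_nhds_zero.1 (hq ζ) (ε / 3) (by positivity)] with n hn
  have hv : ∀ w, ‖V n w‖ ≤ ‖w‖ := fun w => ((V n).le_opNorm w).trans (by
    nlinarith [hV n, norm_nonneg w])
  have e : p.1 (V n ζ) - V n (p.2 ζ) =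
      (p.1 - q.1) (V n ζ) + (q.1 (V n ζ) - V n (q.2 ζ)) - V n ((p.2 - q.2) ζ) := by
    simp only [ContinuousLinearMap.sub_apply, map_sub]; abel
  have b1 : ‖(p.1 - q.1) (V n ζ)‖ ≤ ε / 3 :=
    (ContinuousLinearMap.le_opNorm _ _).trans (le_trans (by gcongr; exact hv ζ) h3)
  have b2 : ‖V n ((p.2 - q.2) ζ)‖ ≤ ε / 3 :=
    (hv _).trans ((ContinuousLinearMap.le_opNorm _ _).trans (le_trans (by gcongr) h3))
  rw [e]
  calc _ ≤ ‖(p.1 - q.1) (V n ζ)‖ + ‖q.1 (V n ζ) - V n (q.2 ζ)‖ + ‖V n ((p.2 - q.2) ζ)‖ :=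
        (norm_sub_le _ _).trans (by gcongr; exact norm_add_le _ _)
    _ < ε := by linarith

theorem isClosed_Gr {V : ℕ → H' →L[ℂ] H} (hV : ∀ n, ‖V n‖ ≤ 1) :
    IsClosed (Gr V : Set ((H →L[ℂ] H) × (H' →L[ℂ] H'))) :=
  (isClosed_asy hV).inter ((isClosed_asy hV).preimage continuous_star)

theorem Asy.norm_le {V : ℕ → H' →L[ℂ] H} (hV : ∀ n, ‖V n‖ ≤ 1)
    (hV' : ∀ ζ, Tendsto (fun n => ‖V n ζ‖) atTop (𝓝 ‖ζ‖)) {Y : H →L[ℂ] H} {Y' : H' →L[ℂ] H'}
    (h : Asy V Y Y') : ‖Y'‖ ≤ ‖Y‖ := by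
  refine Y'.opNorm_le_bound (norm_nonneg _) fun ζ => ?_
  have h1 := ((hV' ζ).const_mul ‖Y‖).add (h ζ).norm
  rw [norm_zero, add_zero] at h1
  refine le_of_tendsto_of_tendsto' (hV' (Y' ζ)) h1 fun n => ?_
  calc ‖V n (Y' ζ)‖ = ‖Y (V n ζ) - (Y (V n ζ) - V n (Y' ζ))‖ := by rw [sub_sub_cancel]
    _ ≤ _ := (norm_sub_le _ _).trans (by gcongr; exact Y.le_opNorm _)

theorem isClosed_dom {G : StarSubalgebra ℂ ((H →L[ℂ] H) × (H' →L[ℂ] H'))}
    (hc : IsClosed (G : Set ((H →L[ℂ] H) × (H' →L[ℂ] H')))) (hn : ∀ p ∈ G, ‖p.2‖ ≤ ‖p.1‖) :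
    IsClosed {j | ∃ j', (j, j') ∈ G} := by
  refine isClosed_of_closure_subset fun j hj => ?_
  obtain ⟨x, hx, hlim⟩ := mem_closure_iff_seq_limit.1 hj
  choose y hy using hx
  have hy' : CauchySeq y := by
    rw [Metric.cauchySeq_iff]
    intro ε hε
    obtain ⟨N, hN⟩ := Metric.cauchySeq_iff.1 hlim.cauchySeq ε hε
    refine ⟨N, fun a ha b hb => lt_of_le_of_lt ?_ (hN a ha b hb)⟩
    rw [dist_eq_norm, dist_eq_norm]
    exact hn _ (sub_mem (hy a) (hy b))
  obtain ⟨j', hj'⟩ := cauchySeq_tendsto_of_complete hy'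
  exact ⟨j', hc.mem_of_tendsto (hlim.prodMk_nhds hj') (.of_forall hy)⟩

theorem dense_span {Z : Set H} (h : ∀ v, (∀ z ∈ Z, ⟪z, v⟫_ℂ = 0) → v = 0) :
    Dense (Submodule.span ℂ Z : Set H) := by
  rw [Submodule.dense_iff_topologicalClosure_eq_top, Submodule.topologicalClosure_eq_top_iff,
    Submodule.eq_bot_iff]
  exact fun v hv => h v fun z hz => hv z (Submodule.subset_span hz)

end Graph

variable {Γ : Type} [Group Γ] {X A B : Type}
variable {K : Type} [NormedAddCommGroup K] [InnerProductSpace ℂ K] [CompleteSpace K]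

theorem tendsto_of_single [DecidableEq A] {E : Type*} [NormedAddCommGroup E] [NormedSpace ℂ E]
    (T : ℕ → L2 A K →L[ℂ] E) {C : ℝ} (hC0 : 0 ≤ C) (hC : ∀ n v, ‖T n v‖ ≤ C * ‖v‖)
    (h : ∀ a k, ∀ᶠ n in atTop, T n (lp.single 2 a k) = 0) (ζ : L2 A K) :
    Tendsto (fun n => T n ζ) atTop (𝓝 0) := by
  rw [NormedAddGroup.tendsto_nhds_zero]
  intro ε hε
  obtain ⟨s, hs⟩ := ((lp.hasSum_single (by norm_num) ζ).eventually
    (Metric.ball_mem_nhds ζ (by positivity : 0 < ε / (C + 1)))).exists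
  rw [dist_comm, dist_eq_norm] at hs
  filter_upwards [(eventually_all_finset s).2 fun a _ => h a (ζ a)] with n hn
  have e : T n ζ = T n (ζ - ∑ a ∈ s, lp.single 2 a (ζ a)) := by
    rw [map_sub, map_sum, Finset.sum_eq_zero hn, sub_zero]
  rw [e]
  calc _ ≤ C * ‖ζ - ∑ a ∈ s, lp.single 2 a (ζ a)‖ := hC n _
    _ ≤ C * (ε / (C + 1)) := by gcongr
    _ < ε := by rw [← mul_div_assoc, div_lt_iff₀ (by positivity)]; nlinarith

theorem asy_of_single [DecidableEq A] {H : Type} [NormedAddCommGroup H] [InnerProductSpace ℂ H]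
    [CompleteSpace H] {V : ℕ → L2 A K →L[ℂ] H} (hV : ∀ n, ‖V n‖ ≤ 1) {Y : H →L[ℂ] H}
    {Y' : L2 A K →L[ℂ] L2 A K}
    (h : ∀ a k, ∀ᶠ n in atTop, Y (V n (lp.single 2 a k)) = V n (Y' (lp.single 2 a k))) :
    Asy V Y Y' :=
  tendsto_of_single (fun n => Y ∘L V n - V n ∘L Y') (C := ‖Y‖ + ‖Y'‖)
    (add_nonneg Y.opNorm_nonneg Y'.opNorm_nonneg) (fun n v => by
      have hv : ∀ w, ‖V n w‖ ≤ ‖w‖ := fun w => ((V n).le_opNorm w).trans (by
        nlinarith [hV n, norm_nonneg w])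
      rw [add_mul]
      exact (norm_sub_le (Y (V n v)) (V n (Y' v))).trans (add_le_add
        ((Y.le_opNorm _).trans (mul_le_mul_of_nonneg_left (hv v) Y.opNorm_nonneg))
        ((hv _).trans (Y'.le_opNorm _))))
    fun a k => (h a k).mono fun n hn => sub_eq_zero.2 hn

open Classical in
/-- the partial equivalence of a map injective on a set -/
def pinj (s : Set A) (f : A → B) (hf : Set.InjOn f s) : A ≃. B where
  toFun a := if a ∈ s then some (f a) else none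
  invFun b := if h : ∃ a ∈ s, f a = b then some h.choose else none
  inv a b := by
    constructor
    · intro h
      split_ifs at h with h1
      obtain rfl : h1.choose = a := by simpa using h
      simp [h1.choose_spec.1, h1.choose_spec.2]
    · intro h
      split_ifs at h with h1
      obtain rfl : f a = b := by simpa using h
      have h2 : ∃ a' ∈ s, f a' = f a := ⟨a, h1, rfl⟩
      simp [h2, hf h2.choose_spec.1 h1 h2.choose_spec.2]

theorem pinj_apply {s : Set A} {f : A → B} (hf : Set.InjOn f s) {a : A} (ha : a ∈ s) :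
    pinj s f hf a = some (f a) := if_pos ha

theorem isU_prm (a : Γ →* Equiv.Perm X) : IsU (prm K a) := fun g => by
  change star (pull K _) = pull K _
  rw [star_pull, ← Equiv.toPEquiv_symm, inv_inv, map_inv]; rfl

theorem isU_tr {π : Γ →* (K →L[ℂ] K)} (hπ : IsU π) (a : Γ →* Equiv.Perm X) : IsU (tr π a) :=
  fun g => by
    change star (dg X K (π g) * prm K a g) = dg X K (π g⁻¹) * prm K a g⁻¹
    rw [star_mul, ← map_star (dg X K), hπ, isU_prm]
    exact (commute_pull_dg _ _).eq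

theorem IsU.norm_map {π : Γ →* (K →L[ℂ] K)} (hπ : IsU π) (g : Γ) (k : K) : ‖π g k‖ = ‖k‖ := by
  refine ContinuousLinearMap.norm_map_of_mem_unitary ⟨?_, ?_⟩ k <;> rw [hπ, ← map_mul] <;> simp

theorem prm_single [DecidableEq X] (a : Γ →* Equiv.Perm X) (g : Γ) (x : X) (k : K) :
    prm K a g (lp.single 2 x k) = lp.single 2 (a g x) k := by
  change pull K _ _ = _
  rw [pull_single, ← Equiv.toPEquiv_symm, map_inv]; rfl

theorem tr_single [DecidableEq X] (π : Γ →* (K →L[ℂ] K)) (a : Γ →* Equiv.Perm X) (g : Γ) (x : X)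
    (k : K) : tr π a g (lp.single 2 x k) = lp.single 2 (a g x) (π g k) := by
  change dg X K (π g) (prm K a g _) = _
  rw [prm_single, dg_single]

theorem eu_apply [DecidableEq X] (x y : X) (ξ : L2 X ℂ) (z : X) :
    eu x y ξ z = if z = x then ξ y else 0 := by
  split_ifs with h
  · subst h; exact pull_some (PEquiv.single_apply _ _) ξ
  · exact pull_none (PEquiv.single_apply_of_ne (Ne.symm h) _) ξ

theorem eu_mul [DecidableEq X] (x y z w : X) : eu x y * eu z w = if y = z then eu x w else 0 := by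
  ext1 ξ; ext p
  change eu x y (eu z w ξ) p = _
  by_cases h : y = z <;> simp [eu_apply, h]

theorem star_eu [DecidableEq X] (x y : X) : star (eu x y) = eu y x := by
  rw [eu, star_pull, PEquiv.symm_single]; rfl

theorem lam_eu [DecidableEq Γ] (g x y : Γ) : lam Γ g * eu x y = eu (g * x) y := by
  ext1 ξ; ext p
  change eu x y ξ (g⁻¹ * p) = _
  simp [eu_apply, inv_mul_eq_iff_eq_mul]

theorem eu_dlt [DecidableEq X] (y : X) : eu y y (dlt y) = dlt y := by
  ext p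
  rw [eu_apply]
  split_ifs with h
  · rw [h]
  · exact (lp.single_apply_ne (E := fun _ : X => ℂ) _ _ _ h).symm

theorem lin_reg_single [DecidableEq Γ] (π : Γ →* (K →L[ℂ] K)) (c : MonoidAlgebra ℂ Γ) (h x : Γ)
    (k : K) : lin (tr π (reg Γ)) c (lp.single 2 h k) x = c.coeff (x * h⁻¹) • π (x * h⁻¹) k := by
  induction c using MonoidAlgebra.induction_linear with
  | zero => simp
  | add c d hc hd =>
    rw [map_add, ContinuousLinearMap.add_apply, lp.coeFn_add, Pi.add_apply, hc, hd,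
      MonoidAlgebra.coeff_add, Finsupp.add_apply, add_smul]
  | single g r =>
    rw [MonoidAlgebra.lift_single, ContinuousLinearMap.smul_apply, tr_single, lp.coeFn_smul,
      Pi.smul_apply, MonoidAlgebra.coeff_single, Finsupp.single_apply]
    change r • (lp.single 2 (g * h) (π g k) : L2 Γ K) x = _
    split_ifs with hg
    · subst hg; simp
    · rw [lp.single_apply_ne _ _ _ (by rintro rfl; simp at hg)]; simp

theorem faith_reg [DecidableEq Γ] {π : Γ →* (K →L[ℂ] K)} (hπ : IsU π) (c : MonoidAlgebra ℂ Γ)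
    (h : Γ) (k k₀ : K) (hk : ‖k₀‖ = 1) :
    ‖lin (tr π (reg Γ)) c (lp.single 2 h k)‖ = ‖k‖ * ‖lin (tr π (reg Γ)) c (lp.single 2 1 k₀)‖ := by
  rw [← sq_eq_sq₀ (norm_nonneg _) (by positivity), mul_pow]
  have h1 := (Equiv.mulRight h⁻¹).hasSum_iff.2
    ((hasSum_sq (lin (tr π (reg Γ)) c (lp.single 2 1 k₀))).mul_left (‖k‖ ^ 2))
  refine (hasSum_sq _).unique (h1.congr_fun fun x => ?_)
  simp only [Function.comp_apply, lin_reg_single, norm_smul, IsU.norm_map hπ, hk, inv_one, mul_one,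
    Equiv.coe_mulRight]
  ring

end Crest.Agent.H8.KK.O6
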