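import Crest.Agent.H8.KK.O6a

/-! Task O6, part b: the operators of the concrete model. -/

set_option autoImplicit false
set_option linter.unusedSectionVars false

noncomputable section

namespace Crest.Agent.H8.KK.O6

open scoped InnerProductSpace Topology
open Filter TopologicalSpace

variable {Γ : Type} [Group Γ] [DecidableEq Γ]
variable {K : Type} [NormedAddCommGroup K] [InnerProductSpace ℂ K] [CompleteSpace K]
variable {G : ℕ → Type} [∀ n, Group (G n)] [∀ n, DecidableEq (G n)] (φ : ∀ n, Γ →* G n)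

/-- the blockwise action -/
def act : Γ →* Equiv.Perm (Σ n, G n) where
  toFun g := Equiv.sigmaCongrRight fun n => lm (φ n) g
  map_one' := by ext1 p; simp
  map_mul' g h := by ext1 p; simp [mul_assoc]

theorem act_apply (g : Γ) (n : ℕ) (x : G n) : act φ g ⟨n, x⟩ = ⟨n, φ n g * x⟩ := rfl

theorem act_fst (g : Γ) (p : Σ n, G n) : (act φ g p).1 = p.1 := rfl

/-- the basic operators -/
def op (T : K →L[ℂ] K) (g : Γ) (l : List ℕ) : L2 (Σ n, G n) K →L[ℂ] L2 (Σ n, G n) K :=
  dg _ K T * prm K (act φ) g * pull K (PEquiv.ofSet {p | ∀ i ∈ l, p.1 = i})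

theorem pull_ofSet {A : Type} (s : Set A) [DecidablePred (· ∈ s)] (ξ : L2 A K) (a : A) :
    pull K (PEquiv.ofSet s) ξ a = if a ∈ s then ξ a else 0 := by
  split_ifs with h
  · exact pull_some (PEquiv.ofSet_eq_some_self_iff.2 h) ξ
  · exact pull_none (if_neg h) ξ

theorem op_apply (T : K →L[ℂ] K) (g : Γ) (l : List ℕ) (ξ : L2 (Σ n, G n) K) (p : Σ n, G n) :
    op φ T g l ξ p = if ∀ i ∈ l, p.1 = i then T (ξ (act φ g⁻¹ p)) else 0 := by
  change T (pull K _ ξ (act φ g⁻¹ p)) = _
  rw [pull_ofSet, apply_ite T, map_zero]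
  rfl

theorem op_mul (T T' : K →L[ℂ] K) (g g' : Γ) (l l' : List ℕ) :
    op φ T g l * op φ T' g' l' = op φ (T * T') (g * g') (l ++ l') := by
  ext1 ξ; ext1; ext1 p
  change op φ T g l (op φ T' g' l' ξ) p = _
  simp only [op_apply, act_fst, List.forall_mem_append, mul_inv_rev, map_mul, Equiv.Perm.mul_apply]
  rw [ite_and]
  split_ifs
  · rfl
  · exact map_zero _
  · rfl

theorem star_op (T : K →L[ℂ] K) (g : Γ) (l : List ℕ) :
    star (op φ T g l) = op φ (star T) g⁻¹ l := by
  rw [op, star_mul, star_mul, ← map_star (dg _ K), isU_prm, star_pull, PEquiv.ofSet_symm]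
  ext1 ξ; ext1; ext1 p
  change pull K _ (prm K (act φ) g⁻¹ (dg _ K (star T) ξ)) p = _
  rw [pull_ofSet, op_apply]
  rfl

theorem op_add (T T' : K →L[ℂ] K) (g : Γ) (l : List ℕ) :
    op φ (T + T') g l = op φ T g l + op φ T' g l := by
  simp only [op, map_add, add_mul]

theorem op_sub (T T' : K →L[ℂ] K) (g : Γ) (l : List ℕ) :
    op φ (T - T') g l = op φ T g l - op φ T' g l := by
  simp only [op, map_sub, sub_mul]

theorem op_smul (c : ℂ) (T : K →L[ℂ] K) (g : Γ) (l : List ℕ) :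
    op φ (c • T) g l = c • op φ T g l := by
  simp only [op, map_smul, smul_mul_assoc]

theorem op_zero (g : Γ) (l : List ℕ) : op φ (0 : K →L[ℂ] K) g l = 0 := by
  simp only [op, map_zero, zero_mul]

theorem tr_eq_op (π : Γ →* (K →L[ℂ] K)) (g : Γ) : tr π (act φ) g = op φ (π g) g [] := by
  ext1 ξ; ext1; ext1 p
  rw [op_apply, if_pos (by simp)]; rfl

theorem op_single (T : K →L[ℂ] K) (g : Γ) (l : List ℕ) (p : Σ n, G n) (k : K) :
    op φ T g l (lp.single 2 p k) =
      if ∀ i ∈ l, p.1 = i then lp.single 2 (act φ g p) (T k) else 0 := by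
  change dg _ K T (prm K (act φ) g (pull K _ _)) = _
  rw [pull_single, PEquiv.ofSet_symm]
  split_ifs with h
  · rw [(PEquiv.ofSet_eq_some_self_iff (s := {p : Σ n, G n | ∀ i ∈ l, p.1 = i}) (a := p)).2 h]
    change dg _ K T (prm K (act φ) g (lp.single 2 p k)) = _
    rw [prm_single, dg_single]
  · have : PEquiv.ofSet {p : Σ n, G n | ∀ i ∈ l, p.1 = i} p = none := if_neg h
    rw [this]; simp

variable (K) in
/-- right translations -/
def rt (z : ∀ n, G n) : L2 (Σ n, G n) K →L[ℂ] L2 (Σ n, G n) K :=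
  pull K (Equiv.sigmaCongrRight fun n => Equiv.mulRight (z n)⁻¹).toPEquiv

theorem rt_single (z : ∀ n, G n) (n : ℕ) (x : G n) (k : K) :
    rt K z (lp.single 2 ⟨n, x⟩ k) = lp.single 2 ⟨n, x * z n⟩ k := by
  rw [rt, pull_single, ← Equiv.toPEquiv_symm]
  simp [Equiv.toPEquiv_apply]

theorem rt_op (z : ∀ n, G n) (T : K →L[ℂ] K) (g : Γ) (l : List ℕ) :
    rt K z * op φ T g l = op φ T g l * rt K z := by
  refine ext_single fun ⟨n, x⟩ k => ?_
  change rt K z (op φ T g l _) = op φ T g l (rt K z _)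
  rw [rt_single, op_single, op_single]
  split_ifs
  · rw [act_apply, act_apply, rt_single, mul_assoc]
  · exact map_zero _

theorem exists_V [Countable Γ] (hφ : ∀ g ≠ 1, ∀ᶠ n in atTop, φ n g ≠ 1) :
    ∃ V : ℕ → L2 Γ K →L[ℂ] L2 (Σ n, G n) K, (∀ n, ‖V n‖ ≤ 1) ∧
      (∀ ζ, Tendsto (fun n => ‖V n ζ‖) atTop (𝓝 ‖ζ‖)) ∧
      ∀ h, ∀ᶠ n in atTop, ∀ k, V n (lp.single 2 h k) = lp.single 2 ⟨n, φ n h⟩ k := by
  obtain ⟨enc, henc⟩ := exists_injective_nat Γ
  let B : ℕ → Set Γ := fun n => {g | ∀ h, enc h < enc g → φ n h ≠ φ n g}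
  have hB : ∀ n, Set.InjOn (fun g => (⟨n, φ n g⟩ : Σ n, G n)) (B n) := by
    intro n g hg h hh e
    have e' : φ n g = φ n h := by simpa using e
    rcases lt_trichotomy (enc g) (enc h) with h1 | h1 | h1
    · exact absurd e' (hh g h1)
    · exact henc h1
    · exact absurd e'.symm (hg h h1)
  have hev : ∀ g, ∀ᶠ n in atTop, g ∈ B n := fun g => by
    have hfin : {h | enc h < enc g}.Finite := (Set.finite_Iio (enc g)).preimage henc.injOn
    filter_upwards [(eventually_all_finite hfin).2 fun h hh => hφ (h⁻¹ * g) (by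
      rw [Ne, inv_mul_eq_one]; rintro rfl; exact lt_irrefl (enc h) hh)] with n hn h hh e
    exact hn h hh (by rw [map_mul, map_inv, e, inv_mul_cancel])
  let e := fun n => pinj (B n) _ (hB n)
  have hs : ∀ h, ∀ᶠ n in atTop, ∀ k : K,
      pull K (e n).symm (lp.single 2 h k) = lp.single 2 ⟨n, φ n h⟩ k := fun h =>
    (hev h).mono fun n hn k => by rw [pull_single, PEquiv.symm_symm, pinj_apply _ hn]; rfl
  have hle : ∀ {A A' : Type} (f : A ≃. A') (v : L2 A' K), ‖pull K f v‖ ≤ ‖v‖ := fun f v =>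
    ((pull K f).le_opNorm v).trans (by nlinarith [norm_pull_le (K := K) f, norm_nonneg v])
  refine ⟨fun n => pull K (e n).symm, fun n => norm_pull_le _, fun ζ => ?_, hs⟩
  have h1 := tendsto_of_single (K := K)
    (fun n => pull K (e n) ∘L pull K (e n).symm - ContinuousLinearMap.id ℂ _) (C := 2) zero_le_two
    (fun n v => by
      rw [two_mul]
      exact (norm_sub_le (pull K (e n) (pull K (e n).symm v)) v).trans
        (add_le_add ((hle _ _).trans (hle _ _)) le_rfl))
    (fun h k => by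
      filter_upwards [hs h, hev h] with n hn hn'
      change pull K (e n) (pull K (e n).symm _) - _ = 0
      rw [hn, pull_single, (e n).eq_some_iff.2 (pinj_apply _ hn')]
      exact sub_self _) ζ
  have h2 : Tendsto (fun n => ‖pull K (e n) (pull K (e n).symm ζ)‖) atTop (𝓝 ‖ζ‖) :=
    (tendsto_sub_nhds_zero_iff.1 h1).norm
  exact tendsto_of_tendsto_of_tendsto_of_le_of_le h2 tendsto_const_nhds (fun n => hle _ _)
    fun n => hle _ _

variable {φ}

theorem asy_op {V : ℕ → L2 Γ K →L[ℂ] L2 (Σ n, G n) K} (hV : ∀ n, ‖V n‖ ≤ 1)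
    (hs : ∀ h, ∀ᶠ n in atTop, ∀ k, V n (lp.single 2 h k) = lp.single 2 ⟨n, φ n h⟩ k)
    (T : K →L[ℂ] K) (g : Γ) (l : List ℕ) :
    Asy V (op φ T g l) (if l = [] then dg Γ K T * prm K (reg Γ) g else 0) := by
  refine asy_of_single hV fun h k => ?_
  rcases l with _ | ⟨i, l⟩
  · filter_upwards [hs h, hs (g * h)] with n h1 h2
    rw [h1, op_single, if_pos (by simp), if_pos rfl, act_apply, ← map_mul, ← h2]
    change _ = V n (dg Γ K T (prm K (reg Γ) g _))
    rw [prm_single, dg_single]; rfl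
  · filter_upwards [hs h, eventually_gt_atTop i] with n h1 h2
    rw [h1, op_single, if_neg (by simp [h2.ne']), if_neg (by simp)]
    simp

theorem op_mem_Gr {V : ℕ → L2 Γ K →L[ℂ] L2 (Σ n, G n) K} (hV : ∀ n, ‖V n‖ ≤ 1)
    (hs : ∀ h, ∀ᶠ n in atTop, ∀ k, V n (lp.single 2 h k) = lp.single 2 ⟨n, φ n h⟩ k)
    (T : K →L[ℂ] K) (g : Γ) (l : List ℕ) :
    (op φ T g l, if l = [] then dg Γ K T * prm K (reg Γ) g else 0) ∈ Gr V := by
  refine ⟨asy_op hV hs T g l, ?_⟩
  have := asy_op hV hs (star T) g⁻¹ l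
  change Asy V (star (op φ T g l)) (star (if l = [] then dg Γ K T * prm K (reg Γ) g else 0))
  rw [star_op]
  convert this using 1
  split_ifs
  · rw [star_mul, ← map_star (dg Γ K), isU_prm]
    exact (commute_pull_dg _ _).eq
  · exact star_zero _

variable (φ)

/-- the generators of `J` -/
def gens : Set (L2 (Σ n, G n) (L2 Γ ℂ) →L[ℂ] L2 (Σ n, G n) (L2 Γ ℂ)) :=
  Set.range fun p : Γ × Γ × Γ × List ℕ => op φ (eu p.1 p.2.1) p.2.2.1 p.2.2.2

theorem op_mem_span {T : L2 Γ ℂ →L[ℂ] L2 Γ ℂ} (hT : T ∈ Submodule.span ℂ {t | ∃ x y, t = eu x y})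
    (g : Γ) (l : List ℕ) : op φ T g l ∈ Submodule.span ℂ (gens φ) := by
  induction hT using Submodule.span_induction with
  | mem t ht => obtain ⟨x, y, rfl⟩ := ht; exact Submodule.subset_span ⟨(x, y, g, l), rfl⟩
  | zero => rw [op_zero]; exact zero_mem _
  | add _ _ _ _ h h' => rw [op_add]; exact add_mem h h'
  | smul c _ _ h => rw [op_smul]; exact Submodule.smul_mem _ _ h

/-- the algebraic ideal -/
def J₀ : NonUnitalStarSubalgebra ℂ (L2 (Σ n, G n) (L2 Γ ℂ) →L[ℂ] L2 (Σ n, G n) (L2 Γ ℂ)) where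
  carrier := Submodule.span ℂ (gens φ)
  add_mem' := add_mem
  zero_mem' := zero_mem _
  smul_mem' := fun c _ h => Submodule.smul_mem _ c h
  mul_mem' := fun {a b} ha hb => by
    induction ha using Submodule.span_induction with
    | mem s hs =>
      induction hb using Submodule.span_induction with
      | mem t ht =>
        obtain ⟨p, rfl⟩ := hs
        obtain ⟨q, rfl⟩ := ht
        change op φ _ _ _ * op φ _ _ _ ∈ Submodule.span ℂ (gens φ)
        rw [op_mul, eu_mul]
        refine op_mem_span φ ?_ _ _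
        split_ifs
        · exact Submodule.subset_span ⟨_, _, rfl⟩
        · exact zero_mem _
      | zero => rw [mul_zero]; exact zero_mem _
      | add _ _ _ _ h h' => rw [mul_add]; exact add_mem h h'
      | smul c _ _ h => rw [mul_smul_comm]; exact Submodule.smul_mem _ _ h
    | zero => rw [zero_mul]; exact zero_mem _
    | add _ _ _ _ h h' => rw [add_mul]; exact add_mem h h'
    | smul c _ _ h => rw [smul_mul_assoc]; exact Submodule.smul_mem _ _ h
  star_mem' := fun {a} ha => by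
    induction ha using Submodule.span_induction with
    | mem s hs =>
      obtain ⟨p, rfl⟩ := hs
      change star (op φ (eu p.1 p.2.1) _ _) ∈ Submodule.span ℂ (gens φ)
      rw [star_op, star_eu]
      exact Submodule.subset_span ⟨(_, _, _, _), rfl⟩
    | zero => rw [star_zero]; exact zero_mem _
    | add _ _ _ _ h h' => rw [star_add]; exact add_mem h h'
    | smul c _ _ h => rw [star_smul]; exact Submodule.smul_mem _ _ h

/-- closed submodules containing the generators contain the closure -/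
theorem J_ind {S : Submodule ℂ (L2 (Σ n, G n) (L2 Γ ℂ) →L[ℂ] L2 (Σ n, G n) (L2 Γ ℂ))}
    (hc : IsClosed (S : Set (L2 (Σ n, G n) (L2 Γ ℂ) →L[ℂ] L2 (Σ n, G n) (L2 Γ ℂ))))
    (h : ∀ x y g l, op φ (eu x y) g l ∈ S) : ∀ j ∈ (J₀ φ).topologicalClosure, j ∈ S :=
  fun _ hj => closure_minimal (Submodule.span_le.2 (by rintro _ ⟨p, rfl⟩; exact h _ _ _ _)) hc hj

end Crest.Agent.H8.KK.O6
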