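import Crest.Agent.H8.KK.O5b

/-! Assembly of S0105 from the pieces. -/

set_option autoImplicit false

namespace Crest.Agent.H8.KK

open scoped InnerProductSpace

theorem s0105_of (h1 : O1) (h2 : O2a) (h2' : O2b) (h3 : O3) (h4 : O4) (h6 : O6) (ε : ℝ)
    (hε : 0 < ε) :
    ∃ (H : Type) (_ : NormedAddCommGroup H) (_ : InnerProductSpace ℂ H) (_ : CompleteSpace H)
      (_ : TopologicalSpace.SeparableSpace H) (A B : StarSubalgebra ℂ (H →L[ℂ] H)),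
      IsClosed (A : Set (H →L[ℂ] H)) ∧ IsClosed (B : Set (H →L[ℂ] H)) ∧
      TopologicalSpace.IsSeparable (A : Set (H →L[ℂ] H)) ∧
      TopologicalSpace.IsSeparable (B : Set (H →L[ℂ] H)) ∧
      (∀ a ∈ A, ‖a‖ ≤ 1 → ∃ b ∈ B, ‖b‖ ≤ 1 ∧ ‖a - b‖ < ε) ∧
      (∀ b ∈ B, ‖b‖ ≤ 1 → ∃ a ∈ A, ‖a‖ ≤ 1 ∧ ‖b - a‖ < ε) ∧
      Set.centralizer (Set.centralizer (A : Set (H →L[ℂ] H))) =
        Set.centralizer (Set.centralizer (B : Set (H →L[ℂ] H))) ∧
      ¬ ∃ u : H →L[ℂ] H, u ∈ unitary (H →L[ℂ] H) ∧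
          ∀ y : H →L[ℂ] H, y ∈ B ↔ ∃ x ∈ A, y = u * x * star u := by
  set s := min (ε / 50) (1 / 4) with hs
  have hs0 : 0 < s := by positivity
  have hs1 : s ≤ ε / 50 := min_le_left _ _
  have hs2 : s ≤ 1 / 4 := min_le_right _ _
  obtain ⟨n, hn⟩ := exists_nat_ge ((2 / s) ^ 2)
  obtain ⟨π, p1, p2, p3, p4⟩ := h1 (n + 1) s hs0.le (by nlinarith)
  obtain ⟨m, φ, hφ⟩ := h2' (n + 1)
  obtain ⟨H, H', i1, i2, i3, i4, i5, i6, i7, D, d1, d2⟩ := h6 _ m φ hφ π (6 * s) p1 p2 p3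
  obtain ⟨a1, a2, a3, a4⟩ := h3 _ H H' _ D (by positivity)
  choose S hS using a1
  have hm : ∀ b x, x ∈ S b ↔ x ∈ D.A b := fun b x => by rw [← hS]; rfl
  have hε' : 4 * (2 * (6 * s)) < ε := by linarith
  refine ⟨H, i1, i2, i3, i4, S false, S true, ?_, ?_, ?_, ?_, ?_, ?_, ?_, ?_⟩
  · rw [hS]; exact isClosed_closure
  · rw [hS]; exact isClosed_closure
  · rw [hS]; exact a2 _
  · rw [hS]; exact a2 _
  · simpa only [hm, Bool.not_false, Bool.not_true] using a3 ε hε' false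
  · simpa only [hm, Bool.not_false, Bool.not_true] using a3 ε hε' true
  · rw [hS, hS, a4]
  rintro ⟨u, hu, h⟩
  simp only [hm] at h
  obtain ⟨ν, C, hC, n1, n2, n3⟩ := h4 _ H H' _ D u hu h
  have key := d2 ν n3 (∑ i, MonoidAlgebra.single (FreeGroup.of i) 1) _ fun k =>
    o5b _ _ (φ k) H ν C n1 (fun c => (n2 c).trans (mul_le_mul_of_nonneg_left (d1 c) hC)) _
  simp only [map_sum, MonoidAlgebra.lift_single, one_smul, sum_apply, inner_sum, p4,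
    Finset.sum_const, Finset.card_univ, Fintype.card_fin, nsmul_eq_mul] at key
  have k2 := key.trans (h2 (n + 1))
  rw [norm_mul, Complex.norm_natCast, Complex.norm_real, Real.norm_of_nonneg hs0.le] at k2
  have k3 : 2 / s < √((n + 1 : ℕ) : ℝ) := Real.lt_sqrt_of_sq_lt (by push_cast; linarith)
  have k4 := Real.mul_self_sqrt (x := ((n + 1 : ℕ) : ℝ)) (by positivity)
  have k5 : 0 < √((n + 1 : ℕ) : ℝ) := by positivity
  rw [div_lt_iff₀ hs0] at k3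
  nlinarith

end Crest.Agent.H8.KK
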