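import Crest.Agent.H8.KK.L2

/-! Statements for S0105 (close, non-conjugate separable C⋆-algebras); proofs in `OPlan.lean`. -/

set_option autoImplicit false

noncomputable section

namespace Crest.Agent.H8.KK

open scoped InnerProductSpace
open Filter TopologicalSpace

variable {Γ : Type} [Group Γ] {X : Type}
variable {K : Type} [NormedAddCommGroup K] [InnerProductSpace ℂ K] [CompleteSpace K]

/-- the group algebra representation -/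
abbrev lin (ρ : Γ →* (K →L[ℂ] K)) : MonoidAlgebra ℂ Γ →ₐ[ℂ] (K →L[ℂ] K) :=
  MonoidAlgebra.lift ℂ (K →L[ℂ] K) Γ ρ

/-- unitary representation -/
def IsU (ρ : Γ →* (K →L[ℂ] K)) : Prop := ∀ g, star (ρ g) = ρ g⁻¹

variable (K) in
/-- permutation representation: `prm a g ξ x = ξ (a g⁻¹ x)` -/
def prm (a : Γ →* Equiv.Perm X) : Γ →* (L2 X K →L[ℂ] L2 X K) where
  toFun g := pull K (a g⁻¹).toPEquiv
  map_one' := by ext1 ξ; ext x; simp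
  map_mul' g h := by ext1 ξ; ext x; simp

omit [CompleteSpace K] in
@[simp] theorem prm_apply (a : Γ →* Equiv.Perm X) (g : Γ) (ξ : L2 X K) (x : X) :
    prm K a g ξ x = ξ (a g⁻¹ x) := rfl

/-- tensor product `π ⊗ prm a`: `tr π a g ξ x = π g (ξ (a g⁻¹ x))` -/
def tr (π : Γ →* (K →L[ℂ] K)) (a : Γ →* Equiv.Perm X) : Γ →* (L2 X K →L[ℂ] L2 X K) where
  toFun g := dg X K (π g) * prm K a g
  map_one' := by simp
  map_mul' g h := by ext1 ξ; ext x; simp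

@[simp] theorem tr_apply (π : Γ →* (K →L[ℂ] K)) (a : Γ →* Equiv.Perm X) (g : Γ) (ξ : L2 X K)
    (x : X) : tr π a g ξ x = π g (ξ (a g⁻¹ x)) := rfl

/-- left multiplication through a homomorphism -/
def lm {G : Type} [Group G] (φ : Γ →* G) : Γ →* Equiv.Perm G := (MulAction.toPermHom G G).comp φ

@[simp] theorem lm_apply {G : Type} [Group G] (φ : Γ →* G) (g : Γ) (x : G) :
    lm φ g x = φ g * x := rfl

variable (Γ) in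
/-- the left regular action -/
abbrev reg : Γ →* Equiv.Perm Γ := lm (MonoidHom.id Γ)

variable (Γ) in
/-- the left regular representation -/
abbrev lam : Γ →* (L2 Γ ℂ →L[ℂ] L2 Γ ℂ) := prm ℂ (reg Γ)

/-- matrix units, `eu x y δ_y = δ_x` -/
def eu [DecidableEq X] (x y : X) : L2 X ℂ →L[ℂ] L2 X ℂ := pull ℂ (PEquiv.single x y)

/-- basis vectors -/
abbrev dlt [DecidableEq X] (x : X) : L2 X ℂ := lp.single 2 x (1 : ℂ)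

/-- O1: Pytlik–Szwarc representations. -/
def O1 : Prop := ∀ (r : ℕ) (s : ℝ), 0 ≤ s → s ^ 2 ≤ 1 / 12 →
  ∃ π : FreeGroup (Fin r) →* (L2 (FreeGroup (Fin r)) ℂ →L[ℂ] L2 (FreeGroup (Fin r)) ℂ), IsU π ∧
    (∀ g, ‖π g - lam _ g‖ ≤ 6 * s) ∧
    (∀ g, π g - lam _ g ∈ Submodule.span ℂ {t | ∃ x y, t = eu x y}) ∧
    ∀ i, ⟪dlt (1 : FreeGroup (Fin r)), π (FreeGroup.of i) (dlt 1)⟫_ℂ = s

/-- O2a: Haagerup's bound. -/
def O2a : Prop := ∀ r : ℕ, ‖∑ i : Fin r, lam (FreeGroup (Fin r)) (FreeGroup.of i)‖ ≤ 2 * √(r : ℝ)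

/-- O2b: free groups are residually finite. -/
def O2b : Prop := ∀ r : ℕ, ∃ (m : ℕ → ℕ) (φ : ∀ n, FreeGroup (Fin r) →* Equiv.Perm (Fin (m n))),
  ∀ g ≠ 1, ∀ᶠ n in atTop, φ n g ≠ 1

/-- O5a: Fell absorption. -/
def O5a : Prop := ∀ (Γ : Type) [Group Γ] (c : MonoidAlgebra ℂ Γ),
  (∀ (X : Type) (a : Γ →* Equiv.Perm X), ‖lin (tr (lam Γ) a) c‖ ≤ ‖lin (lam Γ) c‖) ∧
  ∀ (π : Γ →* (L2 Γ ℂ →L[ℂ] L2 Γ ℂ)) (κ : ℝ), IsU π → (∀ g, ‖π g - lam Γ g‖ ≤ κ) →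
    ‖lin (tr π (reg Γ)) c‖ = ‖lin (lam Γ) c‖ ∧
    ‖lin (tr π (reg Γ)) c - lin (tr (lam Γ) (reg Γ)) c‖ ≤ 2 * κ * ‖lin (lam Γ) c‖

/-- O5b: the power trick. -/
def O5b : Prop := ∀ (Γ : Type) [Group Γ] (G : Type) [Group G] [Fintype G] (φ : Γ →* G)
  (H : Type) [NormedAddCommGroup H] [InnerProductSpace ℂ H] [CompleteSpace H]
  (ν : Γ →* (H →L[ℂ] H)) (C : ℝ), IsU ν → (∀ c, ‖lin ν c‖ ≤ C * ‖lin (lam Γ) c‖) →
  ∀ c, ‖lin (tr ν (lm φ)) c‖ ≤ ‖lin (lam Γ) c‖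

/-- The abstract data: `Gr` is the graph of a contractive ⋆-homomorphism `q`. -/
structure Core (Γ H H' : Type) [Group Γ] [DecidableEq Γ]
    [NormedAddCommGroup H] [InnerProductSpace ℂ H] [CompleteSpace H]
    [NormedAddCommGroup H'] [InnerProductSpace ℂ H'] [CompleteSpace H'] (η : ℝ) where
  Gr : StarSubalgebra ℂ ((H →L[ℂ] H) × (H' →L[ℂ] H'))
  Gr_closed : IsClosed (Gr : Set ((H →L[ℂ] H) × (H' →L[ℂ] H')))
  Gr_norm : ∀ p ∈ Gr, ‖p.2‖ ≤ ‖p.1‖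
  J : NonUnitalStarSubalgebra ℂ (H →L[ℂ] H)
  J_closed : IsClosed (J : Set (H →L[ℂ] H))
  J_sep : IsSeparable (J : Set (H →L[ℂ] H))
  J_dom : ∀ j ∈ J, ∃ j', (j, j') ∈ Gr
  ρ : Bool → Γ →* (H →L[ℂ] H)
  θ : Bool → Γ →* (H' →L[ℂ] H')
  ρ_star : ∀ b, IsU (ρ b)
  θ_star : ∀ b, IsU (θ b)
  ρθ : ∀ b g, (ρ b g, θ b g) ∈ Gr
  ρJ : ∀ g, ∀ j ∈ J, ρ false g * j ∈ J
  ρ_sub : ∀ g, ρ true g - ρ false g ∈ J
  fell : ∀ b c, ‖lin (ρ false) c‖ ≤ ‖lin (θ b) c‖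
  close : ∀ b c, ‖lin (θ true) c - lin (θ false) c‖ ≤ η * ‖lin (θ b) c‖
  ω : H'
  ω_norm : ‖ω‖ = 1
  ω_tr : ∀ b g, ⟪ω, θ b g ω⟫_ℂ = if g = 1 then 1 else 0
  faith : ∃ Z : Set H', Dense (Submodule.span ℂ Z : Set H') ∧
    ∀ ζ ∈ Z, ∀ b c, ‖lin (θ b) c ζ‖ ≤ ‖ζ‖ * ‖lin (θ b) c ω‖
  E : Γ → Γ → H →L[ℂ] H
  E_mul : ∀ x y z w, E x y * E z w = if y = z then E x w else 0
  E_star : ∀ x y, star (E x y) = E y x
  E_mem : ∀ x y, E x y ∈ J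
  E_lim : ∀ j ∈ J, ∀ ε > 0, ∃ F : Finset Γ, ‖j - (∑ x ∈ F, E x x) * j‖ ≤ ε
  tot : ∃ Z : Set H, Dense (Submodule.span ℂ Z : Set H) ∧
    ∀ ζ ∈ Z, ∃ e ∈ J, (e, 0) ∈ Gr ∧ e ζ = ζ

namespace Core

variable [DecidableEq Γ] {H H' : Type} [NormedAddCommGroup H] [InnerProductSpace ℂ H]
  [CompleteSpace H] [NormedAddCommGroup H'] [InnerProductSpace ℂ H'] [CompleteSpace H'] {η : ℝ}
  (D : Core Γ H H' η)

/-- the ideal `I = J ∩ ker q` -/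
def I (i : H →L[ℂ] H) : Prop := i ∈ D.J ∧ (i, 0) ∈ D.Gr

/-- the algebras `A b` as sets -/
def A (b : Bool) : Set (H →L[ℂ] H) := closure {a | ∃ i c, D.I i ∧ a = i + lin (D.ρ b) c}

end Core

/-- O3: the algebras are separable, close and have the same commutant. -/
def O3 : Prop := ∀ (Γ H H' : Type) [Group Γ] [DecidableEq Γ] [Countable Γ]
  [NormedAddCommGroup H] [InnerProductSpace ℂ H] [CompleteSpace H]
  [NormedAddCommGroup H'] [InnerProductSpace ℂ H'] [CompleteSpace H'] (η : ℝ) (D : Core Γ H H' η),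
  0 ≤ η → (∀ b, ∃ S : StarSubalgebra ℂ (H →L[ℂ] H), (S : Set (H →L[ℂ] H)) = D.A b) ∧
    (∀ b, IsSeparable (D.A b)) ∧
    (∀ ε, 4 * η < ε → ∀ b, ∀ a ∈ D.A b, ‖a‖ ≤ 1 → ∃ a' ∈ D.A (!b), ‖a'‖ ≤ 1 ∧ ‖a - a'‖ < ε) ∧
    (D.A false).centralizer = (D.A true).centralizer

/-- O4: a spatial isomorphism produces a tempered lift. -/
def O4 : Prop := ∀ (Γ H H' : Type) [Group Γ] [DecidableEq Γ] [Infinite Γ]
  [NormedAddCommGroup H] [InnerProductSpace ℂ H] [CompleteSpace H]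
  [NormedAddCommGroup H'] [InnerProductSpace ℂ H'] [CompleteSpace H'] (η : ℝ) (D : Core Γ H H' η),
  ∀ u ∈ unitary (H →L[ℂ] H), (∀ y, y ∈ D.A true ↔ ∃ x ∈ D.A false, y = u * x * star u) →
    ∃ (ν : Γ →* (H →L[ℂ] H)) (C : ℝ), 0 ≤ C ∧ IsU ν ∧ (∀ c, ‖lin ν c‖ ≤ C * ‖lin (D.θ true) c‖) ∧
      ∀ g, D.I (ν g - D.ρ true g)

/-- O6: the concrete model. -/
def O6 : Prop := ∀ (Γ : Type) [Group Γ] [DecidableEq Γ] [Countable Γ] (m : ℕ → ℕ)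
  (φ : ∀ n, Γ →* Equiv.Perm (Fin (m n))), (∀ g ≠ 1, ∀ᶠ n in atTop, φ n g ≠ 1) →
  ∀ (π : Γ →* (L2 Γ ℂ →L[ℂ] L2 Γ ℂ)) (κ : ℝ), IsU π → (∀ g, ‖π g - lam Γ g‖ ≤ κ) →
    (∀ g, π g - lam Γ g ∈ Submodule.span ℂ {t | ∃ x y, t = eu x y}) →
  ∃ (H H' : Type) (_ : NormedAddCommGroup H) (_ : InnerProductSpace ℂ H) (_ : CompleteSpace H)
    (_ : SeparableSpace H) (_ : NormedAddCommGroup H') (_ : InnerProductSpace ℂ H')
    (_ : CompleteSpace H') (D : Core Γ H H' (2 * κ)),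
    (∀ c, ‖lin (D.θ true) c‖ ≤ ‖lin (lam Γ) c‖) ∧
    ∀ ν : Γ →* (H →L[ℂ] H), (∀ g, D.I (ν g - D.ρ true g)) → ∀ (c : MonoidAlgebra ℂ Γ) (M : ℝ),
      (∀ n, ‖lin (tr ν (lm (φ n))) c‖ ≤ M) → ‖⟪dlt (1 : Γ), lin π c (dlt 1)⟫_ℂ‖ ≤ M

end Crest.Agent.H8.KK
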